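import Mathlib

open MeasureTheory Set

namespace Vale.Agent.P243

variable {V : Type*} [NormedAddCommGroup V] [InnerProductSpace ℝ V]

/-- Sum after flipping one sign. -/
lemma sum_update_flip {ι W : Type*} [Fintype ι] [DecidableEq ι] [AddCommGroup W]
    (g : ι → ℤˣ → W) (ε : ι → ℤˣ) (k : ι) :
    ∑ i, g i (Function.update ε k (-ε k) i) = ∑ i, g i (ε i) - g k (ε k) + g k (-ε k) := by
  rw [← Finset.add_sum_erase Finset.univ (fun i => g i (Function.update ε k (-ε k) i))
    (Finset.mem_univ k), ← Finset.add_sum_erase Finset.univ (fun i => g i (ε i)) (Finset.mem_univ k)]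
  have : ∑ x ∈ Finset.univ.erase k, g x (Function.update ε k (-ε k) x)
      = ∑ x ∈ Finset.univ.erase k, g x (ε x) := by
    apply Finset.sum_congr rfl
    intro x hx
    rw [Function.update_of_ne (Finset.ne_of_mem_erase hx)]
  rw [this]
  simp only [Function.update_self]
  abel

/-- **Bang's lemma** (sign selection). -/
lemma bang_signs {ι : Type*} [Fintype ι] (a : ι → V) (t : ι → ℝ) :
    ∃ ε : ι → ℤˣ, ∀ k, ‖a k‖ ^ 2 ≤
      ((ε k : ℤ) : ℝ) * (inner ℝ (∑ i, ((ε i : ℤ) : ℝ) • a i) (a k) + t k) := by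
  classical
  obtain ⟨ε, hε⟩ := Finite.exists_max (fun ε : ι → ℤˣ =>
    ‖∑ i, ((ε i : ℤ) : ℝ) • a i‖ ^ 2 + 2 * ∑ i, ((ε i : ℤ) : ℝ) * t i)
  refine ⟨ε, fun k => ?_⟩
  have h := hε (Function.update ε k (-ε k))
  rw [sum_update_flip (fun i e => ((e : ℤ) : ℝ) • a i) ε k,
    sum_update_flip (fun i e => ((e : ℤ) : ℝ) * t i) ε k] at h
  set z := ∑ i, ((ε i : ℤ) : ℝ) • a i with hz
  set s := ∑ i, ((ε i : ℤ) : ℝ) * t i with hs
  set e : ℝ := ((ε k : ℤ) : ℝ) with he
  have he2 : e * e = 1 := by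
    rcases Int.units_eq_one_or (ε k) with h1 | h1 <;> simp [he, h1]
  have hneg : (((-ε k : ℤˣ) : ℤ) : ℝ) = -e := by simp [he]
  rw [hneg] at h
  have e1 : z - e • a k + (-e) • a k = z - (2 * e) • a k := by
    rw [neg_smul, two_mul, add_smul]; abel
  rw [e1, norm_sub_sq_real, inner_smul_right, norm_smul] at h
  have e2 : (‖2 * e‖ * ‖a k‖) ^ 2 = 4 * ‖a k‖ ^ 2 := by
    rw [mul_pow, Real.norm_eq_abs, sq_abs]
    have : (2 * e) ^ 2 = 4 := by nlinarith
    rw [this]
  rw [e2] at h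
  nlinarith


lemma convex_combo_mem {ι : Type*} [Fintype ι] {M : Set V} (hM : Convex ℝ M) {x₀ : V}
    (hx₀ : x₀ ∈ M) (μ : ι → ℝ) (hμ : ∀ i, 0 ≤ μ i) (hs : ∑ i, μ i ≤ 1) (c : ι → V)
    (hc : ∀ i, c i ∈ M) : (1 - ∑ i, μ i) • x₀ + ∑ i, μ i • c i ∈ M := by
  have := hM.sum_mem (t := (Finset.univ : Finset (Option ι)))
    (w := fun o => o.elim (1 - ∑ i, μ i) μ) (z := fun o => o.elim x₀ c)
    (by
      intro o _
      cases o with
      | none => simpa using hs
      | some i => exact hμ i)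
    (by rw [Fintype.sum_option]; simp)
    (by
      intro o _
      cases o with
      | none => exact hx₀
      | some i => exact hc i)
  rw [Fintype.sum_option] at this
  simpa using this

/-- Fitting lemma: all signed sums of short vectors fit, after a translation, in `M`. -/
lemma fitting {ι : Type*} [Fintype ι] {M : Set V} (hM : Convex ℝ M) (hne : M.Nonempty) {n : V}
    {w : ℝ} (hw : 0 < w)
    (H : ∀ v : V, inner ℝ v n = 0 → ‖v‖ ≤ w → ∃ p ∈ M, ∃ q ∈ M, q - p = v)
    (a : ι → V) (han : ∀ i, inner ℝ (a i) n = 0) (hsum : ∑ i, 2 * ‖a i‖ ≤ w) :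
    ∃ y : V, ∀ ε : ι → ℤˣ, y + ∑ i, ((ε i : ℤ) : ℝ) • a i ∈ M := by
  obtain ⟨x₀, hx₀⟩ := hne
  have hv : ∀ i, ∃ p ∈ M, ∃ q ∈ M, q - p = (w / ‖a i‖) • a i := by
    intro i
    apply H
    · rw [inner_smul_left, han i, mul_zero]
    · rw [norm_smul, Real.norm_eq_abs, abs_of_nonneg (div_nonneg hw.le (norm_nonneg _))]
      by_cases h0 : ‖a i‖ = 0
      · rw [h0]; simp [hw.le]
      · rw [div_mul_cancel₀ _ h0]
  choose p hp q hq hpq using hv
  set μ : ι → ℝ := fun i => 2 * ‖a i‖ / w with hμdef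
  have hμ0 : ∀ i, 0 ≤ μ i := fun i => div_nonneg (by positivity) hw.le
  have hμs : ∑ i, μ i ≤ 1 := by
    rw [hμdef, ← Finset.sum_div, div_le_one hw]
    exact hsum
  have hμa : ∀ i, μ i • (q i - p i) = (2 : ℝ) • a i := by
    intro i
    rw [hpq i, smul_smul]
    by_cases h0 : ‖a i‖ = 0
    · have : a i = 0 := norm_eq_zero.1 h0
      rw [this]; simp
    · congr 1
      rw [hμdef]
      field_simp
  refine ⟨(1 - ∑ i, μ i) • x₀ + ∑ i, μ i • ((1 / 2 : ℝ) • (p i + q i)), fun ε => ?_⟩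
  have key := convex_combo_mem hM hx₀ μ hμ0 hμs (fun i => if ε i = 1 then q i else p i)
    (fun i => by
      by_cases h : ε i = 1
      · simp only [h, if_true]; exact hq i
      · simp only [h, if_false]; exact hp i)
  have e : (1 - ∑ i, μ i) • x₀ + ∑ i, μ i • ((1 / 2 : ℝ) • (p i + q i))
      + ∑ i, ((ε i : ℤ) : ℝ) • a i
      = (1 - ∑ i, μ i) • x₀ + ∑ i, μ i • (if ε i = 1 then q i else p i) := by
    rw [add_assoc, ← Finset.sum_add_distrib]
    congr 1
    apply Finset.sum_congr rfl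
    intro i _
    have ha : a i = (1 / 2 : ℝ) • (μ i • (q i - p i)) := by
      rw [hμa i, smul_smul]; norm_num
    rcases Int.units_eq_one_or (ε i) with h1 | h1
    · simp only [h1, if_true, Units.val_one, Int.cast_one, one_smul]
      rw [ha, smul_comm (1 / 2 : ℝ) (μ i), ← smul_add, ← smul_add]
      congr 1
      have : p i + q i + (q i - p i) = (2 : ℝ) • q i := by rw [two_smul]; abel
      rw [this, smul_smul]; norm_num
    · have hne1 : (-1 : ℤˣ) ≠ 1 := by decide
      simp only [h1, hne1, if_false, Units.val_neg, Units.val_one, Int.cast_neg, Int.cast_one,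
        neg_smul, one_smul]
      rw [ha, smul_comm (1 / 2 : ℝ) (μ i), ← sub_eq_add_neg, ← smul_sub, ← smul_sub]
      congr 1
      have : p i + q i - (q i - p i) = (2 : ℝ) • p i := by rw [two_smul]; abel
      rw [this, smul_smul]; norm_num
  rw [e]
  exact key


/-- **Bang's plank theorem**, finite open version, relative to the hyperplane orthogonal to `n`. -/
theorem plank_finite {ι : Type*} [Fintype ι] {M : Set V} (hM : Convex ℝ M) (hne : M.Nonempty)
    {n : V} {w : ℝ} (hw : 0 < w)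
    (H : ∀ v : V, inner ℝ v n = 0 → ‖v‖ ≤ w → ∃ p ∈ M, ∃ q ∈ M, q - p = v)
    (ν : ι → V) (hν : ∀ i, ‖ν i‖ = 1) (hνn : ∀ i, inner ℝ (ν i) n = 0)
    (α β : ι → ℝ) (hαβ : ∀ i, α i ≤ β i)
    (hcov : ∀ x ∈ M, ∃ i, inner ℝ x (ν i) ∈ Ioo (α i) (β i)) :
    w < ∑ i, (β i - α i) := by
  by_contra hcon
  rw [not_lt] at hcon
  set r : ι → ℝ := fun i => (β i - α i) / 2 with hr
  have hr0 : ∀ i, 0 ≤ r i := fun i => by
    have := hαβ i
    simp only [hr]; linarith
  set a : ι → V := fun i => r i • ν i with ha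
  have hnorm : ∀ i, ‖a i‖ = r i := fun i => by
    simp only [ha]
    rw [norm_smul, hν i, mul_one, Real.norm_eq_abs, abs_of_nonneg (hr0 i)]
  obtain ⟨y, hy⟩ := fitting hM hne hw H a
    (fun i => by simp only [ha]; rw [inner_smul_left, hνn i, mul_zero])
    (by
      calc ∑ i, 2 * ‖a i‖ = ∑ i, (β i - α i) := by
            apply Finset.sum_congr rfl
            intro i _
            rw [hnorm i]; simp only [hr]; ring
        _ ≤ w := hcon)
  obtain ⟨ε, hε⟩ := bang_signs a (fun k => r k * (inner ℝ y (ν k) - (α k + β k) / 2))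
  obtain ⟨k, hk⟩ := hcov _ (hy ε)
  have h1 := hε k
  set z := ∑ i, ((ε i : ℤ) : ℝ) • a i with hz
  rw [hnorm k] at h1
  have h2 : inner ℝ z (a k) = r k * inner ℝ z (ν k) := by
    simp only [ha]; rw [inner_smul_right]
  rw [h2] at h1
  rw [inner_add_left] at hk
  set A := inner ℝ y (ν k) with hA
  set Z := inner ℝ z (ν k) with hZ
  have hrk : r k = (β k - α k) / 2 := rfl
  have hpos : 0 < r k := by
    have := hk.1.trans hk.2
    rw [hrk]; linarith
  rcases Int.units_eq_one_or (ε k) with h3 | h3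
  · rw [h3] at h1
    simp only [Units.val_one, Int.cast_one, one_mul] at h1
    have : r k * (A + Z - (α k + β k) / 2) < r k * r k := by
      apply mul_lt_mul_of_pos_left _ hpos
      rw [hrk]; linarith [hk.2]
    nlinarith
  · rw [h3] at h1
    simp only [Units.val_neg, Units.val_one, Int.cast_neg, Int.cast_one] at h1
    have : r k * (-(A + Z - (α k + β k) / 2)) < r k * r k := by
      apply mul_lt_mul_of_pos_left _ hpos
      rw [hrk]; linarith [hk.1]
    nlinarith

end Vale.Agent.P243
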