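import Mathlib

namespace Vale.Agent.P243

/-- Linear certificate for the planar lemma, case `p ≤ q`. -/
theorem cert_le {p q r s x0s xs1 x0r xr1 y1 y2 y3 : ℝ}
    (hp0 : 0 ≤ p) (hpq : p ≤ q) (hq1 : q ≤ 1) (hr0 : 0 ≤ r) (hr1 : r ≤ 1) (hs0 : 0 ≤ s) (hs1 : s ≤ 1)
    (hx : x0s + xs1 = x0r + xr1)
    (hy1 : 0 ≤ y1) (hy2 : 0 ≤ y2) (hy3 : 0 ≤ y3)
    (hL4 : s * (1 - p) ≤ (1 - p) * x0s + s * (y2 + y3))
    (hL3 : (1 - s) * (1 - q) ≤ (1 - q) * xs1 + (1 - s) * y3)
    (hL1 : r * p ≤ p * x0r + r * y1)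
    (hL2 : (1 - r) * q ≤ q * xr1 + (1 - r) * (y1 + y2))
    (hH : q - p ≤ (q - p) * (x0s + xs1) + y2)
    (hG : 0 ≤ r * q * (1 - s) * (1 - p) - s * p * (1 - r) * (1 - q)) :
    1 ≤ (x0s + xs1) + (y1 + y2 + y3) := by
  set x := x0s + xs1 with hxdef
  have hp1 : p ≤ 1 := le_trans hpq hq1
  have hq0 : 0 ≤ q := le_trans hp0 hpq
  set Φ := r * q + (1 - r) * p with hΦ
  set Ψ := s * (1 - q) + (1 - s) * (1 - p) with hΨ
  set G := r * q * (1 - s) * (1 - p) - s * p * (1 - r) * (1 - q) with hGdef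
  have hΦ0 : 0 ≤ Φ := by
    have h1 : 0 ≤ r * q := mul_nonneg hr0 hq0
    have h2 : 0 ≤ (1 - r) * p := mul_nonneg (by linarith) hp0
    linarith
  have hΨ0 : 0 ≤ Ψ := by
    have h1 : 0 ≤ s * (1 - q) := mul_nonneg hs0 (by linarith)
    have h2 : 0 ≤ (1 - s) * (1 - p) := mul_nonneg (by linarith) (by linarith)
    linarith
  -- U and Lw
  have hU : 0 ≤ (1 - p) * (1 - q) * x + s * (1 - q) * (y2 + y3) + (1 - s) * (1 - p) * y3
      - (1 - p) * (1 - q) := by
    have h1 := mul_le_mul_of_nonneg_left hL4 (show 0 ≤ 1 - q by linarith)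
    have h2 := mul_le_mul_of_nonneg_left hL3 (show 0 ≤ 1 - p by linarith)
    have : (1 - p) * (1 - q) * x = (1 - q) * ((1 - p) * x0s) + (1 - p) * ((1 - q) * xs1) := by
      rw [hxdef]; ring
    nlinarith [h1, h2, this]
  have hLw : 0 ≤ p * q * x + r * q * y1 + (1 - r) * p * (y1 + y2) - p * q := by
    have h1 := mul_le_mul_of_nonneg_left hL1 hq0
    have h2 := mul_le_mul_of_nonneg_left hL2 hp0
    have : p * q * x = q * (p * x0r) + p * (q * xr1) := by
      rw [hx]; ring
    nlinarith [h1, h2, this]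
  have hH' : 0 ≤ (q - p) * x + y2 - (q - p) := by linarith
  rcases hΦ0.eq_or_lt with hΦz | hΦpos
  · -- Φ = 0, so p = 0
    have hrq : r * q = 0 := by
      have h1 : 0 ≤ r * q := mul_nonneg hr0 hq0
      have h2 : 0 ≤ (1 - r) * p := mul_nonneg (by linarith) hp0
      linarith
    have hrp : (1 - r) * p = 0 := by
      have h1 : 0 ≤ r * q := mul_nonneg hr0 hq0
      have h2 : 0 ≤ (1 - r) * p := mul_nonneg (by linarith) hp0
      linarith
    have hpz : p = 0 := by
      rcases mul_eq_zero.1 hrp with h | h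
      · have hr : r = 1 := by linarith
        rw [hr, one_mul] at hrq
        linarith
      · exact h
    rcases hΨ0.eq_or_lt with hΨz | hΨpos
    · -- s = 1 and q = 1
      have h1 : s * (1 - q) = 0 := by
        have h1 : 0 ≤ s * (1 - q) := mul_nonneg hs0 (by linarith)
        have h2 : 0 ≤ (1 - s) * (1 - p) := mul_nonneg (by linarith) (by linarith)
        linarith
      have h2 : (1 - s) * (1 - p) = 0 := by
        have h1 : 0 ≤ s * (1 - q) := mul_nonneg hs0 (by linarith)
        have h2 : 0 ≤ (1 - s) * (1 - p) := mul_nonneg (by linarith) (by linarith)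
        linarith
      rw [hpz] at h2
      have hs : s = 1 := by linarith
      rw [hs, one_mul] at h1
      have hq : q = 1 := by linarith
      rw [hq, hpz] at hH'
      linarith
    · -- use UP
      have key : Ψ * ((1 - p) * x + (y2 + y3) - (1 - p)) =
          ((1 - p) * (1 - q) * x + s * (1 - q) * (y2 + y3) + (1 - s) * (1 - p) * y3
            - (1 - p) * (1 - q)) + (1 - s) * (1 - p) * ((q - p) * x + y2 - (q - p)) := by
        rw [hΨ]; ring
      have h3 : 0 ≤ Ψ * ((1 - p) * x + (y2 + y3) - (1 - p)) := by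
        rw [key]
        have : 0 ≤ (1 - s) * (1 - p) * ((q - p) * x + y2 - (q - p)) :=
          mul_nonneg (mul_nonneg (by linarith) (by linarith)) hH'
        linarith
      have h4 : 0 ≤ (1 - p) * x + (y2 + y3) - (1 - p) := by
        by_contra hneg
        have hneg := not_le.1 hneg
        have := mul_neg_of_pos_of_neg hΨpos hneg
        linarith
      rw [hpz] at h4
      linarith
  · rcases hΨ0.eq_or_lt with hΨz | hΨpos
    · -- q = 1
      have h1 : s * (1 - q) = 0 := by
        have h1 : 0 ≤ s * (1 - q) := mul_nonneg hs0 (by linarith)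
        have h2 : 0 ≤ (1 - s) * (1 - p) := mul_nonneg (by linarith) (by linarith)
        linarith
      have h2 : (1 - s) * (1 - p) = 0 := by
        have h1 : 0 ≤ s * (1 - q) := mul_nonneg hs0 (by linarith)
        have h2 : 0 ≤ (1 - s) * (1 - p) := mul_nonneg (by linarith) (by linarith)
        linarith
      have hq : q = 1 := by
        rcases mul_eq_zero.1 h1 with h | h
        · rw [h] at h2
          have : p = 1 := by linarith
          linarith
        · linarith
      have key : Φ * (q * x + (y1 + y2) - q) =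
          (p * q * x + r * q * y1 + (1 - r) * p * (y1 + y2) - p * q)
            + r * q * ((q - p) * x + y2 - (q - p)) := by
        rw [hΦ]; ring
      have h3 : 0 ≤ Φ * (q * x + (y1 + y2) - q) := by
        rw [key]
        have : 0 ≤ r * q * ((q - p) * x + y2 - (q - p)) :=
          mul_nonneg (mul_nonneg hr0 hq0) hH'
        linarith
      have h4 : 0 ≤ q * x + (y1 + y2) - q := by
        by_contra hneg
        have hneg := not_le.1 hneg
        have := mul_neg_of_pos_of_neg hΦpos hneg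
        linarith
      rw [hq] at h4
      linarith
    · -- main case
      have key : Φ * Ψ * (x + (y1 + y2 + y3) - 1) =
          Φ * ((1 - p) * (1 - q) * x + s * (1 - q) * (y2 + y3) + (1 - s) * (1 - p) * y3
            - (1 - p) * (1 - q))
          + Ψ * (p * q * x + r * q * y1 + (1 - r) * p * (y1 + y2) - p * q)
          + G * ((q - p) * x + y2 - (q - p)) := by
        rw [hΦ, hΨ, hGdef]; ring
      have h3 : 0 ≤ Φ * Ψ * (x + (y1 + y2 + y3) - 1) := by
        rw [key]
        have a1 := mul_nonneg hΦ0 hU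
        have a2 := mul_nonneg hΨ0 hLw
        have a3 := mul_nonneg hG hH'
        linarith
      have h4 : 0 ≤ x + (y1 + y2 + y3) - 1 := by
        by_contra hneg
        have hneg := not_le.1 hneg
        have := mul_neg_of_pos_of_neg (mul_pos hΦpos hΨpos) hneg
        linarith
      linarith

/-- Linear certificate for the planar lemma, case `q ≤ p` (mirror image of `cert_le`). -/
theorem cert_ge {p q r s x0s xs1 x0r xr1 y1 y2 y3 : ℝ}
    (hq0 : 0 ≤ q) (hqp : q ≤ p) (hp1 : p ≤ 1) (hr0 : 0 ≤ r) (hr1 : r ≤ 1) (hs0 : 0 ≤ s) (hs1 : s ≤ 1)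
    (hx : x0s + xs1 = x0r + xr1)
    (hy1 : 0 ≤ y1) (hy2 : 0 ≤ y2) (hy3 : 0 ≤ y3)
    (hL4 : s * (1 - p) ≤ (1 - p) * x0s + s * y3)
    (hL3 : (1 - s) * (1 - q) ≤ (1 - q) * xs1 + (1 - s) * (y2 + y3))
    (hL1 : r * p ≤ p * x0r + r * (y1 + y2))
    (hL2 : (1 - r) * q ≤ q * xr1 + (1 - r) * y1)
    (hH : p - q ≤ (p - q) * (x0s + xs1) + y2)
    (hG : r * q * (1 - s) * (1 - p) - s * p * (1 - r) * (1 - q) ≤ 0) :
    1 ≤ (x0s + xs1) + (y1 + y2 + y3) := by
  have := cert_le (p := q) (q := p) (r := 1 - r) (s := 1 - s) (x0s := xs1) (xs1 := x0s)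
    (x0r := xr1) (xr1 := x0r) (y1 := y1) (y2 := y2) (y3 := y3) hq0 hqp hp1 (by linarith) (by linarith)
    (by linarith) (by linarith) (by linarith) hy1 hy2 hy3 hL3 (by simpa using hL4) hL2
    (by simpa using hL1) (by rw [add_comm xs1 x0s]; exact hH) (by nlinarith [hG])
  linarith

/-- The sign dichotomy: one of the two certificates (direct or transposed) is always available. -/
theorem dichotomy {p q r s : ℝ} (hp0 : 0 ≤ p) (hp1 : p ≤ 1) (hq0 : 0 ≤ q) (hq1 : q ≤ 1)
    (hr0 : 0 ≤ r) (hr1 : r ≤ 1) (hs0 : 0 ≤ s) (hs1 : s ≤ 1) :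
    ((p ≤ q ∧ 0 ≤ r * q * (1 - s) * (1 - p) - s * p * (1 - r) * (1 - q)) ∨
      (q ≤ p ∧ r * q * (1 - s) * (1 - p) - s * p * (1 - r) * (1 - q) ≤ 0)) ∨
    ((r ≤ s ∧ 0 ≤ p * s * (1 - q) * (1 - r) - q * r * (1 - p) * (1 - s)) ∨
      (s ≤ r ∧ p * s * (1 - q) * (1 - r) - q * r * (1 - p) * (1 - s) ≤ 0)) := by
  set G := r * q * (1 - s) * (1 - p) - s * p * (1 - r) * (1 - q) with hG
  have hG' : p * s * (1 - q) * (1 - r) - q * r * (1 - p) * (1 - s) = -G := by rw [hG]; ring
  rw [hG']
  rcases le_total p q with hpq | hqp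
  · rcases le_total 0 G with h | h
    · exact Or.inl (Or.inl ⟨hpq, h⟩)
    · rcases le_total r s with hrs | hsr
      · exact Or.inr (Or.inl ⟨hrs, by linarith⟩)
      · -- p ≤ q, s ≤ r : then G ≥ 0
        have h1 : s * p ≤ r * q := mul_le_mul hsr hpq hp0 hr0
        have h2 : (1 - r) * (1 - q) ≤ (1 - s) * (1 - p) :=
          mul_le_mul (by linarith) (by linarith) (by linarith) (by linarith)
        have h3 : s * p * ((1 - r) * (1 - q)) ≤ r * q * ((1 - s) * (1 - p)) :=
          mul_le_mul h1 h2 (mul_nonneg (by linarith) (by linarith)) (mul_nonneg hr0 hq0)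
        have : 0 ≤ G := by rw [hG]; nlinarith [h3]
        exact Or.inl (Or.inl ⟨hpq, this⟩)
  · rcases le_total G 0 with h | h
    · exact Or.inl (Or.inr ⟨hqp, h⟩)
    · rcases le_total s r with hsr | hrs
      · exact Or.inr (Or.inr ⟨hsr, by linarith⟩)
      · -- q ≤ p, r ≤ s : then G ≤ 0
        have h1 : r * q ≤ s * p := mul_le_mul hrs hqp hq0 hs0
        have h2 : (1 - s) * (1 - p) ≤ (1 - r) * (1 - q) :=
          mul_le_mul (by linarith) (by linarith) (by linarith) (by linarith)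
        have h3 : r * q * ((1 - s) * (1 - p)) ≤ s * p * ((1 - r) * (1 - q)) :=
          mul_le_mul h1 h2 (mul_nonneg (by linarith) (by linarith)) (mul_nonneg hs0 hp0)
        have : G ≤ 0 := by rw [hG]; nlinarith [h3]
        exact Or.inl (Or.inr ⟨hqp, this⟩)

end Vale.Agent.P243
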