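import Mathlib

open MeasureTheory Set

namespace Vale.Agent.P243

/-- Orthonormal coordinates on a Euclidean plane preserve area. -/
lemma exists_chart {F : Type*} [NormedAddCommGroup F] [InnerProductSpace ℝ F]
    [FiniteDimensional ℝ F] [MeasurableSpace F] [BorelSpace F]
    (hF : Module.finrank ℝ F = 2) {p q : F} (hp : ‖p‖ = 1) (hq : ‖q‖ = 1)
    (hpq : inner ℝ p q = 0) :
    ∃ e : F ≃ᵐ ℝ × ℝ, MeasurePreserving e volume volume ∧
      ∀ y, e y = ((inner ℝ y p : ℝ), (inner ℝ y q : ℝ)) := by
  have hv : Orthonormal ℝ ![p, q] := by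
    refine ⟨?_, ?_⟩
    · intro i
      fin_cases i
      · simpa using hp
      · simpa using hq
    · intro i j hij
      fin_cases i <;> fin_cases j
      · exact absurd rfl hij
      · simpa using hpq
      · simpa [real_inner_comm] using hpq
      · exact absurd rfl hij
  set b0 := basisOfOrthonormalOfCardEqFinrank hv (by simp [hF]) with hb0
  have hb0c : (b0 : Fin 2 → F) = ![p, q] := coe_basisOfOrthonormalOfCardEqFinrank hv _
  set b : OrthonormalBasis (Fin 2) ℝ F := b0.toOrthonormalBasis (by rw [hb0c]; exact hv) with hb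
  have hbc : (b : Fin 2 → F) = ![p, q] := by
    rw [hb, Module.Basis.coe_toOrthonormalBasis, hb0c]
  refine ⟨b.measurableEquiv.trans
    ((MeasurableEquiv.toLp 2 (Fin 2 → ℝ)).symm.trans MeasurableEquiv.finTwoArrow),
    b.measurePreserving_measurableEquiv.trans
      ((EuclideanSpace.volume_preserving_symm_measurableEquiv_toLp (Fin 2)).trans
        (volume_preserving_finTwoArrow ℝ)), ?_⟩
  intro y
  have h0 : b.repr y 0 = inner ℝ y p := by
    rw [OrthonormalBasis.repr_apply_apply, hbc, real_inner_comm]; rfl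
  have h1 : b.repr y 1 = inner ℝ y q := by
    rw [OrthonormalBasis.repr_apply_apply, hbc, real_inner_comm]; rfl
  rw [← h0, ← h1]
  rfl

end Vale.Agent.P243
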