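import Mathlib
import Vale.Agent.P243.Cert

open MeasureTheory Set

namespace Vale.Agent.P243

/-- Lebesgue length of the part of `X` inside `[a,b]`. -/
noncomputable def len (X : Set ℝ) (a b : ℝ) : ℝ := (volume (X ∩ Icc a b)).toReal

lemma len_nonneg (X : Set ℝ) (a b : ℝ) : 0 ≤ len X a b := ENNReal.toReal_nonneg

lemma vol_inter_Icc_ne_top (X : Set ℝ) (a b : ℝ) : volume (X ∩ Icc a b) ≠ ⊤ := by
  have h : volume (X ∩ Icc a b) ≤ volume (Icc a b) := measure_mono inter_subset_right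
  have h2 : volume (Icc a b) < ⊤ := by rw [Real.volume_Icc]; exact ENNReal.ofReal_lt_top
  exact (lt_of_le_of_lt h h2).ne

lemma len_add {X : Set ℝ} (hX : MeasurableSet X) {a b c : ℝ} (hab : a ≤ b) (hbc : b ≤ c) :
    len X a c = len X a b + len X b c := by
  unfold len
  have h1 : X ∩ Icc a c = (X ∩ Icc a b) ∪ (X ∩ Ioc b c) := by
    rw [← inter_union_distrib_left, Icc_union_Ioc_eq_Icc hab hbc]
  have h2 : Disjoint (X ∩ Icc a b) (X ∩ Ioc b c) := by
    rw [Set.disjoint_left]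
    rintro x ⟨_, hx1⟩ ⟨_, hx2⟩
    exact absurd hx1.2 (not_le.2 hx2.1)
  have h3 : volume (X ∩ Ioc b c) = volume (X ∩ Icc b c) :=
    measure_congr (ae_eq_set_inter (ae_eq_refl X) Ioc_ae_eq_Icc)
  rw [h1, measure_union h2 (hX.inter measurableSet_Ioc), h3,
    ENNReal.toReal_add (vol_inter_Icc_ne_top X a b) (vol_inter_Icc_ne_top X b c)]

/-- If a segment is covered by `X × ℝ ∪ ℝ × Y`, the corresponding lengths are large. -/
lemma segment_ineq {X Y : Set ℝ} {a a' b b' : ℝ} (ha : a ≤ a')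
    (hcov : ∀ t ∈ Icc (0:ℝ) 1, (a + t * (a' - a)) ∈ X ∨ (b + t * (b' - b)) ∈ Y) :
    (a' - a) * |b' - b| ≤ |b' - b| * len X a a' + (a' - a) * (volume (Y ∩ uIcc b b')).toReal := by
  rcases ha.eq_or_lt with rfl | ha
  · simp only [sub_self, zero_mul, add_zero]
    exact mul_nonneg (abs_nonneg _) (len_nonneg _ _ _)
  rcases eq_or_ne b' b with rfl | hb
  · simp only [sub_self, abs_zero, mul_zero, zero_mul, zero_add]
    exact mul_nonneg (by linarith) ENNReal.toReal_nonneg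
  have hα : 0 < a' - a := by linarith
  have hβ : b' - b ≠ 0 := sub_ne_zero.2 hb
  set k : ℝ := (b' - b) / (a' - a) with hk
  have hk0 : k ≠ 0 := div_ne_zero hβ hα.ne'
  set d : ℝ := b - k * a with hd
  have hsub : Icc a a' ⊆ (X ∩ Icc a a') ∪ ((fun x => k * x) ⁻¹' ((fun x => x + d) ⁻¹' (Y ∩ uIcc b b'))) := by
    intro τ hτ
    have ht : (τ - a) / (a' - a) ∈ Icc (0:ℝ) 1 := by
      constructor
      · exact div_nonneg (by linarith [hτ.1]) hα.le
      · rw [div_le_one hα]; linarith [hτ.2]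
    have e1 : a + (τ - a) / (a' - a) * (a' - a) = τ := by field_simp; ring
    have e2 : b + (τ - a) / (a' - a) * (b' - b) = k * τ + d := by
      rw [hd, hk]; field_simp; ring
    rcases hcov _ ht with h | h
    · left; rw [e1] at h; exact ⟨h, hτ⟩
    · right
      rw [e2] at h
      refine ⟨h, ?_⟩
      show k * τ + d ∈ uIcc b b'
      rw [← e2]
      have : b + (τ - a) / (a' - a) * (b' - b) ∈ segment ℝ b b' := by
        rw [segment_eq_image']
        exact ⟨_, ht, by simp [smul_eq_mul]⟩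
      rwa [segment_eq_uIcc] at this
  have hvol : volume ((fun x => k * x) ⁻¹' ((fun x => x + d) ⁻¹' (Y ∩ uIcc b b')))
      = ENNReal.ofReal |k⁻¹| * volume (Y ∩ uIcc b b') := by
    rw [Real.volume_preimage_mul_left hk0, measure_preimage_add_right]
  have hfin : volume (Y ∩ uIcc b b') ≠ ⊤ := by
    rw [uIcc]; exact vol_inter_Icc_ne_top _ _ _
  have h1 : volume (Icc a a') ≤ volume (X ∩ Icc a a') + ENNReal.ofReal |k⁻¹| * volume (Y ∩ uIcc b b') := by
    calc volume (Icc a a') ≤ volume ((X ∩ Icc a a') ∪ ((fun x => k * x) ⁻¹' ((fun x => x + d) ⁻¹' (Y ∩ uIcc b b')))) :=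
          measure_mono hsub
      _ ≤ _ := by rw [← hvol]; exact measure_union_le _ _
  have h2 : a' - a ≤ len X a a' + |k⁻¹| * (volume (Y ∩ uIcc b b')).toReal := by
    have h3 := ENNReal.toReal_mono (by
      exact ENNReal.add_ne_top.2 ⟨vol_inter_Icc_ne_top _ _ _, ENNReal.mul_ne_top ENNReal.ofReal_ne_top hfin⟩) h1
    rw [Real.volume_Icc, ENNReal.toReal_ofReal hα.le,
      ENNReal.toReal_add (vol_inter_Icc_ne_top _ _ _) (ENNReal.mul_ne_top ENNReal.ofReal_ne_top hfin),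
      ENNReal.toReal_mul, ENNReal.toReal_ofReal (abs_nonneg _)] at h3
    exact h3
  have hkinv : |k⁻¹| * |b' - b| = a' - a := by
    rw [hk, inv_div, abs_div, abs_of_pos hα]
    have : |b' - b| ≠ 0 := abs_ne_zero.2 hβ
    field_simp
  have h4 := mul_le_mul_of_nonneg_right h2 (abs_nonneg (b' - b))
  calc (a' - a) * |b' - b| ≤ (len X a a' + |k⁻¹| * (volume (Y ∩ uIcc b b')).toReal) * |b' - b| := h4
    _ = |b' - b| * len X a a' + (|k⁻¹| * |b' - b|) * (volume (Y ∩ uIcc b b')).toReal := by ring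
    _ = _ := by rw [hkinv]

lemma seg_up {S : Set (ℝ × ℝ)} (hS : Convex ℝ S) {X Y : Set ℝ}
    (hcov : ∀ z ∈ S, z.1 ∈ X ∨ z.2 ∈ Y) {a a' b b' : ℝ} (ha : a ≤ a') (hb : b ≤ b')
    (h1 : (a, b) ∈ S) (h2 : (a', b') ∈ S) :
    (a' - a) * (b' - b) ≤ (b' - b) * len X a a' + (a' - a) * len Y b b' := by
  have h := segment_ineq (X := X) (Y := Y) (a := a) (a' := a') (b := b) (b' := b') ha (by
    intro t ht
    have := hcov _ (hS.add_smul_sub_mem h1 h2 ht)
    simpa using this)
  rw [abs_of_nonneg (by linarith : 0 ≤ b' - b), uIcc_of_le hb] at h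
  exact h

lemma seg_down {S : Set (ℝ × ℝ)} (hS : Convex ℝ S) {X Y : Set ℝ}
    (hcov : ∀ z ∈ S, z.1 ∈ X ∨ z.2 ∈ Y) {a a' b b' : ℝ} (ha : a ≤ a') (hb : b' ≤ b)
    (h1 : (a, b) ∈ S) (h2 : (a', b') ∈ S) :
    (a' - a) * (b - b') ≤ (b - b') * len X a a' + (a' - a) * len Y b' b := by
  have h := segment_ineq (X := X) (Y := Y) (a := a) (a' := a') (b := b) (b' := b') ha (by
    intro t ht
    have := hcov _ (hS.add_smul_sub_mem h1 h2 ht)
    simpa using this)
  rw [abs_of_nonpos (by linarith : b' - b ≤ 0), uIcc_of_ge hb, neg_sub] at h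
  exact h

lemma norm_ineq {α β u v A B : ℝ} (hα : 0 < α) (hβ : 0 < β) (h : u * v ≤ v * A + u * B) :
    (u / α) * (v / β) ≤ (v / β) * (A / α) + (u / α) * (B / β) := by
  have e1 : (u / α) * (v / β) = (u * v) / (α * β) := by field_simp
  have e2 : (v / β) * (A / α) + (u / α) * (B / β) = (v * A + u * B) / (α * β) := by field_simp
  rw [e1, e2]
  exact div_le_div_of_nonneg_right h (mul_pos hα hβ).le

/-- The planar lemma under the sign condition making the direct certificate valid. -/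
theorem planar_half {S : Set (ℝ × ℝ)} (hS : Convex ℝ S) {X Y : Set ℝ}
    (hX : MeasurableSet X) (hY : MeasurableSet Y)
    (hcov : ∀ z ∈ S, z.1 ∈ X ∨ z.2 ∈ Y)
    {a0 a1 b0 b1 p q r s : ℝ} (ha : a0 < a1) (hb : b0 < b1)
    (hp : p ∈ Icc b0 b1) (hq : q ∈ Icc b0 b1) (hr : r ∈ Icc a0 a1) (hs : s ∈ Icc a0 a1)
    (hPl : (a0, p) ∈ S) (hPr : (a1, q) ∈ S) (hPb : (r, b0) ∈ S) (hPt : (s, b1) ∈ S)
    (hsign : (p ≤ q ∧ 0 ≤ ((r - a0) / (a1 - a0)) * ((q - b0) / (b1 - b0)) * (1 - (s - a0) / (a1 - a0))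
          * (1 - (p - b0) / (b1 - b0))
        - ((s - a0) / (a1 - a0)) * ((p - b0) / (b1 - b0)) * (1 - (r - a0) / (a1 - a0))
          * (1 - (q - b0) / (b1 - b0))) ∨
      (q ≤ p ∧ ((r - a0) / (a1 - a0)) * ((q - b0) / (b1 - b0)) * (1 - (s - a0) / (a1 - a0))
          * (1 - (p - b0) / (b1 - b0))
        - ((s - a0) / (a1 - a0)) * ((p - b0) / (b1 - b0)) * (1 - (r - a0) / (a1 - a0))
          * (1 - (q - b0) / (b1 - b0)) ≤ 0)) :
    (a1 - a0) * (b1 - b0) ≤ (b1 - b0) * len X a0 a1 + (a1 - a0) * len Y b0 b1 := by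
  set α := a1 - a0 with hαdef
  set β := b1 - b0 with hβdef
  have hα : 0 < α := by rw [hαdef]; linarith
  have hβ : 0 < β := by rw [hβdef]; linarith
  -- normalised complements
  have c_p : 1 - (p - b0) / β = (b1 - p) / β := by
    rw [eq_div_iff hβ.ne', sub_mul, one_mul, div_mul_cancel₀ _ hβ.ne', hβdef]; ring
  have c_q : 1 - (q - b0) / β = (b1 - q) / β := by
    rw [eq_div_iff hβ.ne', sub_mul, one_mul, div_mul_cancel₀ _ hβ.ne', hβdef]; ring
  have c_r : 1 - (r - a0) / α = (a1 - r) / α := by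
    rw [eq_div_iff hα.ne', sub_mul, one_mul, div_mul_cancel₀ _ hα.ne', hαdef]; ring
  have c_s : 1 - (s - a0) / α = (a1 - s) / α := by
    rw [eq_div_iff hα.ne', sub_mul, one_mul, div_mul_cancel₀ _ hα.ne', hαdef]; ring
  -- bounds
  have p0 : 0 ≤ (p - b0) / β := div_nonneg (by linarith [hp.1]) hβ.le
  have p1 : (p - b0) / β ≤ 1 := by rw [div_le_one hβ, hβdef]; linarith [hp.2]
  have q0 : 0 ≤ (q - b0) / β := div_nonneg (by linarith [hq.1]) hβ.le
  have q1 : (q - b0) / β ≤ 1 := by rw [div_le_one hβ, hβdef]; linarith [hq.2]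
  have r0 : 0 ≤ (r - a0) / α := div_nonneg (by linarith [hr.1]) hα.le
  have r1 : (r - a0) / α ≤ 1 := by rw [div_le_one hα, hαdef]; linarith [hr.2]
  have s0 : 0 ≤ (s - a0) / α := div_nonneg (by linarith [hs.1]) hα.le
  have s1 : (s - a0) / α ≤ 1 := by rw [div_le_one hα, hαdef]; linarith [hs.2]
  -- additivity in x
  have xs : len X a0 a1 = len X a0 s + len X s a1 := len_add hX hs.1 hs.2
  have xr : len X a0 a1 = len X a0 r + len X r a1 := len_add hX hr.1 hr.2
  have hx : len X a0 s / α + len X s a1 / α = len X a0 r / α + len X r a1 / α := by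
    rw [← add_div, ← add_div, ← xs, ← xr]
  -- the four edges
  have L4 := norm_ineq hα hβ (seg_up hS hcov hs.1 hp.2 hPl hPt)
  have L3 := norm_ineq hα hβ (seg_down hS hcov hs.2 hq.2 hPt hPr)
  have L1 := norm_ineq hα hβ (seg_down hS hcov hr.1 hp.1 hPl hPb)
  have L2 := norm_ineq hα hβ (seg_up hS hcov hr.2 hq.1 hPb hPr)
  have fin : 1 ≤ (len X a0 s / α + len X s a1 / α) + len Y b0 b1 / β →
      α * β ≤ β * len X a0 a1 + α * len Y b0 b1 := by
    intro h
    rw [← add_div, ← xs] at h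
    have h2 := mul_le_mul_of_nonneg_left h (mul_pos hα hβ).le
    have e : α * β * (len X a0 a1 / α + len Y b0 b1 / β) = β * len X a0 a1 + α * len Y b0 b1 := by
      field_simp
    rw [e] at h2
    linarith
  apply fin
  rcases hsign with ⟨hpq, hG⟩ | ⟨hqp, hG⟩
  · have y_p1 : len Y p b1 = len Y p q + len Y q b1 := len_add hY hpq hq.2
    have y_0q : len Y b0 q = len Y b0 p + len Y p q := len_add hY hp.1 hpq
    have y_all : len Y b0 b1 = len Y b0 p + len Y p q + len Y q b1 := by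
      rw [len_add hY hp.1 hp.2, y_p1]; ring
    have H := norm_ineq hα hβ (seg_up hS hcov ha.le hpq hPl hPr)
    have := cert_le (p := (p - b0) / β) (q := (q - b0) / β) (r := (r - a0) / α) (s := (s - a0) / α)
      (x0s := len X a0 s / α) (xs1 := len X s a1 / α) (x0r := len X a0 r / α) (xr1 := len X r a1 / α)
      (y1 := len Y b0 p / β) (y2 := len Y p q / β) (y3 := len Y q b1 / β)
      p0 (div_le_div_of_nonneg_right (by linarith) hβ.le) q1 r0 r1 s0 s1 hx
      (div_nonneg (len_nonneg _ _ _) hβ.le) (div_nonneg (len_nonneg _ _ _) hβ.le)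
      (div_nonneg (len_nonneg _ _ _) hβ.le)
      (by rw [c_p, ← add_div, ← y_p1]; exact L4)
      (by rw [c_s, c_q]; exact L3)
      (by exact L1)
      (by rw [c_r, ← add_div, ← y_0q]; exact L2)
      (by
        rw [← add_div, ← xs, ← sub_div]
        have e : q - b0 - (p - b0) = q - p := by ring
        rw [e]
        have hαα : (a1 - a0) / α = 1 := by rw [← hαdef]; exact div_self hα.ne'
        rw [hαα, one_mul, one_mul] at H
        exact H)
      hG
    rw [y_all, add_div, add_div]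
    exact this
  · have y_q1 : len Y q b1 = len Y q p + len Y p b1 := len_add hY hqp hp.2
    have y_0p : len Y b0 p = len Y b0 q + len Y q p := len_add hY hq.1 hqp
    have y_all : len Y b0 b1 = len Y b0 q + len Y q p + len Y p b1 := by
      rw [len_add hY hq.1 hq.2, y_q1]; ring
    have H := norm_ineq hα hβ (seg_down hS hcov ha.le hqp hPl hPr)
    have := cert_ge (p := (p - b0) / β) (q := (q - b0) / β) (r := (r - a0) / α) (s := (s - a0) / α)
      (x0s := len X a0 s / α) (xs1 := len X s a1 / α) (x0r := len X a0 r / α) (xr1 := len X r a1 / α)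
      (y1 := len Y b0 q / β) (y2 := len Y q p / β) (y3 := len Y p b1 / β)
      q0 (div_le_div_of_nonneg_right (by linarith) hβ.le) p1 r0 r1 s0 s1 hx
      (div_nonneg (len_nonneg _ _ _) hβ.le) (div_nonneg (len_nonneg _ _ _) hβ.le)
      (div_nonneg (len_nonneg _ _ _) hβ.le)
      (by rw [c_p]; exact L4)
      (by rw [c_s, c_q, ← add_div, ← y_q1]; exact L3)
      (by rw [← add_div, ← y_0p]; exact L1)
      (by rw [c_r]; exact L2)
      (by
        rw [← add_div, ← xs, ← sub_div]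
        have e : p - b0 - (q - b0) = p - q := by ring
        rw [e]
        have hαα : (a1 - a0) / α = 1 := by rw [← hαdef]; exact div_self hα.ne'
        rw [hαα, one_mul, one_mul] at H
        exact H)
      hG
    rw [y_all, add_div, add_div]
    exact this

/-- **Planar lemma.** If a planar convex set `S` touches the four sides of the box
`[a0,a1] × [b0,b1]` and is covered by `X × ℝ ∪ ℝ × Y`, then the relative lengths of `X` and `Y`
add up to at least `1`. -/
theorem planar_lemma {S : Set (ℝ × ℝ)} (hS : Convex ℝ S) {X Y : Set ℝ}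
    (hX : MeasurableSet X) (hY : MeasurableSet Y)
    (hcov : ∀ z ∈ S, z.1 ∈ X ∨ z.2 ∈ Y)
    {a0 a1 b0 b1 p q r s : ℝ} (ha : a0 < a1) (hb : b0 < b1)
    (hp : p ∈ Icc b0 b1) (hq : q ∈ Icc b0 b1) (hr : r ∈ Icc a0 a1) (hs : s ∈ Icc a0 a1)
    (hPl : (a0, p) ∈ S) (hPr : (a1, q) ∈ S) (hPb : (r, b0) ∈ S) (hPt : (s, b1) ∈ S) :
    (a1 - a0) * (b1 - b0) ≤ (b1 - b0) * len X a0 a1 + (a1 - a0) * len Y b0 b1 := by
  have hα : 0 < a1 - a0 := by linarith
  have hβ : 0 < b1 - b0 := by linarith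
  have p0 : 0 ≤ (p - b0) / (b1 - b0) := div_nonneg (by linarith [hp.1]) hβ.le
  have p1 : (p - b0) / (b1 - b0) ≤ 1 := by rw [div_le_one hβ]; linarith [hp.2]
  have q0 : 0 ≤ (q - b0) / (b1 - b0) := div_nonneg (by linarith [hq.1]) hβ.le
  have q1 : (q - b0) / (b1 - b0) ≤ 1 := by rw [div_le_one hβ]; linarith [hq.2]
  have r0 : 0 ≤ (r - a0) / (a1 - a0) := div_nonneg (by linarith [hr.1]) hα.le
  have r1 : (r - a0) / (a1 - a0) ≤ 1 := by rw [div_le_one hα]; linarith [hr.2]
  have s0 : 0 ≤ (s - a0) / (a1 - a0) := div_nonneg (by linarith [hs.1]) hα.le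
  have s1 : (s - a0) / (a1 - a0) ≤ 1 := by rw [div_le_one hα]; linarith [hs.2]
  have mono_b : ∀ {x y : ℝ}, (x - b0) / (b1 - b0) ≤ (y - b0) / (b1 - b0) → x ≤ y := by
    intro x y h
    have := (div_le_div_iff_of_pos_right hβ).1 h
    linarith
  have mono_a : ∀ {x y : ℝ}, (x - a0) / (a1 - a0) ≤ (y - a0) / (a1 - a0) → x ≤ y := by
    intro x y h
    have := (div_le_div_iff_of_pos_right hα).1 h
    linarith
  rcases dichotomy p0 p1 q0 q1 r0 r1 s0 s1 with h | h
  · refine planar_half hS hX hY hcov ha hb hp hq hr hs hPl hPr hPb hPt ?_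
    rcases h with ⟨h1, h2⟩ | ⟨h1, h2⟩
    · exact Or.inl ⟨mono_b h1, h2⟩
    · exact Or.inr ⟨mono_b h1, h2⟩
  · have hS' : Convex ℝ (Prod.swap ⁻¹' S : Set (ℝ × ℝ)) := by
      intro x hx y hy a b ha hb hab
      have := hS hx hy ha hb hab
      simpa using this
    have := planar_half (S := Prod.swap ⁻¹' S) hS' hY hX (by
        intro z hz
        have := hcov _ hz
        simpa using this.symm) hb ha hr hs hp hq
      (show (b0, r) ∈ Prod.swap ⁻¹' S from hPb) (show (b1, s) ∈ Prod.swap ⁻¹' S from hPt)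
      (show (p, a0) ∈ Prod.swap ⁻¹' S from hPl) (show (q, a1) ∈ Prod.swap ⁻¹' S from hPr)
      (by
        rcases h with ⟨h1, h2⟩ | ⟨h1, h2⟩
        · exact Or.inl ⟨mono_a h1, h2⟩
        · exact Or.inr ⟨mono_a h1, h2⟩)
    linarith

end Vale.Agent.P243
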