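import Mathlib
import Vale.Agent.P243.Planar

open MeasureTheory Set

namespace Vale.Agent.P243

/-- Area bound for a planar set whose slices satisfy a midpoint condition. -/
theorem area_le {D : Set (ℝ × ℝ)} (hD : MeasurableSet D) {c0 c1 b0 b1 : ℝ}
    (hc : c0 ≤ c1)
    (h1 : ∀ z ∈ D, z.1 ∈ Icc c0 c1)
    (h2 : ∀ z ∈ D, ∀ z' ∈ D, z.1 + z'.1 = c0 + c1 → (z.2 + z'.2) / 2 ∈ Icc b0 b1)
    (h3 : ∀ c ∈ Icc c0 c1, ∃ b, (c, b) ∈ D) :
    volume D ≤ ENNReal.ofReal ((c1 - c0) * (b1 - b0)) := by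
  set g : ℝ → ENNReal := fun c => volume (Prod.mk c ⁻¹' D) with hg
  have hgm : Measurable g := measurable_measure_prodMk_left hD
  have hvol : volume D = ∫⁻ c, g c := by
    rw [Measure.volume_eq_prod, Measure.prod_apply hD]
  have hrefl : ∫⁻ c, g (c0 + c1 - c) = ∫⁻ c, g c := lintegral_sub_left_eq_self g (c0 + c1)
  have hpt : ∀ c, g c + g (c0 + c1 - c) ≤ (Icc c0 c1).indicator (fun _ => ENNReal.ofReal (2 * (b1 - b0))) c := by
    intro c
    by_cases hcm : c ∈ Icc c0 c1
    · rw [indicator_of_mem hcm]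
      have hcm' : c0 + c1 - c ∈ Icc c0 c1 := ⟨by linarith [hcm.2], by linarith [hcm.1]⟩
      obtain ⟨b, hb⟩ := h3 c hcm
      obtain ⟨b', hb'⟩ := h3 _ hcm'
      set J : Set ℝ := Prod.mk c ⁻¹' D with hJ
      set J' : Set ℝ := Prod.mk (c0 + c1 - c) ⁻¹' D with hJ'
      have hpair : ∀ x ∈ J, ∀ y ∈ J', 2 * b0 ≤ x + y ∧ x + y ≤ 2 * b1 := by
        intro x hx y hy
        have := h2 (c, x) hx (c0 + c1 - c, y) hy (by simp)
        simp only at this
        constructor
        · linarith [this.1]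
        · linarith [this.2]
      have hbelow : BddBelow J' := ⟨2 * b0 - b, fun y hy => by linarith [(hpair b hb y hy).1]⟩
      have habove : BddAbove J' := ⟨2 * b1 - b, fun y hy => by linarith [(hpair b hb y hy).2]⟩
      set m := sInf J'
      set M := sSup J'
      have hJ'sub : J' ⊆ Icc m M := fun y hy => ⟨csInf_le hbelow hy, le_csSup habove hy⟩
      have hJsub : J ⊆ Icc (2 * b0 - m) (2 * b1 - M) := by
        intro x hx
        constructor
        · have : 2 * b0 - x ≤ m := le_csInf ⟨b', hb'⟩ (fun y hy => by linarith [(hpair x hx y hy).1])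
          linarith
        · have : M ≤ 2 * b1 - x := csSup_le ⟨b', hb'⟩ (fun y hy => by linarith [(hpair x hx y hy).2])
          linarith
      have hmM : m ≤ M := (hJ'sub hb').1.trans (hJ'sub hb').2
      have hother : 2 * b0 - m ≤ 2 * b1 - M := (hJsub hb).1.trans (hJsub hb).2
      calc g c + g (c0 + c1 - c) ≤ volume (Icc (2 * b0 - m) (2 * b1 - M)) + volume (Icc m M) :=
            add_le_add (measure_mono hJsub) (measure_mono hJ'sub)
        _ = ENNReal.ofReal (2 * b1 - M - (2 * b0 - m)) + ENNReal.ofReal (M - m) := by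
            rw [Real.volume_Icc, Real.volume_Icc]
        _ = ENNReal.ofReal (2 * b1 - M - (2 * b0 - m) + (M - m)) := by
            rw [ENNReal.ofReal_add (by linarith) (by linarith)]
        _ = ENNReal.ofReal (2 * (b1 - b0)) := by congr 1; ring
    · rw [indicator_of_notMem hcm]
      have e1 : Prod.mk c ⁻¹' D = ∅ := by
        ext x
        simp only [mem_preimage, mem_empty_iff_false, iff_false]
        intro hx
        exact hcm (h1 _ hx)
      have e2 : Prod.mk (c0 + c1 - c) ⁻¹' D = ∅ := by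
        ext x
        simp only [mem_preimage, mem_empty_iff_false, iff_false]
        intro hx
        have := h1 _ hx
        exact hcm ⟨by linarith [this.2], by linarith [this.1]⟩
      simp [hg, e1, e2]
  have hsum : volume D + volume D ≤ ENNReal.ofReal (2 * (b1 - b0)) * ENNReal.ofReal (c1 - c0) := by
    calc volume D + volume D = (∫⁻ c, g c) + ∫⁻ c, g (c0 + c1 - c) := by rw [hrefl, hvol]
      _ = ∫⁻ c, (g c + g (c0 + c1 - c)) := by rw [lintegral_add_left hgm]
      _ ≤ ∫⁻ c, (Icc c0 c1).indicator (fun _ => ENNReal.ofReal (2 * (b1 - b0))) c := lintegral_mono hpt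
      _ = ENNReal.ofReal (2 * (b1 - b0)) * ENNReal.ofReal (c1 - c0) := by
          rw [lintegral_indicator measurableSet_Icc, lintegral_const, Measure.restrict_apply MeasurableSet.univ,
            univ_inter, Real.volume_Icc]
  by_cases hb : b0 ≤ b1
  · have e : ENNReal.ofReal (2 * (b1 - b0)) * ENNReal.ofReal (c1 - c0)
        = ENNReal.ofReal ((c1 - c0) * (b1 - b0)) + ENNReal.ofReal ((c1 - c0) * (b1 - b0)) := by
      rw [← ENNReal.ofReal_mul (by linarith), ← ENNReal.ofReal_add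
        (mul_nonneg (by linarith) (by linarith)) (mul_nonneg (by linarith) (by linarith))]
      congr 1; ring
    rw [e, ← two_mul, ← two_mul] at hsum
    exact (ENNReal.mul_le_mul_iff_right (by norm_num) (by norm_num)).1 hsum
  · have : ENNReal.ofReal (2 * (b1 - b0)) = 0 := ENNReal.ofReal_of_nonpos (by linarith [not_le.1 hb])
    rw [this, zero_mul] at hsum
    have : volume D = 0 := by
      have h := le_antisymm hsum zero_le
      exact (add_eq_zero.1 h).1
    rw [this]; exact zero_le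

lemma ofReal_len_le (X : Set ℝ) (a b : ℝ) : ENNReal.ofReal (len X a b) ≤ volume X := by
  unfold len
  rw [ENNReal.ofReal_toReal (vol_inter_Icc_ne_top X a b)]
  exact measure_mono inter_subset_left

/-- Slices of the cone with apex `e` over the middle slice. -/
theorem cone_slice {K : Set (ℝ × ℝ × ℝ)} (hK : Convex ℝ K) {B₁ B₂ : Set (ℝ × ℝ)}
    (h₁ : MeasurableSet B₁) (h₂ : MeasurableSet B₂)
    (hcov : ∀ z ∈ K, (z.1, z.2.2) ∈ B₁ ∨ (z.1, z.2.1) ∈ B₂)
    {cm a0 a1 b0 b1 p q r s : ℝ} (ha : a0 < a1) (hb : b0 < b1)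
    (hp : p ∈ Icc b0 b1) (hq : q ∈ Icc b0 b1) (hr : r ∈ Icc a0 a1) (hs : s ∈ Icc a0 a1)
    (hPl : (cm, a0, p) ∈ K) (hPr : (cm, a1, q) ∈ K) (hPb : (cm, r, b0) ∈ K) (hPt : (cm, s, b1) ∈ K)
    {e : ℝ × ℝ × ℝ} (he : e ∈ K) {t : ℝ} (ht : t ∈ Icc (0:ℝ) 1) :
    ENNReal.ofReal (t * ((a1 - a0) * (b1 - b0))) ≤
      ENNReal.ofReal (b1 - b0) * volume (Prod.mk ((1 - t) * e.1 + t * cm) ⁻¹' B₂)
      + ENNReal.ofReal (a1 - a0) * volume (Prod.mk ((1 - t) * e.1 + t * cm) ⁻¹' B₁) := by
  rcases ht.1.eq_or_lt with rfl | htpos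
  · simp
  set c := (1 - t) * e.1 + t * cm with hc
  set S : Set (ℝ × ℝ) := Prod.mk c ⁻¹' K with hS
  have hSconv : Convex ℝ S := by
    intro x hx y hy a b ha hb hab
    have := hK hx hy ha hb hab
    have e1 : a • ((c, x) : ℝ × ℝ × ℝ) + b • ((c, y) : ℝ × ℝ × ℝ) = (c, a • x + b • y) := by
      ext
      · simp only [Prod.smul_mk, Prod.mk_add_mk, smul_eq_mul]
        rw [← add_mul, hab, one_mul]
      · simp
      · simp
    rw [e1] at this
    exact this
  set X : Set ℝ := Prod.mk c ⁻¹' B₂ with hX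
  set Y : Set ℝ := Prod.mk c ⁻¹' B₁ with hY
  have hXm : MeasurableSet X := measurable_prodMk_left h₂
  have hYm : MeasurableSet Y := measurable_prodMk_left h₁
  have hScov : ∀ z ∈ S, z.1 ∈ X ∨ z.2 ∈ Y := by
    intro z hz
    exact (hcov _ hz).symm
  have hmem : ∀ {x y : ℝ}, (cm, x, y) ∈ K →
      ((1 - t) * e.2.1 + t * x, (1 - t) * e.2.2 + t * y) ∈ S := by
    intro x y hxy
    have := hK he hxy (by linarith [ht.2] : 0 ≤ 1 - t) ht.1 (by ring)
    have e1 : (1 - t) • e + t • ((cm, x, y) : ℝ × ℝ × ℝ)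
        = (c, (1 - t) * e.2.1 + t * x, (1 - t) * e.2.2 + t * y) := by
      ext <;> simp [hc]
    rw [e1] at this
    exact this
  have key := planar_lemma hSconv hXm hYm hScov
    (a0 := (1 - t) * e.2.1 + t * a0) (a1 := (1 - t) * e.2.1 + t * a1)
    (b0 := (1 - t) * e.2.2 + t * b0) (b1 := (1 - t) * e.2.2 + t * b1)
    (p := (1 - t) * e.2.2 + t * p) (q := (1 - t) * e.2.2 + t * q)
    (r := (1 - t) * e.2.1 + t * r) (s := (1 - t) * e.2.1 + t * s)
    (by nlinarith) (by nlinarith)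
    ⟨by nlinarith [hp.1], by nlinarith [hp.2]⟩ ⟨by nlinarith [hq.1], by nlinarith [hq.2]⟩
    ⟨by nlinarith [hr.1], by nlinarith [hr.2]⟩ ⟨by nlinarith [hs.1], by nlinarith [hs.2]⟩
    (hmem hPl) (hmem hPr) (hmem hPb) (hmem hPt)
  set lx := len X ((1 - t) * e.2.1 + t * a0) ((1 - t) * e.2.1 + t * a1) with hlx
  set ly := len Y ((1 - t) * e.2.2 + t * b0) ((1 - t) * e.2.2 + t * b1) with hly
  have e1 : (1 - t) * e.2.1 + t * a1 - ((1 - t) * e.2.1 + t * a0) = t * (a1 - a0) := by ring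
  have e2 : (1 - t) * e.2.2 + t * b1 - ((1 - t) * e.2.2 + t * b0) = t * (b1 - b0) := by ring
  rw [e1, e2] at key
  have key2 : t * ((a1 - a0) * (b1 - b0)) ≤ (b1 - b0) * lx + (a1 - a0) * ly := by
    have : t * (t * ((a1 - a0) * (b1 - b0))) ≤ t * ((b1 - b0) * lx + (a1 - a0) * ly) := by
      nlinarith [key]
    exact le_of_mul_le_mul_left this htpos
  have hlx0 : 0 ≤ lx := len_nonneg _ _ _
  have hly0 : 0 ≤ ly := len_nonneg _ _ _
  calc ENNReal.ofReal (t * ((a1 - a0) * (b1 - b0)))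
      ≤ ENNReal.ofReal ((b1 - b0) * lx + (a1 - a0) * ly) := ENNReal.ofReal_le_ofReal key2
    _ = ENNReal.ofReal (b1 - b0) * ENNReal.ofReal lx + ENNReal.ofReal (a1 - a0) * ENNReal.ofReal ly := by
        rw [ENNReal.ofReal_add (mul_nonneg (by linarith) hlx0) (mul_nonneg (by linarith) hly0),
          ENNReal.ofReal_mul (by linarith), ENNReal.ofReal_mul (by linarith)]
    _ ≤ _ := by
        gcongr
        · exact ofReal_len_le _ _ _
        · exact ofReal_len_le _ _ _

lemma exists_eps {K : Set (ℝ × ℝ × ℝ)} {w : ℝ × ℝ × ℝ} (hw : w ∈ interior K) :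
    ∃ ε > 0, ∀ d : ℝ × ℝ × ℝ, ‖d‖ ≤ ε → w + d ∈ K := by
  rw [mem_interior_iff_mem_nhds, Metric.mem_nhds_iff] at hw
  obtain ⟨ε, hε, hball⟩ := hw
  refine ⟨ε / 2, by linarith, fun d hd => hball ?_⟩
  rw [Metric.mem_ball, dist_eq_norm]
  simp only [add_sub_cancel_left]
  linarith

/-- Integral inequality obtained from the two cones over the middle slice. -/
theorem integral_ineq {F : ℝ → ENNReal} (hF : Measurable F) {c0 h : ℝ} (hh : 0 ≤ h) {A : ENNReal}
    (hpt : ∀ c ∈ Ico c0 (c0 + h), A ≤ F c + F (c + h)) :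
    A * ENNReal.ofReal h ≤ ∫⁻ c, F c := by
  set f1 : ℝ → ENNReal := (Ico c0 (c0 + h)).indicator F with hf1
  set f2 : ℝ → ENNReal := (Ico (c0 + h) (c0 + h + h)).indicator F with hf2
  have hf1m : Measurable f1 := hF.indicator measurableSet_Ico
  have hle : ∀ c, f1 c + f2 c ≤ F c := by
    intro c
    by_cases h1 : c ∈ Ico c0 (c0 + h)
    · have h2 : c ∉ Ico (c0 + h) (c0 + h + h) := fun h2 => absurd h1.2 (not_lt.2 h2.1)
      simp [hf1, hf2, h1, h2]
    · by_cases h2 : c ∈ Ico (c0 + h) (c0 + h + h)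
      · simp [hf1, hf2, h1, h2]
      · simp [hf1, hf2, h1, h2]
  have hshift : ∫⁻ c, f2 (c + h) = ∫⁻ c, f2 c := lintegral_add_right_eq_self f2 h
  have hf2' : ∀ c, f2 (c + h) = (Ico c0 (c0 + h)).indicator (fun c => F (c + h)) c := by
    intro c
    by_cases h1 : c ∈ Ico c0 (c0 + h)
    · have h2 : c + h ∈ Ico (c0 + h) (c0 + h + h) := ⟨by linarith [h1.1], by linarith [h1.2]⟩
      simp [hf2, h1, h2]
    · have h2 : c + h ∉ Ico (c0 + h) (c0 + h + h) := fun h2 => h1 ⟨by linarith [h2.1], by linarith [h2.2]⟩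
      simp [hf2, h1, h2]
  calc A * ENNReal.ofReal h = ∫⁻ c, (Ico c0 (c0 + h)).indicator (fun _ => A) c := by
        rw [lintegral_indicator measurableSet_Ico, lintegral_const, Measure.restrict_apply MeasurableSet.univ,
          univ_inter, Real.volume_Ico]
        congr 2; ring
    _ ≤ ∫⁻ c, (f1 c + f2 (c + h)) := by
        apply lintegral_mono
        intro c
        by_cases h1 : c ∈ Ico c0 (c0 + h)
        · simp only [hf2', hf1, indicator_of_mem h1]
          exact hpt c h1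
        · simp [indicator_of_notMem h1]
    _ = (∫⁻ c, f1 c) + ∫⁻ c, f2 (c + h) := lintegral_add_left hf1m _
    _ = (∫⁻ c, f1 c) + ∫⁻ c, f2 c := by rw [hshift]
    _ = ∫⁻ c, (f1 c + f2 c) := (lintegral_add_left hf1m _).symm
    _ ≤ ∫⁻ c, F c := lintegral_mono hle

/-- ENNReal bookkeeping for the last step. -/
lemma final_arith {u v d1 d2 : ENNReal} {α β h : ℝ} (hα : 0 < α) (hβ : 0 < β) (hh : 0 < h)
    (hI : ENNReal.ofReal (α * β) * ENNReal.ofReal h ≤ ENNReal.ofReal β * v + ENNReal.ofReal α * u)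
    (hd1 : d1 ≤ ENNReal.ofReal ((h + h) * β)) (hd2 : d2 ≤ ENNReal.ofReal ((h + h) * α)) :
    (1 / 2 : ENNReal) ≤ u / d1 + v / d2 := by
  set A := ENNReal.ofReal α with hA
  set Bt := ENNReal.ofReal β with hBt
  set H := ENNReal.ofReal h with hH
  have A0 : A ≠ 0 := by rw [hA]; exact (ENNReal.ofReal_pos.2 hα).ne'
  have At : A ≠ ⊤ := ENNReal.ofReal_ne_top
  have B0 : Bt ≠ 0 := by rw [hBt]; exact (ENNReal.ofReal_pos.2 hβ).ne'
  have Btt : Bt ≠ ⊤ := ENNReal.ofReal_ne_top
  have H0 : H ≠ 0 := by rw [hH]; exact (ENNReal.ofReal_pos.2 hh).ne'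
  have Ht : H ≠ ⊤ := ENNReal.ofReal_ne_top
  have e1 : ENNReal.ofReal ((h + h) * β) = 2 * H * Bt := by
    rw [ENNReal.ofReal_mul (by linarith), ENNReal.ofReal_add hh.le hh.le, two_mul]
  have e2 : ENNReal.ofReal ((h + h) * α) = 2 * H * A := by
    rw [ENNReal.ofReal_mul (by linarith), ENNReal.ofReal_add hh.le hh.le, two_mul]
  have e3 : ENNReal.ofReal (α * β) = A * Bt := ENNReal.ofReal_mul hα.le
  rw [e1] at hd1
  rw [e2] at hd2
  rw [e3] at hI
  have s1 : u / (2 * H * Bt) ≤ u / d1 := ENNReal.div_le_div_left hd1 u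
  have s2 : v / (2 * H * A) ≤ v / d2 := ENNReal.div_le_div_left hd2 v
  have t1 : u / (2 * H * Bt) = (A * u) / (2 * H * A * Bt) := by
    rw [← ENNReal.mul_div_mul_left u (2 * H * Bt) A0 At]
    congr 1; ring
  have t2 : v / (2 * H * A) = (Bt * v) / (2 * H * A * Bt) := by
    rw [← ENNReal.mul_div_mul_left v (2 * H * A) B0 Btt]
    congr 1; ring
  have den0 : 2 * H * A * Bt ≠ 0 := by
    simp [H0, A0, B0]
  have dent : 2 * H * A * Bt ≠ ⊤ :=
    ENNReal.mul_ne_top (ENNReal.mul_ne_top (ENNReal.mul_ne_top (by norm_num) Ht) At) Btt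
  calc (1 / 2 : ENNReal) ≤ (Bt * v + A * u) / (2 * H * A * Bt) := by
        rw [ENNReal.le_div_iff_mul_le (Or.inl den0) (Or.inl dent)]
        calc (1 / 2 : ENNReal) * (2 * H * A * Bt) = (2⁻¹ * 2) * (A * Bt * H) := by
              rw [one_div]; ring
          _ = A * Bt * H := by
              rw [ENNReal.inv_mul_cancel (by norm_num) (by norm_num), one_mul]
          _ ≤ _ := hI
    _ = (A * u) / (2 * H * A * Bt) + (Bt * v) / (2 * H * A * Bt) := by
        rw [ENNReal.div_add_div_same, add_comm]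
    _ = u / (2 * H * Bt) + v / (2 * H * A) := by rw [t1, t2]
    _ ≤ u / d1 + v / d2 := add_le_add s1 s2

/-- **Two-direction cylinder covering theorem in coordinates.**  Coordinates are `(c, a, b)`.
`B₁` is the base (in the `(c,b)`-plane) of a cylinder parallel to the `a`-axis, `B₂` the base
(in the `(c,a)`-plane) of a cylinder parallel to the `b`-axis. -/
theorem core {K : Set (ℝ × ℝ × ℝ)} (hK : Convex ℝ K) (hKc : IsCompact K) (hKi : (interior K).Nonempty)
    {B₁ B₂ : Set (ℝ × ℝ)} (h₁ : MeasurableSet B₁) (h₂ : MeasurableSet B₂)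
    (hcov : ∀ z ∈ K, (z.1, z.2.2) ∈ B₁ ∨ (z.1, z.2.1) ∈ B₂) :
    (1 / 2 : ENNReal) ≤ volume B₁ / volume ((fun z : ℝ × ℝ × ℝ => (z.1, z.2.2)) '' K)
      + volume B₂ / volume ((fun z : ℝ × ℝ × ℝ => (z.1, z.2.1)) '' K) := by
  have hne : K.Nonempty := hKi.mono interior_subset
  obtain ⟨e0, he0, hmin⟩ := hKc.exists_isMinOn hne continuous_fst.continuousOn
  obtain ⟨e1, he1, hmax⟩ := hKc.exists_isMaxOn hne continuous_fst.continuousOn
  rw [isMinOn_iff] at hmin
  rw [isMaxOn_iff] at hmax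
  set c0 := e0.1 with hc0
  set c1 := e1.1 with hc1
  obtain ⟨z, hz⟩ := hKi
  obtain ⟨ε, hε, hzε⟩ := exists_eps hz
  have hz1 : z.1 + ε ≤ c1 := by
    have := hmax _ (hzε (ε, 0, 0) (by simp [Prod.norm_def, abs_of_pos hε, hε.le]))
    simpa using this
  have hz0 : c0 ≤ z.1 - ε := by
    have := hmin _ (hzε (-ε, 0, 0) (by simp [Prod.norm_def, abs_of_pos hε, hε.le]))
    simp only [Prod.fst_add] at this
    linarith
  set cm := (c0 + c1) / 2 with hcm
  have hc01 : c0 < c1 := by linarith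
  -- an interior point at height cm
  obtain ⟨w, hw, hwc⟩ : ∃ w ∈ interior K, w.1 = cm := by
    rcases le_total z.1 cm with hle | hle
    · set t := (cm - z.1) / (c1 - z.1) with ht
      have hden : 0 < c1 - z.1 := by linarith
      have ht0 : 0 ≤ t := div_nonneg (by linarith) hden.le
      have ht1 : t < 1 := by rw [ht, div_lt_one hden]; linarith
      refine ⟨(1 - t) • z + t • e1, hK.combo_interior_closure_mem_interior hz (subset_closure he1)
        (by linarith) ht0 (by ring), ?_⟩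
      simp only [Prod.fst_add, Prod.smul_fst, smul_eq_mul]
      have : t * (c1 - z.1) = cm - z.1 := by rw [ht]; field_simp
      rw [← hc1]; linarith
    · set t := (z.1 - cm) / (z.1 - c0) with ht
      have hden : 0 < z.1 - c0 := by linarith
      have ht0 : 0 ≤ t := div_nonneg (by linarith) hden.le
      have ht1 : t < 1 := by rw [ht, div_lt_one hden]; linarith
      refine ⟨(1 - t) • z + t • e0, hK.combo_interior_closure_mem_interior hz (subset_closure he0)
        (by linarith) ht0 (by ring), ?_⟩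
      simp only [Prod.fst_add, Prod.smul_fst, smul_eq_mul]
      have : t * (z.1 - c0) = z.1 - cm := by rw [ht]; field_simp
      rw [← hc0]; linarith
  obtain ⟨δ, hδ, hwδ⟩ := exists_eps hw
  -- the middle slice
  set Km : Set (ℝ × ℝ × ℝ) := K ∩ Prod.fst ⁻¹' {cm} with hKm
  have hKmc : IsCompact Km := hKc.inter_right (isClosed_singleton.preimage continuous_fst)
  have hwK : w ∈ Km := ⟨interior_subset hw, hwc⟩
  have hKmne : Km.Nonempty := ⟨w, hwK⟩
  have ca : Continuous (fun z : ℝ × ℝ × ℝ => z.2.1) := continuous_fst.comp continuous_snd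
  have cb : Continuous (fun z : ℝ × ℝ × ℝ => z.2.2) := continuous_snd.comp continuous_snd
  obtain ⟨zl, hzl, hl⟩ := hKmc.exists_isMinOn hKmne ca.continuousOn
  obtain ⟨zr, hzr, hr⟩ := hKmc.exists_isMaxOn hKmne ca.continuousOn
  obtain ⟨zb, hzb, hb⟩ := hKmc.exists_isMinOn hKmne cb.continuousOn
  obtain ⟨zt, hzt, ht⟩ := hKmc.exists_isMaxOn hKmne cb.continuousOn
  rw [isMinOn_iff] at hl hb
  rw [isMaxOn_iff] at hr ht
  have mkmem : ∀ {y : ℝ × ℝ × ℝ}, y ∈ Km → (cm, y.2.1, y.2.2) ∈ K := by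
    intro y hy
    have h1 : y.1 = cm := hy.2
    have : (cm, y.2.1, y.2.2) = y := by rw [← h1]
    rw [this]; exact hy.1
  have wa1 : w + (0, δ, 0) ∈ Km := ⟨hwδ _ (by simp [Prod.norm_def, abs_of_pos hδ, hδ.le]), by
    simp [hwc]⟩
  have wa0 : w + (0, -δ, 0) ∈ Km := ⟨hwδ _ (by simp [Prod.norm_def, abs_of_pos hδ, hδ.le]), by
    simp [hwc]⟩
  have wb1 : w + (0, 0, δ) ∈ Km := ⟨hwδ _ (by simp [Prod.norm_def, abs_of_pos hδ, hδ.le]), by
    simp [hwc]⟩
  have wb0 : w + (0, 0, -δ) ∈ Km := ⟨hwδ _ (by simp [Prod.norm_def, abs_of_pos hδ, hδ.le]), by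
    simp [hwc]⟩
  have ha : zl.2.1 < zr.2.1 := by
    have h1 := hl _ wa0
    have h2 := hr _ wa1
    simp only [Prod.snd_add, Prod.fst_add] at h1 h2
    linarith
  have hbb : zb.2.2 < zt.2.2 := by
    have h1 := hb _ wb0
    have h2 := ht _ wb1
    simp only [Prod.snd_add] at h1 h2
    linarith
  set a0 := zl.2.1
  set a1 := zr.2.1
  set b0 := zb.2.2
  set b1 := zt.2.2
  set h := (c1 - c0) / 2 with hh
  have hhpos : 0 < h := by rw [hh]; linarith
  have hcm0 : c0 + h = cm := by rw [hh, hcm]; ring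
  have hcm1 : cm + h = c1 := by rw [hh, hcm]; ring
  -- the integral inequality
  set F : ℝ → ENNReal := fun c => ENNReal.ofReal (b1 - b0) * volume (Prod.mk c ⁻¹' B₂)
      + ENNReal.ofReal (a1 - a0) * volume (Prod.mk c ⁻¹' B₁) with hF
  have hFm : Measurable F :=
    ((measurable_measure_prodMk_left h₂).const_mul _).add ((measurable_measure_prodMk_left h₁).const_mul _)
  have hslice : ∀ {e : ℝ × ℝ × ℝ}, e ∈ K → ∀ {t : ℝ}, t ∈ Icc (0:ℝ) 1 →
      ENNReal.ofReal (t * ((a1 - a0) * (b1 - b0))) ≤ F ((1 - t) * e.1 + t * cm) := by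
    intro e he t ht'
    exact cone_slice hK h₁ h₂ hcov ha hbb ⟨hb _ hzl, ht _ hzl⟩ ⟨hb _ hzr, ht _ hzr⟩
      ⟨hl _ hzb, hr _ hzb⟩ ⟨hl _ hzt, hr _ hzt⟩ (mkmem hzl) (mkmem hzr) (mkmem hzb) (mkmem hzt) he ht'
  have hI : ENNReal.ofReal ((a1 - a0) * (b1 - b0)) * ENNReal.ofReal h ≤ ∫⁻ c, F c := by
    apply integral_ineq hFm hhpos.le (c0 := c0)
    intro c hc
    set t := (c - c0) / h with htdef
    have ht0 : 0 ≤ t := div_nonneg (by linarith [hc.1]) hhpos.le
    have ht1 : t ≤ 1 := by rw [htdef, div_le_one hhpos]; linarith [hc.2]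
    have hth : t * h = c - c0 := by rw [htdef]; field_simp
    have s1 := hslice he0 (t := t) ⟨ht0, ht1⟩
    have s2 := hslice he1 (t := 1 - t) ⟨by linarith, by linarith⟩
    have e1' : (1 - t) * e0.1 + t * cm = c := by
      rw [← hc0, ← hcm0]; linarith
    have e2' : (1 - (1 - t)) * e1.1 + (1 - t) * cm = c + h := by
      rw [← hc1, ← hcm1]
      have : cm = c0 + h := hcm0.symm
      nlinarith
    rw [e1'] at s1
    rw [e2'] at s2
    have hαβ : 0 ≤ (a1 - a0) * (b1 - b0) := mul_nonneg (by linarith) (by linarith)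
    calc ENNReal.ofReal ((a1 - a0) * (b1 - b0))
        = ENNReal.ofReal (t * ((a1 - a0) * (b1 - b0))) + ENNReal.ofReal ((1 - t) * ((a1 - a0) * (b1 - b0))) := by
          rw [← ENNReal.ofReal_add (mul_nonneg ht0 hαβ) (mul_nonneg (by linarith) hαβ)]
          congr 1; ring
      _ ≤ F c + F (c + h) := add_le_add s1 s2
  have hFint : ∫⁻ c, F c = ENNReal.ofReal (b1 - b0) * volume B₂ + ENNReal.ofReal (a1 - a0) * volume B₁ := by
    rw [hF, lintegral_add_left ((measurable_measure_prodMk_left h₂).const_mul _),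
      lintegral_const_mul _ (measurable_measure_prodMk_left h₂),
      lintegral_const_mul _ (measurable_measure_prodMk_left h₁)]
    rw [Measure.volume_eq_prod, Measure.prod_apply h₂, Measure.prod_apply h₁]
  rw [hFint] at hI
  -- points of K at every height
  have hheight : ∀ c ∈ Icc c0 c1, ∃ y ∈ K, y.1 = c := by
    intro c hc
    set t := (c - c0) / (c1 - c0) with htdef
    have hden : 0 < c1 - c0 := by linarith
    have ht0 : 0 ≤ t := div_nonneg (by linarith [hc.1]) hden.le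
    have ht1 : t ≤ 1 := by rw [htdef, div_le_one hden]; linarith [hc.2]
    refine ⟨(1 - t) • e0 + t • e1, hK he0 he1 (by linarith) ht0 (by ring), ?_⟩
    simp only [Prod.fst_add, Prod.smul_fst, smul_eq_mul]
    have : t * (c1 - c0) = c - c0 := by rw [htdef]; field_simp
    rw [← hc0, ← hc1]; linarith
  have hmid : ∀ y ∈ K, ∀ y' ∈ K, y.1 + y'.1 = c0 + c1 → (1 / 2 : ℝ) • y + (1 / 2 : ℝ) • y' ∈ Km := by
    intro y hy y' hy' hsum
    refine ⟨hK hy hy' (by norm_num) (by norm_num) (by norm_num), ?_⟩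
    simp only [mem_preimage, Prod.fst_add, Prod.smul_fst, smul_eq_mul, mem_singleton_iff]
    rw [hcm]; linarith
  -- area bounds for the two shadows
  have hD1 : volume ((fun z : ℝ × ℝ × ℝ => (z.1, z.2.2)) '' K) ≤ ENNReal.ofReal ((h + h) * (b1 - b0)) := by
    have hcont : Continuous (fun z : ℝ × ℝ × ℝ => (z.1, z.2.2)) := continuous_fst.prodMk cb
    have := area_le (D := (fun z : ℝ × ℝ × ℝ => (z.1, z.2.2)) '' K) (hKc.image hcont).measurableSet
      (c0 := c0) (c1 := c1) (b0 := b0) (b1 := b1) hc01.le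
      (by
        rintro _ ⟨y, hy, rfl⟩
        exact ⟨hmin y hy, hmax y hy⟩)
      (by
        rintro _ ⟨y, hy, rfl⟩ _ ⟨y', hy', rfl⟩ hsum
        have hm := hmid y hy y' hy' hsum
        have h1 := hb _ hm
        have h2 := ht _ hm
        simp only [Prod.snd_add, Prod.smul_snd, smul_eq_mul] at h1 h2
        constructor
        · simp only; linarith
        · simp only; linarith)
      (by
        intro c hc
        obtain ⟨y, hy, rfl⟩ := hheight c hc
        exact ⟨y.2.2, y, hy, rfl⟩)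
    have e : (h + h) = c1 - c0 := by rw [hh]; ring
    rw [e]; exact this
  have hD2 : volume ((fun z : ℝ × ℝ × ℝ => (z.1, z.2.1)) '' K) ≤ ENNReal.ofReal ((h + h) * (a1 - a0)) := by
    have hcont : Continuous (fun z : ℝ × ℝ × ℝ => (z.1, z.2.1)) := continuous_fst.prodMk ca
    have := area_le (D := (fun z : ℝ × ℝ × ℝ => (z.1, z.2.1)) '' K) (hKc.image hcont).measurableSet
      (c0 := c0) (c1 := c1) (b0 := a0) (b1 := a1) hc01.le
      (by
        rintro _ ⟨y, hy, rfl⟩
        exact ⟨hmin y hy, hmax y hy⟩)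
      (by
        rintro _ ⟨y, hy, rfl⟩ _ ⟨y', hy', rfl⟩ hsum
        have hm := hmid y hy y' hy' hsum
        have h1 := hl _ hm
        have h2 := hr _ hm
        simp only [Prod.snd_add, Prod.smul_snd, Prod.fst_add, Prod.smul_fst, smul_eq_mul] at h1 h2
        constructor
        · simp only; linarith
        · simp only; linarith)
      (by
        intro c hc
        obtain ⟨y, hy, rfl⟩ := hheight c hc
        exact ⟨y.2.1, y, hy, rfl⟩)
    have e : (h + h) = c1 - c0 := by rw [hh]; ring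
    rw [e]; exact this
  exact final_arith (by linarith) (by linarith) hhpos hI hD1 hD2

end Vale.Agent.P243
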