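import Mathlib
import Vale.Agent.P243.Bang

open MeasureTheory Set

namespace Vale.Agent.P243

lemma volume_eq_outer (X : Set ℝ) : volume X = StieltjesFunction.id.outer X := by
  rw [Real.volume_val, StieltjesFunction.measure]
  rfl

lemma botSet_real : (botSet : Set ℝ) = ∅ := by
  ext x
  simp only [botSet, mem_ofPred_eq, mem_empty_iff_false, iff_false]
  intro h
  have := h (x - 1)
  linarith

/-- A set of reals is covered by countably many open intervals of total length close to its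
outer measure. -/
lemma exists_interval_cover (X : Set ℝ) {ε : ENNReal} (hε : ε ≠ 0) :
    ∃ a b : ℕ → ℝ, (∀ n, a n ≤ b n) ∧ X ⊆ ⋃ n, Ioo (a n) (b n) ∧
      ∑' n, ENNReal.ofReal (b n - a n) ≤ volume X + ε := by
  by_cases htop : volume X = ⊤
  · refine ⟨fun n => -(n : ℝ) - 1, fun n => (n : ℝ) + 1, fun n => ?_, ?_, ?_⟩
    · have : (0 : ℝ) ≤ n := Nat.cast_nonneg n
      linarith
    · intro x _
      obtain ⟨n, hn⟩ := exists_nat_ge |x|
      refine mem_iUnion.2 ⟨n, ?_, ?_⟩
      · have := neg_abs_le x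
        linarith
      · have := le_abs_self x
        linarith
    · rw [htop]; simp
  have hε2 : ε / 2 ≠ 0 := by simp [hε]
  have hε4 : ε / 2 / 2 ≠ 0 := by simp [hε]
  have h1 : volume X < volume X + ε / 2 := ENNReal.lt_add_right htop hε2
  conv_lhs at h1 => rw [volume_eq_outer, StieltjesFunction.outer, OuterMeasure.ofFunction_apply]
  simp only [iInf_lt_iff] at h1
  obtain ⟨t, ht, hsum⟩ := h1
  obtain ⟨δ, hδpos, hδsum⟩ := ENNReal.exists_pos_sum_of_countable hε4 ℕ
  have hfin : ∀ n, StieltjesFunction.id.length (t n) ≠ ⊤ := by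
    intro n
    have : StieltjesFunction.id.length (t n) ≤ ∑' n, StieltjesFunction.id.length (t n) :=
      ENNReal.le_tsum n
    exact ne_top_of_le_ne_top (ne_top_of_lt hsum) this
  have hab : ∀ n, ∃ a b : ℝ, t n ⊆ Ioc a b ∧
      ENNReal.ofReal (b - a) < StieltjesFunction.id.length (t n) + δ n := by
    intro n
    have h2 : StieltjesFunction.id.length (t n) < StieltjesFunction.id.length (t n) + δ n :=
      ENNReal.lt_add_right (hfin n) (by exact_mod_cast (hδpos n).ne')
    conv_lhs at h2 => rw [StieltjesFunction.length_eq]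
    simp only [iInf_lt_iff] at h2
    obtain ⟨a, b, hsub, hlt⟩ := h2
    rw [botSet_real, sdiff_empty] at hsub
    exact ⟨a, b, hsub, hlt⟩
  choose a b hsub hlt using hab
  refine ⟨a, fun n => max (a n) (b n) + δ n, fun n => ?_, ?_, ?_⟩
  · have : (0 : ℝ) ≤ δ n := (δ n).2
    have := le_max_left (a n) (b n)
    linarith
  · intro x hx
    obtain ⟨n, hn⟩ := mem_iUnion.1 (ht hx)
    have := hsub n hn
    refine mem_iUnion.2 ⟨n, this.1, ?_⟩
    have h3 : (0 : ℝ) < δ n := hδpos n
    have := le_max_right (a n) (b n)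
    linarith [(hsub n hn).2]
  · have hterm : ∀ n, ENNReal.ofReal (max (a n) (b n) + δ n - a n) ≤
        StieltjesFunction.id.length (t n) + δ n + δ n := by
      intro n
      have e : max (a n) (b n) + δ n - a n = max 0 (b n - a n) + δ n := by
        rcases le_total (a n) (b n) with h | h
        · rw [max_eq_right h, max_eq_right (by linarith)]; ring
        · rw [max_eq_left h, max_eq_left (by linarith)]; ring
      rw [e, ENNReal.ofReal_add (le_max_left (0 : ℝ) (b n - a n)) (NNReal.coe_nonneg (δ n))]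
      have e2 : ENNReal.ofReal (max 0 (b n - a n)) = ENNReal.ofReal (b n - a n) := by
        rcases le_total 0 (b n - a n) with h | h
        · rw [max_eq_right h]
        · rw [max_eq_left h, ENNReal.ofReal_of_nonpos h]; simp
      rw [e2, ENNReal.ofReal_coe_nnreal]
      gcongr
      exact (hlt n).le
    calc ∑' n, ENNReal.ofReal (max (a n) (b n) + δ n - a n)
        ≤ ∑' n, (StieltjesFunction.id.length (t n) + δ n + δ n) := ENNReal.tsum_le_tsum hterm
      _ = ∑' n, StieltjesFunction.id.length (t n) + ∑' n, (δ n : ENNReal) + ∑' n, (δ n : ENNReal) := by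
          rw [ENNReal.tsum_add, ENNReal.tsum_add]
      _ ≤ (volume X + ε / 2) + ε / 2 / 2 + ε / 2 / 2 := by
          gcongr
      _ = volume X + ε := by
          rw [add_assoc, ENNReal.add_halves, add_assoc, ENNReal.add_halves]


variable {V : Type*} [NormedAddCommGroup V] [InnerProductSpace ℝ V]

/-- **Bang's plank theorem** for generalised planks `{x | ⟪x, ν i⟫ ∈ X i}` with arbitrary sets
`X i` of reals, measured by Lebesgue outer measure. -/
theorem plank_measure {m : ℕ} {M : Set V} (hM : Convex ℝ M) (hMc : IsCompact M) (hne : M.Nonempty)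
    {n : V} {w : ℝ} (hw : 0 < w)
    (H : ∀ v : V, inner ℝ v n = 0 → ‖v‖ ≤ w → ∃ p ∈ M, ∃ q ∈ M, q - p = v)
    (ν : Fin m → V) (hν : ∀ i, ‖ν i‖ = 1) (hνn : ∀ i, inner ℝ (ν i) n = 0)
    (X : Fin m → Set ℝ)
    (hcov : ∀ x ∈ M, ∃ i, inner ℝ x (ν i) ∈ X i) :
    ENNReal.ofReal w ≤ ∑ i, volume (X i) := by
  apply ENNReal.le_of_forall_pos_le_add
  intro ε hε _
  have hε' : (ε : ENNReal) ≠ 0 := by exact_mod_cast hε.ne'
  obtain ⟨δ, hδpos, hδsum⟩ := ENNReal.exists_pos_sum_of_countable hε' (Fin m)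
  rw [tsum_fintype] at hδsum
  have hc : ∀ i, ∃ a b : ℕ → ℝ, (∀ k, a k ≤ b k) ∧ X i ⊆ ⋃ k, Ioo (a k) (b k) ∧
      ∑' k, ENNReal.ofReal (b k - a k) ≤ volume (X i) + δ i := fun i =>
    exists_interval_cover (X i) (by exact_mod_cast (hδpos i).ne')
  choose a b hab hsub hsum using hc
  obtain ⟨t, ht⟩ := hMc.elim_finite_subcover
    (fun j : Fin m × ℕ => {x : V | inner ℝ x (ν j.1) ∈ Ioo (a j.1 j.2) (b j.1 j.2)})
    (fun j => isOpen_Ioo.preimage (by fun_prop))
    (by
      intro x hx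
      obtain ⟨i, hi⟩ := hcov x hx
      obtain ⟨k, hk⟩ := mem_iUnion.1 (hsub i hi)
      exact mem_iUnion.2 ⟨(i, k), hk⟩)
  have hfin := plank_finite (ι := t) hM hne hw H (fun j => ν j.1.1) (fun j => hν _) (fun j => hνn _)
    (fun j => a j.1.1 j.1.2) (fun j => b j.1.1 j.1.2) (fun j => hab _ _)
    (by
      intro x hx
      obtain ⟨j, hj⟩ := mem_iUnion.1 (ht hx)
      obtain ⟨hjt, hj⟩ := mem_iUnion.1 hj
      exact ⟨⟨j, hjt⟩, hj⟩)
  calc ENNReal.ofReal w ≤ ENNReal.ofReal (∑ j : t, (b j.1.1 j.1.2 - a j.1.1 j.1.2)) :=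
        ENNReal.ofReal_le_ofReal hfin.le
    _ = ∑ j : t, ENNReal.ofReal (b j.1.1 j.1.2 - a j.1.1 j.1.2) :=
        ENNReal.ofReal_sum_of_nonneg (fun j _ => by linarith [hab j.1.1 j.1.2])
    _ = ∑ j ∈ t, ENNReal.ofReal (b j.1 j.2 - a j.1 j.2) :=
        Finset.sum_coe_sort t (fun j => ENNReal.ofReal (b j.1 j.2 - a j.1 j.2))
    _ ≤ ∑' j : Fin m × ℕ, ENNReal.ofReal (b j.1 j.2 - a j.1 j.2) := ENNReal.sum_le_tsum t
    _ = ∑' i : Fin m, ∑' k : ℕ, ENNReal.ofReal (b i k - a i k) :=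
        ENNReal.tsum_prod (f := fun i k => ENNReal.ofReal (b i k - a i k))
    _ = ∑ i : Fin m, ∑' k : ℕ, ENNReal.ofReal (b i k - a i k) := tsum_fintype _
    _ ≤ ∑ i : Fin m, (volume (X i) + δ i) := Finset.sum_le_sum (fun i _ => hsum i)
    _ = ∑ i, volume (X i) + ∑ i : Fin m, (δ i : ENNReal) := Finset.sum_add_distrib
    _ ≤ ∑ i, volume (X i) + ε := by gcongr

end Vale.Agent.P243
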