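import Mathlib
import Vale.Agent.P243.Cover

open MeasureTheory Set

namespace Vale.Agent.P243

variable {V : Type*} [NormedAddCommGroup V] [InnerProductSpace ℝ V] [CompleteSpace V]

/-- A flat compact convex set of width at least `w` in every direction of its hyperplane contains
chords realising every vector of length at most `w` in the hyperplane. -/
lemma chords_of_width {M : Set V} (hM : Convex ℝ M) (hMc : IsCompact M) (hne : M.Nonempty) {n : V}
    (hn : ‖n‖ = 1) (hflat : ∀ p ∈ M, ∀ q ∈ M, inner ℝ (q - p) n = 0) {w : ℝ}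
    (hwidth : ∀ ν : V, ‖ν‖ = 1 → inner ℝ ν n = 0 → ∃ p ∈ M, ∃ q ∈ M, w ≤ inner ℝ (q - p) ν) :
    ∀ v : V, inner ℝ v n = 0 → ‖v‖ ≤ w → ∃ p ∈ M, ∃ q ∈ M, q - p = v := by
  intro v hvn hvw
  set D : Set V := (fun z : V × V => z.2 - z.1) '' (M ×ˢ M) with hD
  have hDc : IsCompact D := (hMc.prod hMc).image (by fun_prop)
  have hDconv : Convex ℝ D := by
    have : D = (LinearMap.snd ℝ V V - LinearMap.fst ℝ V V) '' (M ×ˢ M) := rfl
    rw [this]
    exact (hM.prod hM).linear_image _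
  by_contra hcon
  have hvD : v ∉ D := by
    rintro ⟨z, hz, hzv⟩
    exact hcon ⟨z.1, hz.1, z.2, hz.2, hzv⟩
  obtain ⟨f, u, hfu, huv⟩ := geometric_hahn_banach_closed_point hDconv hDc.isClosed hvD
  set g : V := (InnerProductSpace.toDual ℝ V).symm f with hg
  have hfg : ∀ x, f x = inner ℝ g x := fun x => by
    rw [hg, InnerProductSpace.toDual_symm_apply]
  set g' : V := g - (inner ℝ g n) • n with hg'
  have hnn : inner ℝ n n = (1 : ℝ) := by
    rw [real_inner_self_eq_norm_sq, hn]; norm_num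
  have hg'n : inner ℝ g' n = 0 := by
    rw [hg', inner_sub_left, inner_smul_left, hnn]; simp
  have hg'd : ∀ d : V, inner ℝ d n = 0 → inner ℝ g' d = f d := by
    intro d hd
    rw [hg', inner_sub_left, inner_smul_left, real_inner_comm d n, hd, hfg]
    simp
  obtain ⟨p₀, hp₀⟩ := hne
  have h0D : (0 : V) ∈ D := ⟨(p₀, p₀), ⟨hp₀, hp₀⟩, by simp⟩
  have hu0 : 0 < u := by
    have := hfu 0 h0D
    simpa using this
  have hfv : 0 < inner ℝ g' v := by
    rw [hg'd v hvn]; linarith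
  have hg'0 : g' ≠ 0 := by
    intro h
    rw [h, inner_zero_left] at hfv
    exact lt_irrefl _ hfv
  have hg'pos : 0 < ‖g'‖ := norm_pos_iff.2 hg'0
  obtain ⟨p, hp, q, hq, hpq⟩ := hwidth (‖g'‖⁻¹ • g')
    (by rw [norm_smul, norm_inv, norm_norm, inv_mul_cancel₀ hg'pos.ne'])
    (by rw [inner_smul_left, hg'n, mul_zero])
  rw [inner_smul_right] at hpq
  have h1 : w * ‖g'‖ ≤ inner ℝ (q - p) g' := by
    have := mul_le_mul_of_nonneg_right hpq hg'pos.le
    rwa [mul_comm (‖g'‖⁻¹), mul_assoc, inv_mul_cancel₀ hg'pos.ne', mul_one] at this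
  have h2 : inner ℝ g' (q - p) = f (q - p) := hg'd _ (hflat p hp q hq)
  have h3 : f (q - p) < u := hfu _ ⟨(p, q), ⟨hp, hq⟩, rfl⟩
  have h4 : inner ℝ g' v ≤ ‖g'‖ * ‖v‖ := real_inner_le_norm _ _
  have h5 : inner ℝ g' v = f v := hg'd v hvn
  rw [real_inner_comm] at h1
  have h6 : ‖g'‖ * ‖v‖ ≤ w * ‖g'‖ := by
    rw [mul_comm]; exact mul_le_mul_of_nonneg_right hvw hg'pos.le
  linarith

end Vale.Agent.P243
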