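import Mathlib
import Vale.Agent.P243.Core
import Vale.Agent.P243.Width

open MeasureTheory Set

namespace Vale.Agent.P243

variable {V : Type*} [NormedAddCommGroup V] [InnerProductSpace ℝ V] [CompleteSpace V]

omit [CompleteSpace V] in
/-- Slice estimate on the cone with apex `e` over the flat convex set `M`. -/
lemma cone_slice_A {m : ℕ} {K M : Set V} (hK : Convex ℝ K) (hMK : M ⊆ K)
    (hM : Convex ℝ M) (hMc : IsCompact M) (hne : M.Nonempty) {n : V} {cm w : ℝ} (hw : 0 < w)
    (hMn : ∀ x ∈ M, inner ℝ x n = cm)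
    (H : ∀ v : V, inner ℝ v n = 0 → ‖v‖ ≤ w → ∃ p ∈ M, ∃ q ∈ M, q - p = v)
    (ν : Fin m → V) (hν : ∀ i, ‖ν i‖ = 1) (hνn : ∀ i, inner ℝ (ν i) n = 0)
    (B : Fin m → Set (ℝ × ℝ))
    (hcov : ∀ x ∈ K, ∃ i, (inner ℝ x n, inner ℝ x (ν i)) ∈ B i)
    {e : V} (he : e ∈ K) {t : ℝ} (ht : t ∈ Icc (0 : ℝ) 1) :
    ENNReal.ofReal (t * w) ≤
      ∑ i, volume (Prod.mk ((1 - t) * inner ℝ e n + t * cm) ⁻¹' B i) := by
  rcases ht.1.eq_or_lt with rfl | htpos
  · simp
  set φ : V → V := fun x => (1 - t) • e + t • x with hφ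
  have hφc : Continuous φ := by fun_prop
  have hMt : Convex ℝ (φ '' M) := by
    have : φ '' M = (fun x => (1 - t) • e + x) '' ((fun x => t • x) '' M) := by
      rw [image_image]
    rw [this]
    exact (hM.smul t).translate _
  refine plank_measure hMt (hMc.image hφc) (hne.image φ) (n := n) (mul_pos htpos hw) ?_ ν hν hνn _ ?_
  · intro v hvn hv
    obtain ⟨p, hp, q, hq, hpq⟩ := H (t⁻¹ • v) (by rw [inner_smul_left, hvn, mul_zero])
      (by
        rw [norm_smul, norm_inv, Real.norm_eq_abs, abs_of_pos htpos, inv_mul_le_iff₀ htpos]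
        exact hv)
    refine ⟨φ p, mem_image_of_mem φ hp, φ q, mem_image_of_mem φ hq, ?_⟩
    simp only [hφ]
    rw [add_sub_add_left_eq_sub, ← smul_sub, hpq, smul_smul, mul_inv_cancel₀ htpos.ne', one_smul]
  · rintro _ ⟨x, hx, rfl⟩
    have hxK : φ x ∈ K := hK he (hMK hx) (by linarith [ht.2]) ht.1 (by ring)
    obtain ⟨i, hi⟩ := hcov _ hxK
    refine ⟨i, ?_⟩
    have e1 : inner ℝ (φ x) n = (1 - t) * inner ℝ e n + t * cm := by
      simp only [hφ]
      rw [inner_add_left, inner_smul_left, inner_smul_left, hMn x hx]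
      simp
    rw [e1] at hi
    exact hi

/-- **Coplanar axes, functional form.**  `K` is covered by the sets
`{x | (⟪x, n⟫, ⟪x, ν i⟫) ∈ B i}` with unit vectors `ν i ⊥ n`; if every shadow
`{(⟪x, n⟫, ⟪x, ν⟫) | x ∈ K}`, `ν ⊥ n` a unit vector, has area at least `A`,
then `A / 2 ≤ ∑ |B i|`. -/
theorem coreA {m : ℕ} {K : Set V} (hK : Convex ℝ K) (hKc : IsCompact K)
    (hKi : (interior K).Nonempty) {n : V} (hn : ‖n‖ = 1)
    (ν : Fin m → V) (hν : ∀ i, ‖ν i‖ = 1) (hνn : ∀ i, inner ℝ (ν i) n = 0)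
    (B : Fin m → Set (ℝ × ℝ)) (hB : ∀ i, MeasurableSet (B i))
    (hcov : ∀ x ∈ K, ∃ i, (inner ℝ x n, inner ℝ x (ν i)) ∈ B i)
    {A : ENNReal}
    (hA : ∀ μ : V, ‖μ‖ = 1 → inner ℝ μ n = 0 →
      A ≤ volume ((fun x : V => ((inner ℝ x n : ℝ), (inner ℝ x μ : ℝ))) '' K)) :
    A / 2 ≤ ∑ i, volume (B i) := by
  have hne : K.Nonempty := hKi.mono interior_subset
  have hcn : Continuous (fun x : V => (inner ℝ x n : ℝ)) := by fun_prop
  obtain ⟨e0, he0, hmin⟩ := hKc.exists_isMinOn hne hcn.continuousOn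
  obtain ⟨e1, he1, hmax⟩ := hKc.exists_isMaxOn hne hcn.continuousOn
  rw [isMinOn_iff] at hmin
  rw [isMaxOn_iff] at hmax
  set c0 : ℝ := inner ℝ e0 n with hc0
  set c1 : ℝ := inner ℝ e1 n with hc1
  have hnn : inner ℝ n n = (1 : ℝ) := by
    rw [real_inner_self_eq_norm_sq, hn]; norm_num
  have hc01 : c0 < c1 := by
    obtain ⟨z, hz⟩ := hKi
    rw [mem_interior_iff_mem_nhds, Metric.mem_nhds_iff] at hz
    obtain ⟨ε, hε, hball⟩ := hz
    have h1 : z + (ε / 2) • n ∈ K := hball (by
      rw [Metric.mem_ball, dist_eq_norm, add_sub_cancel_left, norm_smul, hn, mul_one,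
        Real.norm_eq_abs, abs_of_pos (by linarith)]
      linarith)
    have h2 : z - (ε / 2) • n ∈ K := hball (by
      rw [Metric.mem_ball, dist_eq_norm, sub_sub_cancel_left, norm_neg, norm_smul, hn, mul_one,
        Real.norm_eq_abs, abs_of_pos (by linarith)]
      linarith)
    have h3 := hmax _ h1
    have h4 := hmin _ h2
    rw [inner_add_left, inner_smul_left, hnn] at h3
    rw [inner_sub_left, inner_smul_left, hnn] at h4
    simp only [conj_trivial, mul_one] at h3 h4
    linarith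
  set cm := (c0 + c1) / 2 with hcm
  set h := (c1 - c0) / 2 with hh
  have hhpos : 0 < h := by rw [hh]; linarith
  have hcm0 : c0 + h = cm := by rw [hh, hcm]; ring
  have hcm1 : cm + h = c1 := by rw [hh, hcm]; ring
  -- the middle slice
  set M : Set V := K ∩ {x | inner ℝ x n = cm} with hM
  have hMc : IsCompact M := hKc.inter_right (isClosed_eq hcn continuous_const)
  have hMconv : Convex ℝ M := by
    apply hK.inter
    intro x hx y hy a b _ _ hab
    simp only [mem_ofPred_eq] at hx hy ⊢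
    rw [inner_add_left, inner_smul_left, inner_smul_left, hx, hy]
    simp only [conj_trivial]
    rw [← add_mul, hab, one_mul]
  have hmid : ∀ y ∈ K, ∀ y' ∈ K, inner ℝ y n + inner ℝ y' n = c0 + c1 →
      (1 / 2 : ℝ) • y + (1 / 2 : ℝ) • y' ∈ M := by
    intro y hy y' hy' hsum
    refine ⟨hK hy hy' (by norm_num) (by norm_num) (by norm_num), ?_⟩
    simp only [mem_ofPred_eq]
    rw [inner_add_left, inner_smul_left, inner_smul_left]
    simp only [conj_trivial]
    rw [hcm]; linarith
  have hMne : M.Nonempty := ⟨_, hmid e0 he0 e1 he1 rfl⟩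
  have hheight : ∀ c ∈ Icc c0 c1, ∃ y ∈ K, inner ℝ y n = c := by
    intro c hc
    set t := (c - c0) / (c1 - c0) with htdef
    have hden : 0 < c1 - c0 := by linarith
    have ht0 : 0 ≤ t := div_nonneg (by linarith [hc.1]) hden.le
    have ht1 : t ≤ 1 := by rw [htdef, div_le_one hden]; linarith [hc.2]
    refine ⟨(1 - t) • e0 + t • e1, hK he0 he1 (by linarith) ht0 (by ring), ?_⟩
    rw [inner_add_left, inner_smul_left, inner_smul_left]
    simp only [conj_trivial]
    have : t * (c1 - c0) = c - c0 := by rw [htdef]; field_simp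
    rw [← hc0, ← hc1]; linarith
  -- shadows are not larger than height times width of the middle slice
  have hshadow : ∀ μ : V, ‖μ‖ = 1 → inner ℝ μ n = 0 → ∃ p ∈ M, ∃ q ∈ M,
      A ≤ ENNReal.ofReal ((c1 - c0) * inner ℝ (q - p) μ) := by
    intro μ hμ hμn
    have hcμ : Continuous (fun x : V => (inner ℝ x μ : ℝ)) := by fun_prop
    obtain ⟨p, hp, hpmin⟩ := hMc.exists_isMinOn hMne hcμ.continuousOn
    obtain ⟨q, hq, hqmax⟩ := hMc.exists_isMaxOn hMne hcμ.continuousOn
    rw [isMinOn_iff] at hpmin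
    rw [isMaxOn_iff] at hqmax
    refine ⟨p, hp, q, hq, (hA μ hμ hμn).trans ?_⟩
    rw [inner_sub_left]
    apply area_le (hKc.image (hcn.prodMk hcμ)).measurableSet hc01.le
    · rintro _ ⟨y, hy, rfl⟩
      exact ⟨hmin y hy, hmax y hy⟩
    · rintro _ ⟨y, hy, rfl⟩ _ ⟨y', hy', rfl⟩ hsum
      have hm := hmid y hy y' hy' hsum
      have h1 := hpmin _ hm
      have h2 := hqmax _ hm
      rw [inner_add_left, inner_smul_left, inner_smul_left] at h1 h2
      simp only [conj_trivial] at h1 h2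
      constructor
      · simp only; linarith
      · simp only; linarith
    · intro c hc
      obtain ⟨y, hy, rfl⟩ := hheight c hc
      exact ⟨inner ℝ y μ, y, hy, rfl⟩
  by_cases hA0 : A = 0
  · rw [hA0]; simp
  -- `A` is finite
  obtain ⟨x₀, hx₀⟩ := hne
  obtain ⟨i₀, -⟩ := hcov x₀ hx₀
  have hAtop : A ≠ ⊤ := by
    obtain ⟨p, -, q, -, hpq⟩ := hshadow (ν i₀) (hν i₀) (hνn i₀)
    exact ne_top_of_le_ne_top ENNReal.ofReal_ne_top hpq
  have hApos : 0 < A.toReal := ENNReal.toReal_pos hA0 hAtop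
  set w : ℝ := A.toReal / (c1 - c0) with hw
  have hwpos : 0 < w := div_pos hApos (by linarith)
  have H := chords_of_width hMconv hMc hMne hn
    (by
      intro p hp q hq
      rw [inner_sub_left, hp.2, hq.2, sub_self])
    (w := w)
    (by
      intro μ hμ hμn
      obtain ⟨p, hp, q, hq, hpq⟩ := hshadow μ hμ hμn
      refine ⟨p, hp, q, hq, ?_⟩
      have h1 : A.toReal ≤ (c1 - c0) * inner ℝ (q - p) μ := by
        by_contra hlt
        rw [not_le] at hlt
        have : ENNReal.ofReal ((c1 - c0) * inner ℝ (q - p) μ) < A := by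
          rw [← ENNReal.ofReal_toReal hAtop]
          exact (ENNReal.ofReal_lt_ofReal_iff hApos).2 hlt
        exact absurd hpq (not_le.2 this)
      rw [hw, div_le_iff₀ (by linarith)]
      linarith)
  set F : ℝ → ENNReal := fun c => ∑ i, volume (Prod.mk c ⁻¹' B i) with hF
  have hFm : Measurable F :=
    Finset.measurable_sum _ (fun i _ => measurable_measure_prodMk_left (hB i))
  have hslice : ∀ {e : V}, e ∈ K → ∀ {t : ℝ}, t ∈ Icc (0 : ℝ) 1 →
      ENNReal.ofReal (t * w) ≤ F ((1 - t) * inner ℝ e n + t * cm) := by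
    intro e he t ht
    exact cone_slice_A hK inter_subset_left hMconv hMc hMne hwpos (fun x hx => hx.2) H ν hν hνn B
      hcov he ht
  have hI : ENNReal.ofReal w * ENNReal.ofReal h ≤ ∫⁻ c, F c := by
    apply integral_ineq hFm hhpos.le (c0 := c0)
    intro c hc
    set t := (c - c0) / h with htdef
    have ht0 : 0 ≤ t := div_nonneg (by linarith [hc.1]) hhpos.le
    have ht1 : t ≤ 1 := by rw [htdef, div_le_one hhpos]; linarith [hc.2]
    have hth : t * h = c - c0 := by rw [htdef]; field_simp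
    have s1 := hslice he0 (t := t) ⟨ht0, ht1⟩
    have s2 := hslice he1 (t := 1 - t) ⟨by linarith, by linarith⟩
    have e1' : (1 - t) * inner ℝ e0 n + t * cm = c := by
      rw [← hc0, ← hcm0]; linarith
    have e2' : (1 - (1 - t)) * inner ℝ e1 n + (1 - t) * cm = c + h := by
      rw [← hc1, ← hcm1]
      have : cm = c0 + h := hcm0.symm
      nlinarith
    rw [e1'] at s1
    rw [e2'] at s2
    calc ENNReal.ofReal w = ENNReal.ofReal (t * w) + ENNReal.ofReal ((1 - t) * w) := by
          rw [← ENNReal.ofReal_add (mul_nonneg ht0 hwpos.le) (mul_nonneg (by linarith) hwpos.le)]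
          congr 1; ring
      _ ≤ F c + F (c + h) := add_le_add s1 s2
  have hFint : ∫⁻ c, F c = ∑ i, volume (B i) := by
    rw [hF, lintegral_finsetSum _ (fun i _ => measurable_measure_prodMk_left (hB i))]
    apply Finset.sum_congr rfl
    intro i _
    rw [Measure.volume_eq_prod, Measure.prod_apply (hB i)]
  rw [hFint] at hI
  calc A / 2 = ENNReal.ofReal w * ENNReal.ofReal h := by
        rw [← ENNReal.ofReal_mul hwpos.le]
        have : w * h = A.toReal / 2 := by
          have hden : c1 - c0 ≠ 0 := by linarith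
          rw [hw, hh]; field_simp
        rw [this, ENNReal.ofReal_div_of_pos (by norm_num), ENNReal.ofReal_toReal hAtop]
        norm_num
    _ ≤ _ := hI

end Vale.Agent.P243
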