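import Mathlib
import Vale.Agent.P243.CoreA
import Vale.Agent.P243.Chart

open MeasureTheory Set

namespace Vale.Agent.P243

variable {E : Type*} [NormedAddCommGroup E] [InnerProductSpace ℝ E] [FiniteDimensional ℝ E]

lemma exists_unit_orth (hE : Module.finrank ℝ E = 3) (a b : E) :
    ∃ ν : E, ‖ν‖ = 1 ∧ inner ℝ ν a = 0 ∧ inner ℝ ν b = 0 := by
  set W : Submodule ℝ E := Submodule.span ℝ (Set.range ![a, b]) with hW
  have h1 : Module.finrank ℝ W ≤ 2 := by
    have := finrank_range_le_card (R := ℝ) ![a, b]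
    simpa [Set.finrank] using this
  have h2 := Submodule.finrank_add_finrank_orthogonal W
  have h3 : 0 < Module.finrank ℝ Wᗮ := by omega
  obtain ⟨x, hx⟩ := Module.finrank_pos_iff_exists_ne_zero.1 h3
  have hx0 : (x : E) ≠ 0 := fun h => hx (Subtype.ext h)
  have hxpos : 0 < ‖(x : E)‖ := norm_pos_iff.2 hx0
  have hmem := (Submodule.mem_orthogonal' W (x : E)).1 x.2
  refine ⟨‖(x : E)‖⁻¹ • (x : E), ?_, ?_, ?_⟩
  · rw [norm_smul, norm_inv, norm_norm, inv_mul_cancel₀ hxpos.ne']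
  · rw [inner_smul_left, hmem a (Submodule.subset_span ⟨0, rfl⟩), mul_zero]
  · rw [inner_smul_left, hmem b (Submodule.subset_span ⟨1, rfl⟩), mul_zero]

variable [MeasurableSpace E] [BorelSpace E]

lemma plane_chart (hE : Module.finrank ℝ E = 3) {w n ν : E} (hw : w ≠ 0) (hn : ‖n‖ = 1)
    (hν : ‖ν‖ = 1) (hnν : inner ℝ n ν = 0) (hnw : inner ℝ n w = 0) (hνw : inner ℝ ν w = 0) :
    ∃ e : ((ℝ ∙ w)ᗮ : Submodule ℝ E) ≃ᵐ ℝ × ℝ, MeasurePreserving e volume volume ∧
      ∀ y, e y = ((inner ℝ (y : E) n : ℝ), (inner ℝ (y : E) ν : ℝ)) := by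
  have : Fact (Module.finrank ℝ E = 2 + 1) := ⟨hE⟩
  have hF : Module.finrank ℝ ((ℝ ∙ w)ᗮ : Submodule ℝ E) = 2 := Submodule.finrank_orthogonal_span_singleton hw
  have hnm : n ∈ (ℝ ∙ w)ᗮ := Submodule.mem_orthogonal_singleton_iff_inner_left.2 hnw
  have hνm : ν ∈ (ℝ ∙ w)ᗮ := Submodule.mem_orthogonal_singleton_iff_inner_left.2 hνw
  exact exists_chart hF (p := ⟨n, hnm⟩) (q := ⟨ν, hνm⟩) hn hν hnν

/-- Bang's half-area inequality for coverings by cylinders whose axes are parallel to a plane. -/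
theorem coplanar (hE : Module.finrank ℝ E = 3) {K : Set E} (hK : Convex ℝ K) (hKc : IsCompact K)
    (hKi : (interior K).Nonempty) {n₀ : E} (hn₀ : n₀ ≠ 0) {m : ℕ} (u : Fin m → E)
    (hu : ∀ i, ‖u i‖ = 1) (hun : ∀ i, inner ℝ (u i) n₀ = 0)
    (B : ∀ i, Set ((ℝ ∙ u i)ᗮ : Submodule ℝ E))
    (hcov : ∀ x ∈ K, ∃ i, ∃ b ∈ B i, ∃ t : ℝ, x = (b : E) + t • u i) :
    (⨅ (w : E) (_ : ‖w‖ = 1) (_ : inner ℝ w n₀ = 0),
      volume ((ℝ ∙ w)ᗮ.orthogonalProjectionOnto '' K)) / 2 ≤ ∑ i, volume (B i) := by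
  have : CompleteSpace E := FiniteDimensional.complete ℝ E
  have hn₀pos : 0 < ‖n₀‖ := norm_pos_iff.2 hn₀
  set n : E := ‖n₀‖⁻¹ • n₀ with hn
  have hn1 : ‖n‖ = 1 := by
    rw [hn, norm_smul, norm_inv, norm_norm, inv_mul_cancel₀ hn₀pos.ne']
  have horth : ∀ x : E, inner ℝ x n = 0 ↔ inner ℝ x n₀ = 0 := by
    intro x
    rw [hn, inner_smul_right]
    constructor
    · intro h
      rcases mul_eq_zero.1 h with h | h
      · exact absurd h (inv_ne_zero hn₀pos.ne')
      · exact h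
    · intro h; rw [h, mul_zero]
  have hu0 : ∀ i, u i ≠ 0 := by
    intro i h
    have := hu i
    rw [h, norm_zero] at this
    exact zero_ne_one this
  -- second coordinate vectors of the base planes
  have hν : ∀ i, ∃ ν : E, ‖ν‖ = 1 ∧ inner ℝ ν n = 0 ∧ inner ℝ ν (u i) = 0 := fun i =>
    exists_unit_orth hE n (u i)
  choose ν hν1 hνn hνu using hν
  have hch : ∀ i, ∃ e : ((ℝ ∙ u i)ᗮ : Submodule ℝ E) ≃ᵐ ℝ × ℝ, MeasurePreserving e volume volume ∧
      ∀ y, e y = ((inner ℝ (y : E) n : ℝ), (inner ℝ (y : E) (ν i) : ℝ)) := fun i =>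
    plane_chart hE (hu0 i) hn1 (hν1 i) (by rw [real_inner_comm]; exact hνn i)
      (by rw [real_inner_comm]; exact (horth _).2 (hun i)) (hνu i)
  choose e hemp he using hch
  have hvol : ∀ i, volume ((e i).symm ⁻¹' (toMeasurable volume (B i))) = volume (B i) := by
    intro i
    rw [(hemp i).symm.measure_preimage_equiv, measure_toMeasurable]
  rw [← Finset.sum_congr rfl (fun i _ => hvol i)]
  apply coreA hK hKc hKi hn1 ν hν1 hνn
  · intro i
    exact (e i).symm.measurable (measurableSet_toMeasurable _ _)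
  · intro x hx
    obtain ⟨i, b, hb, t, rfl⟩ := hcov x hx
    refine ⟨i, ?_⟩
    have h1 : inner ℝ ((b : E) + t • u i) n = inner ℝ (b : E) n := by
      rw [inner_add_left, inner_smul_left, (horth _).2 (hun i), mul_zero, add_zero]
    have h2 : inner ℝ ((b : E) + t • u i) (ν i) = inner ℝ (b : E) (ν i) := by
      rw [inner_add_left, inner_smul_left, real_inner_comm (ν i) (u i), hνu i, mul_zero, add_zero]
    rw [h1, h2, ← he i b, mem_preimage, MeasurableEquiv.symm_apply_apply]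
    exact subset_toMeasurable _ _ hb
  · intro μ hμ hμn
    obtain ⟨w, hw1, hwn, hwμ⟩ := exists_unit_orth hE n μ
    have hw0 : w ≠ 0 := by
      intro h
      rw [h, norm_zero] at hw1
      exact zero_ne_one hw1
    obtain ⟨f, hfmp, hf⟩ := plane_chart hE hw0 hn1 hμ (by rw [real_inner_comm]; exact hμn)
      (by rw [real_inner_comm]; exact hwn) (by rw [real_inner_comm]; exact hwμ)
    have hnm : n ∈ (ℝ ∙ w)ᗮ := Submodule.mem_orthogonal_singleton_iff_inner_left.2
      (by rw [real_inner_comm]; exact hwn)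
    have hμm : μ ∈ (ℝ ∙ w)ᗮ := Submodule.mem_orthogonal_singleton_iff_inner_left.2
      (by rw [real_inner_comm]; exact hwμ)
    have himg : (fun x : E => ((inner ℝ x n : ℝ), (inner ℝ x μ : ℝ))) '' K
        = f.symm ⁻¹' ((ℝ ∙ w)ᗮ.orthogonalProjectionOnto '' K) := by
      rw [← MeasurableEquiv.image_eq_preimage_symm, image_image]
      apply image_congr
      intro x _
      rw [hf]
      have h1 := Submodule.inner_orthogonalProjectionOnto_eq_of_mem_right
        (K := (ℝ ∙ w)ᗮ) (⟨n, hnm⟩ : ((ℝ ∙ w)ᗮ : Submodule ℝ E)) x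
      have h2 := Submodule.inner_orthogonalProjectionOnto_eq_of_mem_right
        (K := (ℝ ∙ w)ᗮ) (⟨μ, hμm⟩ : ((ℝ ∙ w)ᗮ : Submodule ℝ E)) x
      rw [Submodule.coe_inner] at h1 h2
      rw [h1, h2]
    rw [himg, hfmp.symm.measure_preimage_equiv]
    exact iInf_le_of_le w (iInf_le_of_le hw1 (iInf_le _ ((horth w).1 hwn)))

end Vale.Agent.P243
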