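import Mathlib

open MeasureTheory Set

namespace Vale.Agent.P243

variable {E : Type*} [NormedAddCommGroup E] [InnerProductSpace ℝ E]

/-- The plane through the origin orthogonal to `u` (a plane when `E` is 3-dimensional, `u ≠ 0`). -/
noncomputable def plane (u : E) : Submodule ℝ E := (ℝ ∙ u)ᗮ

/-- The cylinder `B + ℝ u` with base `B` in `plane u` and axis direction `u`. -/
def cylinder (u : E) (B : Set (plane u)) : Set E :=
  {x | ∃ b ∈ B, ∃ t : ℝ, x = (b : E) + t • u}

variable [FiniteDimensional ℝ E]

/-- The orthogonal projection of `K` onto `plane u`. -/
noncomputable def shadow (K : Set E) (u : E) : Set (plane u) :=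
  (plane u).orthogonalProjectionOnto '' K

variable [MeasurableSpace E] [BorelSpace E]

/-- Lebesgue measure on the subspace `S` with the inner product inherited from `E`. -/
noncomputable def lebesgue (S : Submodule ℝ E) : Measure S := volume

/-- Area (Lebesgue measure in `plane u`, an outer measure on arbitrary sets) of `B`. -/
noncomputable def area {u : E} (B : Set (plane u)) : ENNReal := lebesgue (plane u) B

end Vale.Agent.P243
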