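import Mathlib
import Vale.Agent.P243.Defs

open MeasureTheory Set

namespace Vale.Agent.P243

variable {E : Type*} [NormedAddCommGroup E] [InnerProductSpace ℝ E] [FiniteDimensional ℝ E]
  [MeasurableSpace E] [BorelSpace E]

/-- Total relative base area of the cylinders `B k + ℝ v`, `k = 1, ..., n`, which share the axis
direction `v`: the sum of the areas of the bases divided by the area of the shadow of `K`. -/
noncomputable def relArea (K : Set E) (v : E) {n : ℕ} (B : Fin n → Set (plane v)) : ENNReal :=
  (∑ k, area (B k)) / area (shadow K v)

/-- The directionwise relative area of the family of cylinders `B j k + ℝ v j`. -/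
noncomputable def relSum (K : Set E) {m n : ℕ} (v : Fin m → E)
    (B : ∀ j, Fin n → Set (plane (v j))) : ENNReal :=
  ∑ j, relArea K (v j) (B j)

/-- The sum of the base areas of the family of cylinders `B j k + ℝ v j`. -/
noncomputable def totalArea {m n : ℕ} (v : Fin m → E)
    (B : ∀ j, Fin n → Set (plane (v j))) : ENNReal :=
  ∑ j, ∑ k, area (B j k)

/-- The smallest area of an orthogonal projection of `K` onto a plane. -/
noncomputable def minShadow (K : Set E) : ENNReal :=
  ⨅ (w : E) (_ : ‖w‖ = 1), area (shadow K w)

end Vale.Agent.P243
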