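import Mathlib
import Vale.Agent.P243.Core

open MeasureTheory Set

namespace Vale.Agent.P243

lemma exists_scale {F G : Type*} [NormedAddCommGroup F] [NormedSpace ℝ F] [FiniteDimensional ℝ F]
    [MeasurableSpace F] [BorelSpace F]
    [NormedAddCommGroup G] [NormedSpace ℝ G] [FiniteDimensional ℝ G] [MeasurableSpace G] [BorelSpace G]
    (μ : Measure F) [μ.IsAddHaarMeasure] (ν : Measure G) [ν.IsAddHaarMeasure] (θ : F ≃L[ℝ] G) :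
    ∃ κ : ENNReal, κ ≠ 0 ∧ κ ≠ ⊤ ∧ ∀ S : Set G, MeasurableSet S → μ (θ ⁻¹' S) = κ * ν S := by
  have : (Measure.map θ μ).IsAddHaarMeasure := θ.isAddHaarMeasure_map μ
  have h := Measure.isAddLeftInvariant_eq_smul (Measure.map θ μ) ν
  have hpos := Measure.addHaarScalarFactor_pos_of_isAddHaarMeasure (Measure.map θ μ) ν
  refine ⟨(Measure.addHaarScalarFactor (Measure.map θ μ) ν : ENNReal), ?_, ENNReal.coe_ne_top, ?_⟩
  · exact_mod_cast hpos.ne'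
  · intro S hS
    have h2 := congrArg (fun m : Measure G => m S) h
    simp only [Measure.map_apply θ.continuous.measurable hS] at h2
    rw [h2]
    rfl


/-- Abstract two-cylinder theorem: `P₁`, `P₂` are linear surjections with one-dimensional kernels
spanned by `v₁`, `v₂`, and `(n, v₁, v₂)` is a coordinate frame of `E`. -/
theorem two_cyl_abstract {E F₁ F₂ : Type*} [NormedAddCommGroup E] [NormedSpace ℝ E]
    [NormedAddCommGroup F₁] [NormedSpace ℝ F₁] [FiniteDimensional ℝ F₁]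
    [MeasurableSpace F₁] [BorelSpace F₁]
    [NormedAddCommGroup F₂] [NormedSpace ℝ F₂] [FiniteDimensional ℝ F₂]
    [MeasurableSpace F₂] [BorelSpace F₂]
    (μ₁ : Measure F₁) [μ₁.IsAddHaarMeasure] (μ₂ : Measure F₂) [μ₂.IsAddHaarMeasure]
    (P₁ : E →L[ℝ] F₁) (P₂ : E →L[ℝ] F₂)
    (hs₁ : Function.Surjective P₁) (hs₂ : Function.Surjective P₂)
    (n v₁ v₂ : E) (Ψ : (ℝ × ℝ × ℝ) ≃L[ℝ] E)
    (hΨ : ∀ z, Ψ z = z.1 • n + z.2.1 • v₁ + z.2.2 • v₂)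
    (hk₁ : ∀ x, P₁ x = 0 ↔ ∃ t : ℝ, x = t • v₁) (hk₂ : ∀ x, P₂ x = 0 ↔ ∃ t : ℝ, x = t • v₂)
    {K : Set E} (hK : Convex ℝ K) (hKc : IsCompact K) (hKi : (interior K).Nonempty)
    {B₁ : Set F₁} {B₂ : Set F₂} (h₁ : MeasurableSet B₁) (h₂ : MeasurableSet B₂)
    (hcov : ∀ x ∈ K, P₁ x ∈ B₁ ∨ P₂ x ∈ B₂) :
    (1 / 2 : ENNReal) ≤ μ₁ B₁ / μ₁ (P₁ '' K) + μ₂ B₂ / μ₂ (P₂ '' K) := by
  have hP₁v : P₁ v₁ = 0 := (hk₁ v₁).2 ⟨1, by simp⟩
  have hP₂v : P₂ v₂ = 0 := (hk₂ v₂).2 ⟨1, by simp⟩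
  -- the two planar charts
  let t₁ : (ℝ × ℝ) →ₗ[ℝ] F₁ :=
    { toFun := fun w => P₁ (Ψ (w.1, 0, w.2))
      map_add' := by
        intro x y
        rw [← map_add, ← map_add]
        simp
      map_smul' := by
        intro r x
        rw [RingHom.id_apply, ← map_smul, ← map_smul]
        simp }
  let t₂ : (ℝ × ℝ) →ₗ[ℝ] F₂ :=
    { toFun := fun w => P₂ (Ψ (w.1, w.2, 0))
      map_add' := by
        intro x y
        rw [← map_add, ← map_add]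
        simp
      map_smul' := by
        intro r x
        rw [RingHom.id_apply, ← map_smul, ← map_smul]
        simp }
  have ht₁ : ∀ z : ℝ × ℝ × ℝ, t₁ (z.1, z.2.2) = P₁ (Ψ z) := by
    intro z
    change P₁ (Ψ (z.1, 0, z.2.2)) = P₁ (Ψ z)
    rw [hΨ, hΨ]
    simp [hP₁v]
  have ht₂ : ∀ z : ℝ × ℝ × ℝ, t₂ (z.1, z.2.1) = P₂ (Ψ z) := by
    intro z
    change P₂ (Ψ (z.1, z.2.1, 0)) = P₂ (Ψ z)
    rw [hΨ, hΨ]
    simp [hP₂v]
  have hinj₁ : Function.Injective t₁ := by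
    rw [← LinearMap.ker_eq_bot, LinearMap.ker_eq_bot']
    intro w hw
    change P₁ (Ψ (w.1, 0, w.2)) = 0 at hw
    obtain ⟨t, ht⟩ := (hk₁ _).1 hw
    have h3 : Ψ (w.1, 0, w.2) = Ψ (0, t, 0) := by
      rw [ht, hΨ]; simp
    have h4 := Ψ.injective h3
    simp only [Prod.mk.injEq] at h4
    exact Prod.ext h4.1 h4.2.2
  have hinj₂ : Function.Injective t₂ := by
    rw [← LinearMap.ker_eq_bot, LinearMap.ker_eq_bot']
    intro w hw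
    change P₂ (Ψ (w.1, w.2, 0)) = 0 at hw
    obtain ⟨t, ht⟩ := (hk₂ _).1 hw
    have h3 : Ψ (w.1, w.2, 0) = Ψ (0, 0, t) := by
      rw [ht, hΨ]; simp
    have h4 := Ψ.injective h3
    simp only [Prod.mk.injEq] at h4
    exact Prod.ext h4.1 h4.2.1
  have hsurj₁ : Function.Surjective t₁ := by
    intro y
    obtain ⟨x, rfl⟩ := hs₁ y
    obtain ⟨z, rfl⟩ := Ψ.surjective x
    exact ⟨_, ht₁ z⟩
  have hsurj₂ : Function.Surjective t₂ := by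
    intro y
    obtain ⟨x, rfl⟩ := hs₂ y
    obtain ⟨z, rfl⟩ := Ψ.surjective x
    exact ⟨_, ht₂ z⟩
  let θ₁ : (ℝ × ℝ) ≃L[ℝ] F₁ := (LinearEquiv.ofBijective t₁ ⟨hinj₁, hsurj₁⟩).toContinuousLinearEquiv
  let θ₂ : (ℝ × ℝ) ≃L[ℝ] F₂ := (LinearEquiv.ofBijective t₂ ⟨hinj₂, hsurj₂⟩).toContinuousLinearEquiv
  have hθ₁ : ∀ z : ℝ × ℝ × ℝ, θ₁ (z.1, z.2.2) = P₁ (Ψ z) := ht₁
  have hθ₂ : ∀ z : ℝ × ℝ × ℝ, θ₂ (z.1, z.2.1) = P₂ (Ψ z) := ht₂
  -- transported body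
  have hK' : Convex ℝ (Ψ ⁻¹' K) := hK.linear_preimage (Ψ : (ℝ × ℝ × ℝ) →ₗ[ℝ] E)
  have hKc' : IsCompact (Ψ ⁻¹' K) := by
    have := Ψ.toHomeomorph.isCompact_preimage (s := K)
    exact this.2 hKc
  have hKi' : (interior (Ψ ⁻¹' K)).Nonempty := by
    have := Ψ.toHomeomorph.preimage_interior K
    obtain ⟨x, hx⟩ := hKi
    refine ⟨Ψ.symm x, ?_⟩
    have h5 : Ψ.symm x ∈ Ψ.toHomeomorph ⁻¹' interior K := by
      change Ψ (Ψ.symm x) ∈ interior K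
      simpa using hx
    rw [this] at h5
    exact h5
  have hsh₁ : (fun z : ℝ × ℝ × ℝ => (z.1, z.2.2)) '' (Ψ ⁻¹' K) = θ₁ ⁻¹' (P₁ '' K) := by
    ext w
    constructor
    · rintro ⟨z, hz, rfl⟩
      exact ⟨Ψ z, hz, (hθ₁ z).symm⟩
    · rintro ⟨x, hx, hxw⟩
      obtain ⟨z, rfl⟩ := Ψ.surjective x
      refine ⟨z, hx, ?_⟩
      apply θ₁.injective
      rw [← hxw]
      exact hθ₁ z
  have hsh₂ : (fun z : ℝ × ℝ × ℝ => (z.1, z.2.1)) '' (Ψ ⁻¹' K) = θ₂ ⁻¹' (P₂ '' K) := by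
    ext w
    constructor
    · rintro ⟨z, hz, rfl⟩
      exact ⟨Ψ z, hz, (hθ₂ z).symm⟩
    · rintro ⟨x, hx, hxw⟩
      obtain ⟨z, rfl⟩ := Ψ.surjective x
      refine ⟨z, hx, ?_⟩
      apply θ₂.injective
      rw [← hxw]
      exact hθ₂ z
  have hmain := core hK' hKc' hKi' (B₁ := θ₁ ⁻¹' B₁) (B₂ := θ₂ ⁻¹' B₂)
    (θ₁.continuous.measurable h₁) (θ₂.continuous.measurable h₂)
    (by
      intro z hz
      rcases hcov (Ψ z) hz with h | h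
      · left
        change θ₁ (z.1, z.2.2) ∈ B₁
        rw [hθ₁]; exact h
      · right
        change θ₂ (z.1, z.2.1) ∈ B₂
        rw [hθ₂]; exact h)
  rw [hsh₁, hsh₂] at hmain
  obtain ⟨κ₁, hκ₁0, hκ₁t, hκ₁⟩ := exists_scale (volume : Measure (ℝ × ℝ)) μ₁ θ₁
  obtain ⟨κ₂, hκ₂0, hκ₂t, hκ₂⟩ := exists_scale (volume : Measure (ℝ × ℝ)) μ₂ θ₂
  rw [hκ₁ _ h₁, hκ₂ _ h₂, hκ₁ _ (hKc.image P₁.continuous).measurableSet,
    hκ₂ _ (hKc.image P₂.continuous).measurableSet,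
    ENNReal.mul_div_mul_left _ _ hκ₁0 hκ₁t, ENNReal.mul_div_mul_left _ _ hκ₂0 hκ₂t] at hmain
  exact hmain

end Vale.Agent.P243
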