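import Mathlib
import Vale.Agent.P243.Transfer

open MeasureTheory Set

namespace Vale.Agent.P243

lemma proj_surj {E : Type*} [NormedAddCommGroup E] [InnerProductSpace ℝ E]
    (S : Submodule ℝ E) [S.HasOrthogonalProjection] :
    Function.Surjective S.orthogonalProjectionOnto := fun y =>
  ⟨y, Submodule.orthogonalProjectionOnto_mem_subspace_eq_self y⟩

lemma proj_ker {E : Type*} [NormedAddCommGroup E] [InnerProductSpace ℝ E] [FiniteDimensional ℝ E]
    (v x : E) :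
    (ℝ ∙ v)ᗮ.orthogonalProjectionOnto x = 0 ↔ ∃ t : ℝ, x = t • v := by
  rw [Submodule.orthogonalProjectionOnto_eq_zero_iff, Submodule.orthogonal_orthogonal,
    Submodule.mem_span_singleton]
  constructor
  · rintro ⟨a, h⟩; exact ⟨a, h.symm⟩
  · rintro ⟨a, h⟩; exact ⟨a, h.symm⟩

variable {E : Type*} [NormedAddCommGroup E] [InnerProductSpace ℝ E] [FiniteDimensional ℝ E]

lemma exists_frame (hE : Module.finrank ℝ E = 3) {v₁ v₂ : E}
    (hli : LinearIndependent ℝ ![v₁, v₂]) :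
    ∃ (n : E) (Ψ : (ℝ × ℝ × ℝ) ≃L[ℝ] E),
      ∀ z, Ψ z = z.1 • n + z.2.1 • v₁ + z.2.2 • v₂ := by
  obtain ⟨n, hn⟩ := exists_linearIndependent_cons_of_lt_finrank hli (by omega)
  let f : (ℝ × ℝ × ℝ) →ₗ[ℝ] E :=
    { toFun := fun z => z.1 • n + z.2.1 • v₁ + z.2.2 • v₂
      map_add' := by
        intro x y
        simp only [Prod.fst_add, Prod.snd_add, add_smul]
        abel
      map_smul' := by
        intro r x
        simp only [Prod.smul_fst, Prod.smul_snd, smul_eq_mul, RingHom.id_apply, smul_add, mul_smul] }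
  have hinj : Function.Injective f := by
    rw [← LinearMap.ker_eq_bot, LinearMap.ker_eq_bot']
    intro z hz
    change z.1 • n + z.2.1 • v₁ + z.2.2 • v₂ = 0 at hz
    rw [Fintype.linearIndependent_iff] at hn
    have h := hn ![z.1, z.2.1, z.2.2] (by
      rw [Fin.sum_univ_three]
      simpa using hz)
    have h0 := h 0
    have h1 := h 1
    have h2 := h 2
    simp at h0 h1 h2
    exact Prod.ext h0 (Prod.ext h1 h2)
  have hdim : Module.finrank ℝ (ℝ × ℝ × ℝ) = Module.finrank ℝ E := by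
    rw [hE]; simp
  exact ⟨n, (LinearMap.linearEquivOfInjective f hinj hdim).toContinuousLinearEquiv, fun z => rfl⟩

theorem two_cyl [MeasurableSpace E] [BorelSpace E] (hE : Module.finrank ℝ E = 3) {K : Set E} (hK : Convex ℝ K) (hKc : IsCompact K)
    (hKi : (interior K).Nonempty) {v₁ v₂ : E}
    (hli : LinearIndependent ℝ ![v₁, v₂])
    {B₁ : Set ((ℝ ∙ v₁)ᗮ : Submodule ℝ E)}
    {B₂ : Set ((ℝ ∙ v₂)ᗮ : Submodule ℝ E)}
    (h₁ : MeasurableSet B₁) (h₂ : MeasurableSet B₂)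
    (hcov : ∀ x ∈ K, (ℝ ∙ v₁)ᗮ.orthogonalProjectionOnto x ∈ B₁ ∨
      (ℝ ∙ v₂)ᗮ.orthogonalProjectionOnto x ∈ B₂) :
    (1 / 2 : ENNReal) ≤ volume B₁ / volume ((ℝ ∙ v₁)ᗮ.orthogonalProjectionOnto '' K) +
      volume B₂ / volume ((ℝ ∙ v₂)ᗮ.orthogonalProjectionOnto '' K) := by
  obtain ⟨n, Ψ, hΨ⟩ := exists_frame hE hli
  exact two_cyl_abstract volume volume _ _ (proj_surj _) (proj_surj _) n v₁ v₂ Ψ hΨ
    (proj_ker v₁) (proj_ker v₂) hK hKc hKi h₁ h₂ hcov

end Vale.Agent.P243
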