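import Mathlib
import Vale.Agent.P243.Euclid

open MeasureTheory Set

namespace Vale.Agent.P243

lemma span_eq_of_mem {E : Type*} [AddCommGroup E] [Module ℝ E] {u w : E} (hu : u ≠ 0)
    (h : u ∈ ℝ ∙ w) : ℝ ∙ u = ℝ ∙ w := by
  obtain ⟨a, rfl⟩ := Submodule.mem_span_singleton.1 h
  have ha : a ≠ 0 := by
    rintro rfl
    simp at hu
  exact Submodule.span_singleton_smul_eq (IsUnit.mk0 a ha) w

variable {E : Type*} [NormedAddCommGroup E] [InnerProductSpace ℝ E] [FiniteDimensional ℝ E]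
  [MeasurableSpace E] [BorelSpace E]

lemma transport_aux (K : Set E)
    {S T : Submodule ℝ E} (h : S = T) (B : Set Sᗮ) :
    ∃ B' : Set Tᗮ, MeasurableSet B' ∧ volume B' = volume B ∧
      volume (Tᗮ.orthogonalProjectionOnto '' K) = volume (Sᗮ.orthogonalProjectionOnto '' K) ∧
      ∀ b ∈ B, ∀ c ∈ S, Tᗮ.orthogonalProjectionOnto ((b : E) + c) ∈ B' := by
  subst h
  refine ⟨toMeasurable volume B, measurableSet_toMeasurable _ _, measure_toMeasurable _, rfl, ?_⟩
  intro b hb c hc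
  have h1 : Sᗮ.orthogonalProjectionOnto c = 0 := by
    apply Submodule.orthogonalProjectionOnto_apply_of_mem_orthogonal
    rw [Submodule.orthogonal_orthogonal]
    exact hc
  rw [map_add, h1, add_zero, Submodule.orthogonalProjectionOnto_mem_subspace_eq_self]
  exact subset_toMeasurable _ _ hb

lemma merge (K : Set E) (w : E) {m : ℕ}
    (u : Fin m → E)
    (B : ∀ i, Set ((ℝ ∙ u i)ᗮ : Submodule ℝ E))
    (I : Finset (Fin m)) (hI : ∀ i ∈ I, ℝ ∙ u i = ℝ ∙ w) :
    ∃ B' : Set ((ℝ ∙ w)ᗮ : Submodule ℝ E), MeasurableSet B' ∧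
      volume B' / volume ((ℝ ∙ w)ᗮ.orthogonalProjectionOnto '' K) ≤
        ∑ i ∈ I, volume (B i) / volume ((ℝ ∙ u i)ᗮ.orthogonalProjectionOnto '' K) ∧
      ∀ i ∈ I, ∀ b ∈ B i, ∀ t : ℝ,
        (ℝ ∙ w)ᗮ.orthogonalProjectionOnto ((b : E) + t • u i) ∈ B' := by
  classical
  induction I using Finset.induction_on with
  | empty =>
    exact ⟨∅, MeasurableSet.empty, by simp, by simp⟩
  | insert j J hj ih =>
    obtain ⟨B₀, hB₀m, hB₀v, hB₀c⟩ := ih (fun i hi => hI i (Finset.mem_insert_of_mem hi))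
    obtain ⟨B₁, hB₁m, hB₁v, hsh, hB₁c⟩ := transport_aux K (hI j (Finset.mem_insert_self j J)) (B j)
    refine ⟨B₁ ∪ B₀, hB₁m.union hB₀m, ?_, ?_⟩
    · rw [Finset.sum_insert hj]
      calc volume (B₁ ∪ B₀) / volume ((ℝ ∙ w)ᗮ.orthogonalProjectionOnto '' K)
          ≤ (volume B₁ + volume B₀) / volume ((ℝ ∙ w)ᗮ.orthogonalProjectionOnto '' K) :=
            ENNReal.div_le_div_right (measure_union_le _ _) _
        _ = volume B₁ / volume ((ℝ ∙ w)ᗮ.orthogonalProjectionOnto '' K) +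
            volume B₀ / volume ((ℝ ∙ w)ᗮ.orthogonalProjectionOnto '' K) := ENNReal.add_div
        _ ≤ _ := by
            refine add_le_add ?_ hB₀v
            rw [hB₁v, hsh]
    · intro i hi b hb t
      rcases Finset.mem_insert.1 hi with rfl | hi
      · left
        exact hB₁c b hb _ (Submodule.smul_mem _ _ (Submodule.mem_span_singleton_self _))
      · right
        exact hB₀c i hi b hb t

theorem family_li (hE : Module.finrank ℝ E = 3) {K : Set E} (hK : Convex ℝ K) (hKc : IsCompact K)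
    (hKi : (interior K).Nonempty) {w₁ w₂ : E}
    (hli : LinearIndependent ℝ ![w₁, w₂]) {m : ℕ}
    (u : Fin m → E) (hu : ∀ i, u i ≠ 0)
    (hdir : ∀ i, u i ∈ ℝ ∙ w₁ ∨ u i ∈ ℝ ∙ w₂)
    (B : ∀ i, Set ((ℝ ∙ u i)ᗮ : Submodule ℝ E))
    (hcov : ∀ x ∈ K, ∃ i, ∃ b ∈ B i, ∃ t : ℝ, x = (b : E) + t • u i) :
    (1 / 2 : ENNReal) ≤
      ∑ i, volume (B i) / volume ((ℝ ∙ u i)ᗮ.orthogonalProjectionOnto '' K) := by
  classical
  obtain ⟨B₁, hB₁m, hB₁v, hB₁c⟩ := merge K w₁ u B (Finset.univ.filter (fun i => u i ∈ ℝ ∙ w₁))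
    (fun i hi => span_eq_of_mem (hu i) (Finset.mem_filter.1 hi).2)
  obtain ⟨B₂, hB₂m, hB₂v, hB₂c⟩ := merge K w₂ u B (Finset.univ.filter (fun i => ¬ u i ∈ ℝ ∙ w₁))
    (fun i hi => span_eq_of_mem (hu i) ((hdir i).resolve_left (Finset.mem_filter.1 hi).2))
  have h := two_cyl hE hK hKc hKi hli hB₁m hB₂m (by
    intro x hx
    obtain ⟨i, b, hb, t, rfl⟩ := hcov x hx
    by_cases hi : u i ∈ ℝ ∙ w₁
    · left
      exact hB₁c i (Finset.mem_filter.2 ⟨Finset.mem_univ _, hi⟩) b hb t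
    · right
      exact hB₂c i (Finset.mem_filter.2 ⟨Finset.mem_univ _, hi⟩) b hb t)
  rw [← Finset.sum_filter_add_sum_filter_not Finset.univ (fun i => u i ∈ ℝ ∙ w₁)]
  exact h.trans (add_le_add hB₁v hB₂v)

theorem family (hE : Module.finrank ℝ E = 3) {K : Set E} (hK : Convex ℝ K) (hKc : IsCompact K)
    (hKi : (interior K).Nonempty) (v₁ v₂ : E) {m : ℕ}
    (u : Fin m → E) (hu : ∀ i, u i ≠ 0)
    (hdir : ∀ i, u i ∈ ℝ ∙ v₁ ∨ u i ∈ ℝ ∙ v₂)
    (B : ∀ i, Set ((ℝ ∙ u i)ᗮ : Submodule ℝ E))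
    (hcov : ∀ x ∈ K, ∃ i, ∃ b ∈ B i, ∃ t : ℝ, x = (b : E) + t • u i) :
    (1 / 2 : ENNReal) ≤
      ∑ i, volume (B i) / volume ((ℝ ∙ u i)ᗮ.orthogonalProjectionOnto '' K) := by
  by_cases hli : LinearIndependent ℝ ![v₁, v₂]
  · exact family_li hE hK hKc hKi hli u hu hdir B hcov
  · -- all axes are parallel to a single line
    obtain ⟨x, hx⟩ := hKi
    obtain ⟨i₀, -, -, -, -⟩ := hcov x (interior_subset hx)
    have hone : ∃ v : E, ∀ i, u i ∈ ℝ ∙ v := by
      rw [LinearIndependent.pair_iff] at hli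
      push Not at hli
      obtain ⟨s, t, hst, hne⟩ := hli
      by_cases hs : s = 0
      · have ht : t ≠ 0 := hne hs
        subst hs
        have hv₂ : v₂ = 0 := by
          simpa [ht] using hst
        refine ⟨v₁, fun i => ?_⟩
        rcases hdir i with h | h
        · exact h
        · rw [hv₂] at h
          simp at h
          exact absurd h (hu i)
      · have hv₁ : v₁ ∈ ℝ ∙ v₂ := by
          rw [Submodule.mem_span_singleton]
          refine ⟨-(t / s), ?_⟩
          have : s • v₁ = -(t • v₂) := eq_neg_of_add_eq_zero_left hst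
          have h2 : v₁ = s⁻¹ • (s • v₁) := by
            rw [smul_smul, inv_mul_cancel₀ hs, one_smul]
          rw [h2, this, smul_neg, smul_smul, neg_smul]
          congr 2
          field_simp
        refine ⟨v₂, fun i => ?_⟩
        rcases hdir i with h | h
        · exact (Submodule.span_singleton_le_iff_mem _ _).2 hv₁ h
        · exact h
    obtain ⟨v, hv⟩ := hone
    have hv0 : v ≠ 0 := by
      rintro rfl
      have := hv i₀
      simp at this
      exact hu i₀ this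
    have hli1 : LinearIndependent ℝ ![v] := by
      have := LinearIndependent.of_subsingleton (R := ℝ) (v := ![v]) 0 (by simpa using hv0)
      exact this
    obtain ⟨w, hw⟩ := exists_linearIndependent_cons_of_lt_finrank hli1 (by omega)
    have hw' : LinearIndependent ℝ ![w, v] := hw
    exact family_li hE hK hKc ⟨x, hx⟩ hw' u hu (fun i => Or.inr (hv i)) B hcov

end Vale.Agent.P243
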