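import Mathlib

open MeasureTheory Set Topology

namespace Vale.Agent.P243

variable {F : Type*} [NormedAddCommGroup F] [NormedSpace ℝ F]

/-- Points of the base over which the vertical chord of `A` has length at least `t`. -/
def lev (A : Set (F × ℝ)) (t : ℝ) : Set F := Prod.fst '' (A ∩ {p | (p.1, p.2 + t) ∈ A})

lemma mem_lev {A : Set (F × ℝ)} {t : ℝ} {y : F} :
    y ∈ lev A t ↔ ∃ z : ℝ, (y, z) ∈ A ∧ (y, z + t) ∈ A := by
  constructor
  · rintro ⟨⟨y', z⟩, ⟨h1, h2⟩, rfl⟩
    exact ⟨z, h1, h2⟩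
  · rintro ⟨z, h1, h2⟩
    exact ⟨(y, z), ⟨h1, h2⟩, rfl⟩

lemma lev_zero (A : Set (F × ℝ)) : lev A 0 = Prod.fst '' A := by
  ext y
  rw [mem_lev]
  constructor
  · rintro ⟨z, h1, _⟩
    exact ⟨(y, z), h1, rfl⟩
  · rintro ⟨⟨y', z⟩, h, rfl⟩
    exact ⟨z, h, by simpa using h⟩

lemma lev_compact {A : Set (F × ℝ)} (hA : IsCompact A) (t : ℝ) : IsCompact (lev A t) := by
  apply IsCompact.image _ continuous_fst
  apply hA.inter_right
  exact hA.isClosed.preimage (by fun_prop : Continuous fun p : F × ℝ => (p.1, p.2 + t))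

lemma seg_mem {A : Set (F × ℝ)} (hA : Convex ℝ A) {y : F} {z z' s : ℝ} (h1 : (y, z) ∈ A)
    (h2 : (y, z') ∈ A) (hs : s ∈ Icc z z') : (y, s) ∈ A := by
  rcases eq_or_lt_of_le (hs.1.trans hs.2) with h | h
  · have : s = z := le_antisymm (by rw [h]; exact hs.2) hs.1
    rw [this]; exact h1
  have hd : 0 < z' - z := sub_pos.2 h
  have := hA h1 h2 (div_nonneg (sub_nonneg.2 hs.2) hd.le) (div_nonneg (sub_nonneg.2 hs.1) hd.le)
    (by field_simp; ring)
  have e : ((z' - s) / (z' - z)) • ((y, z) : F × ℝ) + ((s - z) / (z' - z)) • ((y, z') : F × ℝ)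
      = (y, s) := by
    ext
    · simp only [Prod.fst_add, Prod.smul_fst, ← add_smul]
      have : (z' - s) / (z' - z) + (s - z) / (z' - z) = 1 := by field_simp; ring
      rw [this, one_smul]
    · simp only [Prod.snd_add, Prod.smul_snd, smul_eq_mul]
      field_simp
      ring
  rwa [e] at this

lemma lev_combo {A B C : Set (F × ℝ)} {l : ℝ}
    (hC : ∀ a ∈ A, ∀ b ∈ B, (1 - l) • a + l • b ∈ C) {s t : ℝ} {x y : F}
    (hx : x ∈ lev A s) (hy : y ∈ lev B t) :
    (1 - l) • x + l • y ∈ lev C ((1 - l) * s + l * t) := by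
  obtain ⟨z, h1, h2⟩ := mem_lev.1 hx
  obtain ⟨w, h3, h4⟩ := mem_lev.1 hy
  refine mem_lev.2 ⟨(1 - l) * z + l * w, ?_, ?_⟩
  · have := hC _ h1 _ h3
    simpa using this
  · have := hC _ h2 _ h4
    have e : (1 - l) • ((x, z + s) : F × ℝ) + l • ((y, w + t) : F × ℝ)
        = ((1 - l) • x + l • y, (1 - l) * z + l * w + ((1 - l) * s + l * t)) := by
      ext
      · simp
      · simp only [Prod.snd_add, Prod.smul_snd, smul_eq_mul]
        ring
    rwa [e] at this

lemma lev_convex {A : Set (F × ℝ)} (hA : Convex ℝ A) (t : ℝ) : Convex ℝ (lev A t) := by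
  intro x hx y hy a b ha hb hab
  have ha' : a = 1 - b := by linarith
  have := lev_combo (A := A) (B := A) (C := A) (l := b)
    (fun p hp q hq => hA hp hq (by linarith) hb (by ring)) hx hy
  rw [ha']
  have e : (1 - b) * t + b * t = t := by ring
  rwa [e] at this

lemma lev_anti {A : Set (F × ℝ)} (hA : Convex ℝ A) {s t : ℝ} (hs : 0 ≤ s) (hst : s ≤ t) :
    lev A t ⊆ lev A s := by
  intro y hy
  obtain ⟨z, h1, h2⟩ := mem_lev.1 hy
  exact mem_lev.2 ⟨z, h1, seg_mem hA h1 h2 ⟨by linarith, by linarith⟩⟩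

lemma fibre_compact {A : Set (F × ℝ)} (hA : IsCompact A) (y : F) :
    IsCompact (Prod.mk y ⁻¹' A) := by
  have hcl : IsClosed (Prod.mk y ⁻¹' A) := hA.isClosed.preimage (by fun_prop)
  have hbd : Bornology.IsBounded (Prod.mk y ⁻¹' A) :=
    hA.isBounded.image_snd.subset (fun s hs => ⟨(y, s), hs, rfl⟩)
  exact Metric.isCompact_of_isClosed_isBounded hcl hbd

lemma mem_lev_iff {A : Set (F × ℝ)} (hA : Convex ℝ A) (hAc : IsCompact A) {t : ℝ} (ht : 0 < t)
    (y : F) : y ∈ lev A t ↔ ENNReal.ofReal t ≤ volume (Prod.mk y ⁻¹' A) := by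
  constructor
  · intro hy
    obtain ⟨z, h1, h2⟩ := mem_lev.1 hy
    calc ENNReal.ofReal t = volume (Icc z (z + t)) := by
          rw [Real.volume_Icc]; congr 1; ring
      _ ≤ _ := measure_mono (fun s hs => seg_mem hA h1 h2 hs)
  · intro h
    set S := Prod.mk y ⁻¹' A with hS
    have hSc : IsCompact S := fibre_compact hAc y
    have hne : S.Nonempty := by
      rw [nonempty_iff_ne_empty]
      intro h0
      rw [h0, measure_empty] at h
      exact absurd (ENNReal.ofReal_pos.2 ht) (not_lt.2 h)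
    have ha := hSc.sInf_mem hne
    have hb := hSc.sSup_mem hne
    have hsub : S ⊆ Icc (sInf S) (sSup S) := fun s hs =>
      ⟨csInf_le hSc.bddBelow hs, le_csSup hSc.bddAbove hs⟩
    have h2 : ENNReal.ofReal t ≤ ENNReal.ofReal (sSup S - sInf S) := by
      rw [← Real.volume_Icc]
      exact h.trans (measure_mono hsub)
    have h3 : t ≤ sSup S - sInf S := by
      by_contra hcon
      have hcon := not_le.1 hcon
      exact absurd h2 (not_le.2 ((ENNReal.ofReal_lt_ofReal_iff ht).2 hcon))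
    exact mem_lev.2 ⟨sInf S, ha, seg_mem hA ha hb ⟨by linarith, by linarith⟩⟩

variable [FiniteDimensional ℝ F] [MeasurableSpace F] [BorelSpace F]

/-- Cavalieri and layer cake: the part of `A` over `B` is the integral of the level sets. -/
lemma layer (μ : Measure F) [SFinite μ] {A : Set (F × ℝ)} (hA : Convex ℝ A) (hAc : IsCompact A)
    {B : Set F} (hB : MeasurableSet B) :
    (μ.prod volume) (A ∩ Prod.fst ⁻¹' B) = ∫⁻ t in Ioi (0:ℝ), μ (B ∩ lev A t) := by
  have hAm : MeasurableSet A := hAc.isClosed.measurableSet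
  have hfin : ∀ y : F, volume (Prod.mk y ⁻¹' A) ≠ ⊤ := fun y =>
    (fibre_compact hAc y).measure_lt_top.ne
  set f : F → ℝ := fun y => (volume (Prod.mk y ⁻¹' A)).toReal with hf
  have hfm : Measurable f := (measurable_measure_prodMk_left hAm).ennreal_toReal
  have hf0 : ∀ y, 0 ≤ f y := fun y => ENNReal.toReal_nonneg
  have hlayer := lintegral_eq_lintegral_meas_le (μ.restrict B)
    (Filter.Eventually.of_forall hf0) hfm.aemeasurable
  rw [Measure.prod_apply (hAm.inter (measurable_fst hB))]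
  have e1 : ∀ y, volume (Prod.mk y ⁻¹' (A ∩ Prod.fst ⁻¹' B))
      = B.indicator (fun y => ENNReal.ofReal (f y)) y := by
    intro y
    by_cases hy : y ∈ B
    · rw [indicator_of_mem hy, hf]
      simp only
      rw [ENNReal.ofReal_toReal (hfin y)]
      congr 1
      ext s
      simp [hy]
    · rw [indicator_of_notMem hy]
      have : Prod.mk y ⁻¹' (A ∩ Prod.fst ⁻¹' B) = ∅ := by
        ext s
        simp [hy]
      rw [this, measure_empty]
  simp_rw [e1]
  rw [lintegral_indicator hB, hlayer]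
  apply setLIntegral_congr_fun measurableSet_Ioi
  intro t ht
  have ht : 0 < t := ht
  have e2 : {y | t ≤ f y} = lev A t := by
    ext y
    rw [mem_lev_iff hA hAc ht, ENNReal.ofReal_le_iff_le_toReal (hfin y)]
    rfl
  simp only
  rw [e2, Measure.restrict_apply (lev_compact hAc t).isClosed.measurableSet, inter_comm]

end Vale.Agent.P243
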