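import Mathlib
import Vale.Agent.P243.PhiLev

open MeasureTheory Set Topology

namespace Vale.Agent.P243

/-- One-dimensional Brunn-Minkowski inequality for compact intervals. -/
lemma one_dim {I J S : Set ℝ} (hI : IsCompact I) (hI0 : I.Nonempty)
    (hJ : IsCompact J) (hJ0 : J.Nonempty) (hS : Convex ℝ S) {l : ℝ} (h0 : 0 ≤ l) (h1 : l ≤ 1)
    (hC : ∀ x ∈ I, ∀ y ∈ J, (1 - l) • x + l • y ∈ S) :
    ENNReal.ofReal (1 - l) * volume I + ENNReal.ofReal l * volume J ≤ volume S := by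
  have hIsub : I ⊆ Icc (sInf I) (sSup I) := fun s hs =>
    ⟨csInf_le hI.bddBelow hs, le_csSup hI.bddAbove hs⟩
  have hJsub : J ⊆ Icc (sInf J) (sSup J) := fun s hs =>
    ⟨csInf_le hJ.bddBelow hs, le_csSup hJ.bddAbove hs⟩
  have hIle : sInf I ≤ sSup I := csInf_le hI.bddBelow (hI.sSup_mem hI0)
  have hJle : sInf J ≤ sSup J := csInf_le hJ.bddBelow (hJ.sSup_mem hJ0)
  have p1 := hC _ (hI.sInf_mem hI0) _ (hJ.sInf_mem hJ0)
  have p2 := hC _ (hI.sSup_mem hI0) _ (hJ.sSup_mem hJ0)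
  have hsub : Icc ((1 - l) • sInf I + l • sInf J) ((1 - l) • sSup I + l • sSup J) ⊆ S :=
    hS.ordConnected.out p1 p2
  have h1l : 0 ≤ 1 - l := by linarith
  calc ENNReal.ofReal (1 - l) * volume I + ENNReal.ofReal l * volume J
      ≤ ENNReal.ofReal (1 - l) * volume (Icc (sInf I) (sSup I))
        + ENNReal.ofReal l * volume (Icc (sInf J) (sSup J)) := by
        gcongr
    _ = volume (Icc ((1 - l) • sInf I + l • sInf J) ((1 - l) • sSup I + l • sSup J)) := by
        rw [Real.volume_Icc, Real.volume_Icc, Real.volume_Icc, ← ENNReal.ofReal_mul h1l,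
          ← ENNReal.ofReal_mul h0, ← ENNReal.ofReal_add (mul_nonneg h1l (by linarith))
            (mul_nonneg h0 (by linarith))]
        congr 1
        simp only [smul_eq_mul]
        ring
    _ ≤ volume S := measure_mono hsub

lemma lintegral_scale (g : ℝ → ENNReal) {m : ℝ} (hm : 0 < m) :
    ∫⁻ t in Ioo 0 m, g t = ENNReal.ofReal m * ∫⁻ s in Ioo (0:ℝ) 1, g (m * s) := by
  set G : ℝ → ENNReal := (Ioo 0 m).indicator g with hG
  have e1 : ∫⁻ s in Ioo (0:ℝ) 1, g (m * s) = ∫⁻ s, G (m * s) := by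
    rw [← lintegral_indicator measurableSet_Ioo]
    apply lintegral_congr
    intro s
    by_cases hs : s ∈ Ioo (0:ℝ) 1
    · have : m * s ∈ Ioo 0 m := ⟨mul_pos hm hs.1, by nlinarith [hs.2]⟩
      rw [indicator_of_mem hs, hG, indicator_of_mem this]
    · have : m * s ∉ Ioo 0 m := by
        intro h
        apply hs
        exact ⟨(mul_pos_iff_of_pos_left hm).1 h.1, by nlinarith [h.2]⟩
      rw [indicator_of_notMem hs, hG, indicator_of_notMem this]
  have e2 : ∫⁻ s, G (m * s) = ENNReal.ofReal |m⁻¹| * ∫⁻ t, G t := by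
    have := lintegral_map_equiv (μ := (volume : Measure ℝ)) G (MeasurableEquiv.mulLeft₀ m hm.ne')
    have h2 : Measure.map (MeasurableEquiv.mulLeft₀ m hm.ne') (volume : Measure ℝ)
        = ENNReal.ofReal |m⁻¹| • volume := Real.map_volume_mul_left hm.ne'
    rw [h2, lintegral_smul_measure] at this
    rw [← smul_eq_mul, this]
    rfl
  rw [e1, e2, hG, lintegral_indicator measurableSet_Ioo, ← mul_assoc,
    ← ENNReal.ofReal_mul hm.le, abs_of_pos (inv_pos.2 hm), mul_inv_cancel₀ hm.ne']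
  simp

/-- The length of the longest vertical chord. -/
noncomputable def maxChord (A : Set (ℝ × ℝ)) : ℝ := sSup {t | 0 ≤ t ∧ (lev A t).Nonempty}

section chord

variable {A : Set (ℝ × ℝ)}

lemma chord_bdd (hAc : IsCompact A) : BddAbove {t | 0 ≤ t ∧ (lev A t).Nonempty} := by
  obtain ⟨R, hR⟩ := hAc.isBounded.image_snd.exists_norm_le
  refine ⟨2 * R, ?_⟩
  rintro t ⟨_, y, hy⟩
  obtain ⟨z, h1, h2⟩ := mem_lev.1 hy
  have a1 := hR z ⟨_, h1, rfl⟩
  have a2 := hR (z + t) ⟨_, h2, rfl⟩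
  rw [Real.norm_eq_abs] at a1 a2
  have b1 := abs_le.1 a1
  have b2 := abs_le.1 a2
  linarith [b1.1, b2.2]

lemma zero_mem_chord (hA0 : A.Nonempty) : (0:ℝ) ∈ {t | 0 ≤ t ∧ (lev A t).Nonempty} := by
  refine ⟨le_rfl, ?_⟩
  rw [lev_zero]
  exact hA0.image _

lemma maxChord_nonneg (hAc : IsCompact A) (hA0 : A.Nonempty) : 0 ≤ maxChord A :=
  le_csSup (chord_bdd hAc) (zero_mem_chord hA0)

lemma lev_empty (hAc : IsCompact A) (hA0 : A.Nonempty) {t : ℝ} (ht : maxChord A < t) :
    lev A t = ∅ := by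
  rw [← not_nonempty_iff_eq_empty]
  intro h
  have : t ≤ maxChord A :=
    le_csSup (chord_bdd hAc) ⟨(maxChord_nonneg hAc hA0).trans ht.le, h⟩
  linarith

lemma lev_nonempty (hA : Convex ℝ A) (hA0 : A.Nonempty) {s : ℝ} (hs0 : 0 < s)
    (hs1 : s < 1) : (lev A (maxChord A * s)).Nonempty := by
  by_cases hm : maxChord A ≤ 0
  · by_cases hm0 : maxChord A = 0
    · rw [hm0, zero_mul]
      exact (zero_mem_chord hA0).2
    · -- negative supremum is impossible only with boundedness; treat directly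
      have hneg : maxChord A < 0 := lt_of_le_of_ne hm hm0
      by_cases hb : BddAbove {t | 0 ≤ t ∧ (lev A t).Nonempty}
      · have := le_csSup hb (zero_mem_chord hA0)
        exact absurd this (not_le.2 hneg)
      · have : maxChord A = 0 := Real.sSup_of_not_bddAbove hb
        exact absurd this hm0
  · have hm : 0 < maxChord A := not_le.1 hm
    have hlt : maxChord A * s < maxChord A := by nlinarith
    obtain ⟨t, ⟨_, htn⟩, hlt2⟩ := exists_lt_of_lt_csSup ⟨0, zero_mem_chord hA0⟩ hlt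
    exact htn.mono (lev_anti hA (mul_pos hm hs0).le hlt2.le)

lemma chord_area_eq (hA : Convex ℝ A) (hAc : IsCompact A) :
    volume A = ∫⁻ t in Ioi (0:ℝ), volume (lev A t) := by
  have := layer (volume : Measure ℝ) hA hAc MeasurableSet.univ
  simp only [preimage_univ, inter_univ, univ_inter] at this
  rw [Measure.volume_eq_prod]
  exact this

lemma chord_area_le (hA : Convex ℝ A) (hAc : IsCompact A) (hA0 : A.Nonempty) :
    volume A ≤ ENNReal.ofReal (maxChord A)
      * ∫⁻ s in Ioo (0:ℝ) 1, volume (lev A (maxChord A * s)) := by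
  set m := maxChord A with hm
  have hm0 : 0 ≤ m := maxChord_nonneg hAc hA0
  rw [chord_area_eq hA hAc]
  have hae : ∫⁻ t in Ioi (0:ℝ), volume (lev A t)
      = ∫⁻ t in Ioi (0:ℝ), (Ioo 0 m).indicator (fun t => volume (lev A t)) t := by
    apply lintegral_congr_ae
    have h1 : ∀ᵐ t ∂(volume.restrict (Ioi (0:ℝ))), t ≠ m :=
      ae_restrict_of_ae (Measure.ae_ne volume m)
    have h2 : ∀ᵐ t ∂(volume.restrict (Ioi (0:ℝ))), t ∈ Ioi (0:ℝ) :=
      ae_restrict_mem measurableSet_Ioi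
    filter_upwards [h1, h2] with t ht1 ht2
    by_cases h : t < m
    · have hmem : t ∈ Ioo 0 m := ⟨ht2, h⟩
      rw [indicator_of_mem hmem]
    · have hgt : m < t := lt_of_le_of_ne (not_lt.1 h) (Ne.symm ht1)
      rw [indicator_of_notMem (fun hh => h hh.2), lev_empty hAc hA0 hgt, measure_empty]
  rw [hae, setLIntegral_indicator measurableSet_Ioo]
  rcases eq_or_lt_of_le hm0 with h | h
  · rw [← h]; simp
  · rw [← lintegral_scale (fun t => volume (lev A t)) h]
    exact lintegral_mono_set inter_subset_left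

lemma width_fin (hA : Convex ℝ A) (hAc : IsCompact A) (hA0 : A.Nonempty) :
    ∫⁻ s in Ioo (0:ℝ) 1, volume (lev A (maxChord A * s)) ≠ ⊤ := by
  have hm0 : 0 ≤ maxChord A := maxChord_nonneg hAc hA0
  have h1 : ∫⁻ s in Ioo (0:ℝ) 1, volume (lev A (maxChord A * s))
      ≤ ∫⁻ _s in Ioo (0:ℝ) 1, volume (lev A 0) := by
    apply setLIntegral_mono' measurableSet_Ioo
    intro s hs
    exact measure_mono (lev_anti hA le_rfl (mul_nonneg hm0 hs.1.le))
  rw [setLIntegral_const] at h1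
  have h2 : volume (lev A 0) * volume (Ioo (0:ℝ) 1) ≠ ⊤ :=
    ENNReal.mul_ne_top (lev_compact hAc 0).measure_lt_top.ne (by simp)
  exact (lt_of_le_of_lt h1 (lt_top_iff_ne_top.2 h2)).ne

end chord

lemma cs_ineq {p P q Q l : ℝ} (hp : 0 ≤ p) (hP : 0 ≤ P) (hq : 0 ≤ q) (hQ : 0 ≤ Q) (h0 : 0 ≤ l)
    (h1 : l ≤ 1) :
    (1 - l) * √(p * P) + l * √(q * Q) ≤ √(((1 - l) * p + l * q) * ((1 - l) * P + l * Q)) := by
  have h1l : 0 ≤ 1 - l := by linarith
  apply Real.le_sqrt_of_sq_le
  have a2 : √(p * P) ^ 2 = p * P := Real.sq_sqrt (mul_nonneg hp hP)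
  have b2 : √(q * Q) ^ 2 = q * Q := Real.sq_sqrt (mul_nonneg hq hQ)
  have c2 : √(p * Q) ^ 2 = p * Q := Real.sq_sqrt (mul_nonneg hp hQ)
  have d2 : √(q * P) ^ 2 = q * P := Real.sq_sqrt (mul_nonneg hq hP)
  have e : √(p * P) * √(q * Q) = √(p * Q) * √(q * P) := by
    rw [← Real.sqrt_mul (mul_nonneg hp hP), ← Real.sqrt_mul (mul_nonneg hp hQ)]
    congr 1
    ring
  have f : 2 * (√(p * P) * √(q * Q)) ≤ p * Q + q * P := by
    rw [e]
    nlinarith [sq_nonneg (√(p * Q) - √(q * P))]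
  have g : 0 ≤ l * (1 - l) := mul_nonneg h0 h1l
  calc ((1 - l) * √(p * P) + l * √(q * Q)) ^ 2
      = (1 - l) ^ 2 * √(p * P) ^ 2 + l ^ 2 * √(q * Q) ^ 2
        + l * (1 - l) * (2 * (√(p * P) * √(q * Q))) := by ring
    _ ≤ (1 - l) ^ 2 * (p * P) + l ^ 2 * (q * Q) + l * (1 - l) * (p * Q + q * P) := by
        rw [a2, b2]
        gcongr
    _ = _ := by ring

/-- The Brunn-Minkowski inequality for planar compact convex sets. -/
theorem planar_bm {A B C : Set (ℝ × ℝ)} (hA : Convex ℝ A) (hAc : IsCompact A) (hA0 : A.Nonempty)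
    (hB : Convex ℝ B) (hBc : IsCompact B) (hB0 : B.Nonempty) (hC : Convex ℝ C)
    (hCc : IsCompact C) {l : ℝ} (h0 : 0 ≤ l) (h1 : l ≤ 1)
    (hcomb : ∀ a ∈ A, ∀ b ∈ B, (1 - l) • a + l • b ∈ C) :
    (1 - l) * √(volume A).toReal + l * √(volume B).toReal ≤ √(volume C).toReal := by
  have h1l : 0 ≤ 1 - l := by linarith
  set p := maxChord A with hp
  set q := maxChord B with hq
  set WA := ∫⁻ s in Ioo (0:ℝ) 1, volume (lev A (p * s)) with hWA
  set WB := ∫⁻ s in Ioo (0:ℝ) 1, volume (lev B (q * s)) with hWB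
  have hp0 : 0 ≤ p := maxChord_nonneg hAc hA0
  have hq0 : 0 ≤ q := maxChord_nonneg hBc hB0
  have hWAf : WA ≠ ⊤ := width_fin hA hAc hA0
  have hWBf : WB ≠ ⊤ := width_fin hB hBc hB0
  set m := (1 - l) * p + l * q with hm
  have hm0 : 0 ≤ m := add_nonneg (mul_nonneg h1l hp0) (mul_nonneg h0 hq0)
  have key : ENNReal.ofReal m * (ENNReal.ofReal (1 - l) * WA + ENNReal.ofReal l * WB)
      ≤ volume C := by
    rcases eq_or_lt_of_le hm0 with h | h
    · rw [← h]; simp
    rw [chord_area_eq hC hCc]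
    calc ENNReal.ofReal m * (ENNReal.ofReal (1 - l) * WA + ENNReal.ofReal l * WB)
        ≤ ENNReal.ofReal m * ∫⁻ s in Ioo (0:ℝ) 1, volume (lev C (m * s)) := by
          gcongr
          rw [hWA, hWB, ← lintegral_const_mul' _ _ ENNReal.ofReal_ne_top,
            ← lintegral_const_mul' _ _ ENNReal.ofReal_ne_top]
          refine (le_lintegral_add _ _).trans ?_
          apply setLIntegral_mono' measurableSet_Ioo
          intro s hs
          apply one_dim (lev_compact hAc _) (lev_nonempty hA hA0 hs.1 hs.2) (lev_compact hBc _)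
            (lev_nonempty hB hB0 hs.1 hs.2) (lev_convex hC _) h0 h1
          intro x hx y hy
          have := lev_combo hcomb hx hy
          have e : (1 - l) * (p * s) + l * (q * s) = m * s := by rw [hm]; ring
          rwa [e] at this
      _ = ∫⁻ t in Ioo 0 m, volume (lev C t) :=
          (lintegral_scale (fun t => volume (lev C t)) h).symm
      _ ≤ _ := lintegral_mono_set Ioo_subset_Ioi_self
  have hCf : volume C ≠ ⊤ := hCc.measure_lt_top.ne
  have ha : (volume A).toReal ≤ p * WA.toReal := by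
    have := chord_area_le hA hAc hA0
    have h2 := ENNReal.toReal_mono (ENNReal.mul_ne_top ENNReal.ofReal_ne_top hWAf) this
    rwa [ENNReal.toReal_mul, ENNReal.toReal_ofReal hp0] at h2
  have hb : (volume B).toReal ≤ q * WB.toReal := by
    have := chord_area_le hB hBc hB0
    have h2 := ENNReal.toReal_mono (ENNReal.mul_ne_top ENNReal.ofReal_ne_top hWBf) this
    rwa [ENNReal.toReal_mul, ENNReal.toReal_ofReal hq0] at h2
  have hc : m * ((1 - l) * WA.toReal + l * WB.toReal) ≤ (volume C).toReal := by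
    have h2 := ENNReal.toReal_mono hCf key
    rwa [ENNReal.toReal_mul, ENNReal.toReal_ofReal hm0, ENNReal.toReal_add
      (ENNReal.mul_ne_top ENNReal.ofReal_ne_top hWAf) (ENNReal.mul_ne_top ENNReal.ofReal_ne_top hWBf),
      ENNReal.toReal_mul, ENNReal.toReal_mul, ENNReal.toReal_ofReal h1l,
      ENNReal.toReal_ofReal h0] at h2
  calc (1 - l) * √(volume A).toReal + l * √(volume B).toReal
      ≤ (1 - l) * √(p * WA.toReal) + l * √(q * WB.toReal) := by
        gcongr
    _ ≤ √(((1 - l) * p + l * q) * ((1 - l) * WA.toReal + l * WB.toReal)) :=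
        cs_ineq hp0 ENNReal.toReal_nonneg hq0 ENNReal.toReal_nonneg h0 h1
    _ ≤ √(volume C).toReal := Real.sqrt_le_sqrt hc

end Vale.Agent.P243
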