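import Mathlib
import Vale.Agent.P243.PhiBM

open MeasureTheory Set Topology

namespace Vale.Agent.P243

lemma integral_sq_affine (k a b : ℝ) :
    ∫ t in a..b, (1 - k * t) ^ 2 = (b - a) - k * (b ^ 2 - a ^ 2) + k ^ 2 * (b ^ 3 - a ^ 3) / 3 := by
  have hd : ∀ t ∈ uIcc a b, HasDerivAt
      (fun t : ℝ => t - k * t ^ 2 + k ^ 2 * t ^ 3 / 3) ((1 - k * t) ^ 2) t := by
    intro t _
    have h1 : HasDerivAt (fun t : ℝ => t) 1 t := hasDerivAt_id t
    have h2 : HasDerivAt (fun t : ℝ => k * t ^ 2) (k * (2 * t)) t := by
      have := (hasDerivAt_pow 2 t).const_mul k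
      simpa using this
    have h3 : HasDerivAt (fun t : ℝ => k ^ 2 * t ^ 3 / 3) (k ^ 2 * (3 * t ^ 2) / 3) t := by
      have := ((hasDerivAt_pow 3 t).const_mul (k ^ 2)).div_const 3
      simpa using this
    have h4 := (h1.sub h2).add h3
    have e : (1 - k * (2 * t) + k ^ 2 * (3 * t ^ 2) / 3) = (1 - k * t) ^ 2 := by ring
    rw [e] at h4
    exact h4
  rw [intervalIntegral.integral_eq_sub_of_hasDerivAt hd
    ((by fun_prop : Continuous fun t : ℝ => (1 - k * t) ^ 2).intervalIntegrable _ _)]
  ring

lemma lintegral_sq_affine {c : ℝ} (hc : 0 ≤ c) (k : ℝ) {a b : ℝ} (hab : a ≤ b) :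
    ∫⁻ t in Ioc a b, ENNReal.ofReal (c * (1 - k * t) ^ 2)
      = ENNReal.ofReal (c * ((b - a) - k * (b ^ 2 - a ^ 2) + k ^ 2 * (b ^ 3 - a ^ 3) / 3)) := by
  have hcont : Continuous fun t : ℝ => c * (1 - k * t) ^ 2 := by fun_prop
  rw [← integral_sq_affine, ← intervalIntegral.integral_const_mul,
    intervalIntegral.integral_of_le hab]
  symm
  apply ofReal_integral_eq_lintegral_ofReal
  · exact (hcont.intervalIntegrable a b).1
  · exact Filter.Eventually.of_forall (fun t => mul_nonneg hc (sq_nonneg _))

variable {K : Set ((ℝ × ℝ) × ℝ)}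

lemma bm3 (hK : Convex ℝ K) (hKc : IsCompact K) {z h : ℝ} (hz : 0 ≤ z) (hzh : z ≤ h)
    (hh : 0 < h) (hne : (lev K h).Nonempty) :
    (1 - z / h) * √(volume (lev K 0)).toReal + z / h * √(volume (lev K h)).toReal
      ≤ √(volume (lev K z)).toReal := by
  have hl0 : 0 ≤ z / h := div_nonneg hz hh.le
  have hl1 : z / h ≤ 1 := (div_le_one hh).2 hzh
  apply planar_bm (lev_convex hK 0) (lev_compact hKc 0) (hne.mono (lev_anti hK le_rfl hh.le))
    (lev_convex hK h) (lev_compact hKc h) hne (lev_convex hK z) (lev_compact hKc z) hl0 hl1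
  intro x hx y hy
  have := lev_combo (A := K) (B := K) (C := K) (l := z / h)
    (fun p hp q hq => hK hp hq (by linarith) hl0 (by ring)) hx hy
  have e : (1 - z / h) * 0 + z / h * h = z := by field_simp; ring
  rwa [e] at this

/-- The sharp bound for the volume of the part of a convex body inside one cylinder. -/
theorem core_phi (hK : Convex ℝ K) (hKc : IsCompact K) (hKi : (interior K).Nonempty)
    {B : Set (ℝ × ℝ)} (hB : MeasurableSet B) {s : ℝ} (hs0 : 0 ≤ s) (hs1 : s ≤ 1)
    (hBs : volume (B ∩ Prod.fst '' K) ≤ ENNReal.ofReal (s ^ 2) * volume (Prod.fst '' K)) :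
    volume (K ∩ Prod.fst ⁻¹' B) ≤ ENNReal.ofReal (3 * s ^ 2 - 2 * s ^ 3) * volume K := by
  rcases eq_or_lt_of_le hs1 with h | hs1
  · subst h
    norm_num
    exact measure_mono inter_subset_left
  have hVpos : 0 < volume K :=
    lt_of_lt_of_le (isOpen_interior.measure_pos volume hKi) (measure_mono interior_subset)
  have hVfin : volume K ≠ ⊤ := hKc.measure_lt_top.ne
  have hPpos : 0 < volume (Prod.fst '' K) := by
    have ho : IsOpen (Prod.fst '' interior K) := isOpenMap_fst _ isOpen_interior
    exact lt_of_lt_of_le (ho.measure_pos volume (hKi.image _))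
      (measure_mono (image_mono interior_subset))
  have hPfin : volume (Prod.fst '' K) ≠ ⊤ := (hKc.image continuous_fst).measure_lt_top.ne
  set V := (volume K).toReal with hV
  set a0 := (volume (Prod.fst '' K)).toReal with ha0
  have hV0 : 0 < V := ENNReal.toReal_pos hVpos.ne' hVfin
  have ha00 : 0 < a0 := ENNReal.toReal_pos hPpos.ne' hPfin
  have hVe : volume K = ENNReal.ofReal V := (ENNReal.ofReal_toReal hVfin).symm
  have hPe : volume (Prod.fst '' K) = ENNReal.ofReal a0 := (ENNReal.ofReal_toReal hPfin).symm
  have h1s : 0 < 1 - s := sub_pos.2 hs1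
  set h := 3 * V * (1 - s) / a0 with hh
  have hh0 : 0 < h := by positivity
  have hah : a0 * h = 3 * V * (1 - s) := by rw [hh]; field_simp
  set k := (1 - s) / h with hk
  have hkh : k * h = 1 - s := by rw [hk]; field_simp
  set w : ℝ → ENNReal := fun t => volume (lev K t) with hw
  have hwfin : ∀ t, w t ≠ ⊤ := fun t => (lev_compact hKc t).measure_lt_top.ne
  have hw0 : (w 0).toReal = a0 := by rw [hw, ha0]; simp only; rw [lev_zero]
  have E1 : volume K = ∫⁻ t in Ioi (0:ℝ), w t := by
    have := layer (volume : Measure (ℝ × ℝ)) hK hKc MeasurableSet.univ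
    simp only [preimage_univ, inter_univ, univ_inter] at this
    rw [Measure.volume_eq_prod]
    exact this
  have E2 : volume (K ∩ Prod.fst ⁻¹' B) = ∫⁻ t in Ioi (0:ℝ), volume (B ∩ lev K t) := by
    rw [Measure.volume_eq_prod]
    exact layer (volume : Measure (ℝ × ℝ)) hK hKc hB
  have hsplit : ∀ f : ℝ → ENNReal, ∫⁻ t in Ioi (0:ℝ), f t
      = (∫⁻ t in Ioc 0 h, f t) + ∫⁻ t in Ioi h, f t := by
    intro f
    rw [← Ioc_union_Ioi_eq_Ioi hh0.le, lintegral_union measurableSet_Ioi]
    rw [Set.disjoint_left]
    intro t ht1 ht2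
    exact absurd ht1.2 (not_le.2 ht2)
  set W := ∫⁻ t in Ioc 0 h, w t with hW
  set G := ∫⁻ t in Ioi h, w t with hG
  have E1' : volume K = W + G := by rw [E1, hsplit]
  have E3 : volume (K ∩ Prod.fst ⁻¹' B) ≤ ENNReal.ofReal h * volume (B ∩ Prod.fst '' K) + G := by
    rw [E2, hsplit]
    apply add_le_add
    · calc ∫⁻ t in Ioc 0 h, volume (B ∩ lev K t)
          ≤ ∫⁻ _t in Ioc 0 h, volume (B ∩ Prod.fst '' K) := by
            apply setLIntegral_mono' measurableSet_Ioc
            intro t ht
            apply measure_mono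
            rw [← lev_zero]
            exact inter_subset_inter_right _ (lev_anti hK le_rfl ht.1.le)
        _ = ENNReal.ofReal h * volume (B ∩ Prod.fst '' K) := by
            rw [setLIntegral_const, Real.volume_Ioc, sub_zero, mul_comm]
    · exact lintegral_mono (fun t => measure_mono inter_subset_right)
  have E4 : G ≤ ENNReal.ofReal (s ^ 3 * V) := by
    by_cases hne : (lev K h).Nonempty
    · by_cases hcase : s * √a0 ≤ √(w h).toReal
      · -- lower bound for W
        have hlow : ∀ t ∈ Ioc 0 h, ENNReal.ofReal (a0 * (1 - k * t) ^ 2) ≤ w t := by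
          intro t ht
          have hb := bm3 hK hKc ht.1.le ht.2 hh0 hne
          have hth0 : 0 ≤ t / h := div_nonneg ht.1.le hh0.le
          have hth1 : t / h ≤ 1 := (div_le_one hh0).2 ht.2
          have e1 : k * t = t / h * (1 - s) := by rw [hk]; ring
          have h2 : √a0 * (1 - k * t) ≤ √(w t).toReal := by
            have h3 : (volume (lev K 0)).toReal = a0 := hw0
            rw [h3] at hb
            calc √a0 * (1 - k * t) = (1 - t / h) * √a0 + t / h * (s * √a0) := by rw [e1]; ring
              _ ≤ (1 - t / h) * √a0 + t / h * √(w h).toReal := by gcongr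
              _ ≤ _ := hb
          have h4 : 0 ≤ 1 - k * t := by
            rw [e1]; nlinarith
          have h5 : (√a0 * (1 - k * t)) ^ 2 ≤ (√(w t).toReal) ^ 2 :=
            pow_le_pow_left₀ (mul_nonneg (Real.sqrt_nonneg _) h4) h2 2
          rw [mul_pow, Real.sq_sqrt ha00.le, Real.sq_sqrt ENNReal.toReal_nonneg] at h5
          exact (ENNReal.ofReal_le_iff_le_toReal (hwfin t)).2 h5
        have hWlow : ENNReal.ofReal ((1 - s ^ 3) * V) ≤ W := by
          calc ENNReal.ofReal ((1 - s ^ 3) * V)
              = ∫⁻ t in Ioc 0 h, ENNReal.ofReal (a0 * (1 - k * t) ^ 2) := by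
                rw [lintegral_sq_affine ha00.le k hh0.le]
                congr 1
                have : a0 * (h - 0 - k * (h ^ 2 - 0 ^ 2) + k ^ 2 * (h ^ 3 - 0 ^ 3) / 3)
                    = a0 * h * (1 - k * h + (k * h) ^ 2 / 3) := by ring
                rw [this, hkh, hah]
                ring
            _ ≤ W := setLIntegral_mono' measurableSet_Ioc hlow
        have hs3 : 0 ≤ 1 - s ^ 3 := by
          have : s ^ 3 ≤ 1 := pow_le_one₀ hs0 hs1.le
          linarith
        have hsum : ENNReal.ofReal ((1 - s ^ 3) * V) + G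
            ≤ ENNReal.ofReal ((1 - s ^ 3) * V) + ENNReal.ofReal (s ^ 3 * V) := by
          calc ENNReal.ofReal ((1 - s ^ 3) * V) + G ≤ W + G := by gcongr
            _ = ENNReal.ofReal V := by rw [← E1', hVe]
            _ = _ := by
              rw [← ENNReal.ofReal_add (mul_nonneg hs3 hV0.le) (by positivity)]
              congr 1
              ring
        exact (ENNReal.add_le_add_iff_left ENNReal.ofReal_ne_top).1 hsum
      · -- upper bound for G
        have hcase : √(w h).toReal < s * √a0 := not_le.1 hcase
        have hs_pos : 0 < s := by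
          by_contra hcon
          have : s = 0 := le_antisymm (not_lt.1 hcon) hs0
          rw [this, zero_mul] at hcase
          exact absurd (Real.sqrt_nonneg _) (not_le.2 hcase)
        have hup : ∀ t ∈ Ioi h, (lev K t).Nonempty → √(w t).toReal ≤ √a0 * (1 - k * t) := by
          intro t ht hnt
          have ht : h < t := ht
          have ht0 : 0 < t := hh0.trans ht
          have hb := bm3 hK hKc hh0.le ht.le ht0 hnt
          have h3 : (volume (lev K 0)).toReal = a0 := hw0
          rw [h3] at hb
          have hb2 : (1 - h / t) * √a0 + h / t * √(w t).toReal ≤ s * √a0 := hb.trans hcase.le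
          have e1 : k * t = (1 - s) * t / h := by rw [hk]; ring
          have hb3 : h * √(w t).toReal ≤ (h - (1 - s) * t) * √a0 := by
            have := mul_le_mul_of_nonneg_left hb2 ht0.le
            have e2 : t * ((1 - h / t) * √a0 + h / t * √(w t).toReal)
                = (t - h) * √a0 + h * √(w t).toReal := by field_simp
            rw [e2] at this
            nlinarith
          rw [e1]
          have e3 : √a0 * (1 - (1 - s) * t / h) = (h - (1 - s) * t) * √a0 / h := by
            field_simp
          rw [e3, le_div_iff₀ hh0]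
          linarith
        set T := h / (1 - s) with hT
        have hkT : k * T = 1 := by rw [hk, hT]; field_simp
        have hhT : h ≤ T := by
          rw [hT, le_div_iff₀ h1s]; nlinarith
        have hk0 : 0 < k := by rw [hk]; positivity
        have hsa : 0 < √a0 := Real.sqrt_pos.2 ha00
        have hzero : ∀ t ∈ Ioi T, w t = 0 := by
          intro t ht
          have ht : T < t := ht
          by_cases hnt : (lev K t).Nonempty
          · have h1 := hup t (lt_of_le_of_lt hhT ht) hnt
            have h2 : 1 - k * t < 0 := by nlinarith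
            have h3 : √a0 * (1 - k * t) < 0 := mul_neg_of_pos_of_neg hsa h2
            exact absurd (Real.sqrt_nonneg (w t).toReal) (not_le.2 (lt_of_le_of_lt h1 h3))
          · rw [not_nonempty_iff_eq_empty] at hnt
            simp only [hw]
            rw [hnt, measure_empty]
        have hmid : ∀ t ∈ Ioc h T, w t ≤ ENNReal.ofReal (a0 * (1 - k * t) ^ 2) := by
          intro t ht
          by_cases hnt : (lev K t).Nonempty
          · have h1 := hup t ht.1 hnt
            have h5 : (√(w t).toReal) ^ 2 ≤ (√a0 * (1 - k * t)) ^ 2 :=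
              pow_le_pow_left₀ (Real.sqrt_nonneg _) h1 2
            rw [mul_pow, Real.sq_sqrt ha00.le, Real.sq_sqrt ENNReal.toReal_nonneg] at h5
            exact ENNReal.le_ofReal_iff_toReal_le (hwfin t) (by positivity) |>.2 h5
          · rw [not_nonempty_iff_eq_empty] at hnt
            simp only [hw]
            rw [hnt, measure_empty]
            exact zero_le
        have hsplit2 : G = (∫⁻ t in Ioc h T, w t) + ∫⁻ t in Ioi T, w t := by
          rw [hG, ← Ioc_union_Ioi_eq_Ioi hhT, lintegral_union measurableSet_Ioi]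
          rw [Set.disjoint_left]
          intro t ht1 ht2
          exact absurd ht1.2 (not_le.2 ht2)
        have hz : ∫⁻ t in Ioi T, w t = 0 := by
          rw [setLIntegral_congr_fun measurableSet_Ioi hzero]
          simp
        rw [hsplit2, hz, add_zero]
        calc ∫⁻ t in Ioc h T, w t
            ≤ ∫⁻ t in Ioc h T, ENNReal.ofReal (a0 * (1 - k * t) ^ 2) :=
              setLIntegral_mono' measurableSet_Ioc hmid
          _ = ENNReal.ofReal (s ^ 3 * V) := by
              rw [lintegral_sq_affine ha00.le k hhT]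
              congr 1
              have e5 : a0 * (T - h - k * (T ^ 2 - h ^ 2) + k ^ 2 * (T ^ 3 - h ^ 3) / 3)
                  = a0 * (T * (1 - k * T + (k * T) ^ 2 / 3) - h * (1 - k * h + (k * h) ^ 2 / 3)) := by
                ring
              rw [e5, hkT, hkh]
              have e6 : a0 * T = 3 * V := by
                rw [hT, ← mul_div_assoc, hah]; field_simp
              have e7 : a0 * (T * (1 - 1 + 1 ^ 2 / 3) - h * (1 - (1 - s) + (1 - s) ^ 2 / 3))
                  = a0 * T / 3 - a0 * h * (1 - (1 - s) + (1 - s) ^ 2 / 3) := by ring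
              rw [e7, e6, hah]
              ring
    · have hz : ∀ t ∈ Ioi h, w t = 0 := by
        intro t ht
        have : lev K t = ∅ := by
          rw [← not_nonempty_iff_eq_empty]
          intro hnt
          exact hne (hnt.mono (lev_anti hK hh0.le (le_of_lt ht)))
        simp only [hw]
        rw [this, measure_empty]
      rw [hG, setLIntegral_congr_fun measurableSet_Ioi hz]
      simp
  calc volume (K ∩ Prod.fst ⁻¹' B)
      ≤ ENNReal.ofReal h * volume (B ∩ Prod.fst '' K) + G := E3
    _ ≤ ENNReal.ofReal h * (ENNReal.ofReal (s ^ 2) * ENNReal.ofReal a0)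
        + ENNReal.ofReal (s ^ 3 * V) := by
        rw [← hPe]
        gcongr
    _ = ENNReal.ofReal (3 * s ^ 2 - 2 * s ^ 3) * volume K := by
        have hphi : 0 ≤ 3 * s ^ 2 - 2 * s ^ 3 := by nlinarith [sq_nonneg s]
        rw [hVe, ← ENNReal.ofReal_mul (by positivity), ← ENNReal.ofReal_mul hh0.le,
          ← ENNReal.ofReal_mul hphi, ← ENNReal.ofReal_add (by positivity) (by positivity)]
        congr 1
        have : h * (s ^ 2 * a0) = a0 * h * s ^ 2 := by ring
        rw [this, hah]
        ring

end Vale.Agent.P243
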