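import Mathlib

open MeasureTheory Set

namespace Vale.Agent.P243

/-- Hermite-Hadamard upper bound for a continuous convex function. -/
lemma integral_convex_le {ψ : ℝ → ℝ} (hc : Continuous ψ) (hψ : ConvexOn ℝ univ ψ) {a b : ℝ}
    (hab : a ≤ b) : ∫ s in a..b, ψ s ≤ (b - a) * ((ψ a + ψ b) / 2) := by
  have h1 : ∫ s in a..b, ψ (a + b - s) = ∫ s in a..b, ψ s := by
    rw [intervalIntegral.integral_comp_sub_left (fun s => ψ s) (a + b)]
    congr 1 <;> ring
  have h2 : ∫ s in a..b, (ψ s + ψ (a + b - s)) ≤ ∫ s in a..b, (ψ a + ψ b) := by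
    apply intervalIntegral.integral_mono_on hab
    · exact (hc.add (hc.comp (by fun_prop))).intervalIntegrable _ _
    · exact intervalIntegrable_const
    · intro s hs
      rcases eq_or_lt_of_le hab with h | h
      · subst h
        have : s = a := le_antisymm hs.2 hs.1
        subst this
        simp
      · have hba : 0 < b - a := sub_pos.2 h
        set l := (s - a) / (b - a) with hl
        have hl0 : 0 ≤ l := div_nonneg (sub_nonneg.2 hs.1) hba.le
        have hl1 : l ≤ 1 := (div_le_one hba).2 (by linarith [hs.2])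
        have e1 : s = (1 - l) * a + l * b := by
          rw [hl]; field_simp; ring
        have e2 : a + b - s = l * a + (1 - l) * b := by
          rw [hl]; field_simp; ring
        have c1 := hψ.2 (mem_univ a) (mem_univ b) (sub_nonneg.2 hl1) hl0 (by ring)
        have c2 := hψ.2 (mem_univ a) (mem_univ b) hl0 (sub_nonneg.2 hl1) (by ring)
        simp only [smul_eq_mul] at c1 c2
        rw [← e1] at c1
        rw [← e2] at c2
        nlinarith
  have h3 : ∫ s in a..b, (ψ s + ψ (a + b - s))
      = (∫ s in a..b, ψ s) + ∫ s in a..b, ψ (a + b - s) :=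
    intervalIntegral.integral_add (hc.intervalIntegrable _ _)
      ((hc.comp (by fun_prop : Continuous fun s : ℝ => a + b - s)).intervalIntegrable _ _)
  rw [h3, h1] at h2
  simp only [intervalIntegral.integral_const, smul_eq_mul] at h2
  linarith

/-- Integral of the Jacobian polynomial. -/
lemma integral_jac (r : ℝ) :
    ∫ t in (0:ℝ)..1, ((1 - t) ^ 2 + (1 - t) * t * r) = (2 + r) / 6 := by
  have h : ∀ t : ℝ, (1 - t) ^ 2 + (1 - t) * t * r = 1 - (2 - r) * t + (1 - r) * t ^ 2 := by
    intro t; ring
  simp_rw [h]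
  have hd : ∀ t ∈ uIcc (0:ℝ) 1, HasDerivAt
      (fun t : ℝ => t - (2 - r) * t ^ 2 / 2 + (1 - r) * t ^ 3 / 3)
      (1 - (2 - r) * t + (1 - r) * t ^ 2) t := by
    intro t _
    have h1 : HasDerivAt (fun t : ℝ => t) 1 t := hasDerivAt_id t
    have h2 : HasDerivAt (fun t : ℝ => (2 - r) * t ^ 2 / 2) ((2 - r) * (2 * t) / 2) t := by
      have := ((hasDerivAt_pow 2 t).const_mul (2 - r)).div_const 2
      simpa using this
    have h3 : HasDerivAt (fun t : ℝ => (1 - r) * t ^ 3 / 3) ((1 - r) * (3 * t ^ 2) / 3) t := by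
      have := ((hasDerivAt_pow 3 t).const_mul (1 - r)).div_const 3
      simpa using this
    have h4 := (h1.sub h2).add h3
    have e : (1 - (2 - r) * (2 * t) / 2 + (1 - r) * (3 * t ^ 2) / 3)
        = 1 - (2 - r) * t + (1 - r) * t ^ 2 := by ring
    rw [e] at h4
    exact h4
  rw [intervalIntegral.integral_eq_sub_of_hasDerivAt hd
    ((by fun_prop : Continuous fun t : ℝ => 1 - (2 - r) * t + (1 - r) * t ^ 2).intervalIntegrable _ _)]
  ring

end Vale.Agent.P243
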