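import Mathlib
import Vale.Agent.P243.SymLine

open MeasureTheory Set Topology

namespace Vale.Agent.P243

lemma convexOn_gauge' {W : Type*} [AddCommGroup W] [Module ℝ W] [TopologicalSpace W]
    [ContinuousSMul ℝ W] {K : Set W} (hK : Convex ℝ K) (h0 : K ∈ 𝓝 (0 : W)) :
    ConvexOn ℝ univ (gauge K) := by
  refine ⟨convex_univ, ?_⟩
  intro x _ y _ a b ha hb _
  calc gauge K (a • x + b • y) ≤ gauge K (a • x) + gauge K (b • y) :=
        gauge_add_le hK (absorbent_nhds_zero h0) _ _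
    _ = a • gauge K x + b • gauge K y := by
        rw [gauge_smul_of_nonneg ha, gauge_smul_of_nonneg hb]

variable {K : Set ((ℝ × ℝ) × ℝ)}

lemma mem_iff_gauge (hK : Convex ℝ K) (hKc : IsCompact K) (h0 : K ∈ 𝓝 (0 : (ℝ × ℝ) × ℝ))
    (x : (ℝ × ℝ) × ℝ) : gauge K x ≤ 1 ↔ x ∈ K := by
  rw [gauge_le_one_iff_mem_closure hK h0, hKc.isClosed.closure_eq]

/-- A supporting functional that is constant along the vertical direction. -/
lemma exists_functional (hK : Convex ℝ K) (hKc : IsCompact K) (h0 : K ∈ 𝓝 (0 : (ℝ × ℝ) × ℝ))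
    (hsym : ∀ x ∈ K, -x ∈ K) (w0 : ℝ × ℝ) (r : ℝ) (hr0 : 0 ≤ r)
    (hmin : ∀ s, r ≤ gauge K (w0, s)) :
    ∃ α : (ℝ × ℝ) →ₗ[ℝ] ℝ, r ≤ α w0 ∧ ∀ w s, (w, s) ∈ K → |α w| ≤ 1 := by
  rcases eq_or_lt_of_le hr0 with h | hr
  · refine ⟨0, by simp [← h], ?_⟩
    intro w s _
    simp
  have hcont := continuous_gauge hK h0
  have hS1 : Convex ℝ {x : (ℝ × ℝ) × ℝ | gauge K x < r} := by
    have := (convexOn_gauge' hK h0).convex_lt r
    simpa using this
  have hS2 : IsOpen {x : (ℝ × ℝ) × ℝ | gauge K x < r} := isOpen_lt hcont continuous_const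
  have hT : Convex ℝ (range fun s : ℝ => ((w0, s) : (ℝ × ℝ) × ℝ)) := by
    rintro _ ⟨s, rfl⟩ _ ⟨t, rfl⟩ a b _ _ hab
    refine ⟨a * s + b * t, ?_⟩
    ext
    · simp only [Prod.fst_add, Prod.smul_fst, smul_eq_mul]
      rw [← add_mul, hab, one_mul]
    · simp only [Prod.fst_add, Prod.smul_fst, Prod.snd_add, Prod.smul_snd, smul_eq_mul]
      rw [← add_mul, hab, one_mul]
    · simp
  have hdisj : Disjoint {x : (ℝ × ℝ) × ℝ | gauge K x < r}
      (range fun s : ℝ => ((w0, s) : (ℝ × ℝ) × ℝ)) := by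
    rw [Set.disjoint_left]
    rintro _ hx ⟨s, rfl⟩
    exact absurd hx (not_lt.2 (hmin s))
  obtain ⟨f, c, hf1, hf2⟩ := geometric_hahn_banach_open hS1 hS2 hT hdisj
  have hc : 0 < c := by
    have := hf1 0 (by simpa using hr)
    simpa using this
  have hsplit : ∀ (w : ℝ × ℝ) (s : ℝ), f (w, s) = f (w, 0) + s * f (0, 1) := by
    intro w s
    have : ((w, s) : (ℝ × ℝ) × ℝ) = (w, 0) + s • ((0 : ℝ × ℝ), (1 : ℝ)) := by
      ext <;> simp
    rw [this, map_add, map_smul, smul_eq_mul]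
  have hv : f (0, 1) = 0 := by
    by_contra hd
    have := hf2 (w0, (c - 1 - f (w0, 0)) / f (0, 1)) ⟨_, rfl⟩
    rw [hsplit, div_mul_cancel₀ _ hd] at this
    linarith
  set q := f (w0, 0) with hq
  have hqc : c ≤ q := hf2 (w0, 0) ⟨0, rfl⟩
  have hq0 : 0 < q := lt_of_lt_of_le hc hqc
  have hbound : ∀ x ∈ K, r * f x ≤ q := by
    intro x hx
    by_contra hcon
    push Not at hcon
    have hfx : 0 < f x := by
      by_contra hneg
      push Not at hneg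
      nlinarith
    have hl : q / f x < r := by
      rw [div_lt_iff₀ hfx]; exact hcon
    have hl0 : 0 ≤ q / f x := (div_pos hq0 hfx).le
    have hg : gauge K ((q / f x) • x) < r := by
      rw [gauge_smul_of_nonneg hl0, smul_eq_mul]
      have := (mem_iff_gauge hK hKc h0 x).2 hx
      nlinarith
    have := hf1 _ hg
    rw [map_smul, smul_eq_mul, div_mul_cancel₀ _ hfx.ne'] at this
    linarith
  refine ⟨(r / q) • ((f : ((ℝ × ℝ) × ℝ) →ₗ[ℝ] ℝ).comp (LinearMap.inl ℝ (ℝ × ℝ) ℝ)), ?_, ?_⟩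
  · simp only [LinearMap.smul_apply, LinearMap.comp_apply, LinearMap.inl_apply, smul_eq_mul]
    change r ≤ r / q * f (w0, 0)
    rw [← hq, div_mul_cancel₀ _ hq0.ne']
  · intro w s hws
    simp only [LinearMap.smul_apply, LinearMap.comp_apply, LinearMap.inl_apply, smul_eq_mul]
    change |r / q * f (w, 0)| ≤ 1
    have e1 : f (w, 0) = f (w, s) := by rw [hsplit w s, hv]; ring
    have b1 := hbound _ hws
    have b2 := hbound _ (hsym _ hws)
    rw [map_neg] at b2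
    rw [e1, abs_le]
    constructor
    · rw [div_mul_eq_mul_div, le_div_iff₀ hq0]; linarith
    · rw [div_mul_eq_mul_div, div_le_iff₀ hq0]; linarith

/-- The linear maps used to fill the shadow. -/
noncomputable def fillMap (α : (ℝ × ℝ) →ₗ[ℝ] ℝ) (w0 : ℝ × ℝ) (τ : ℝ) : (ℝ × ℝ) →ₗ[ℝ] (ℝ × ℝ) :=
  τ • LinearMap.id + (1 - τ) • (α.smulRight w0)

lemma fillMap_apply (α : (ℝ × ℝ) →ₗ[ℝ] ℝ) (w0 : ℝ × ℝ) (τ : ℝ) (y : ℝ × ℝ) :
    fillMap α w0 τ y = τ • y + ((1 - τ) * α y) • w0 := by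
  simp [fillMap, smul_smul]

lemma det_fillMap (α : (ℝ × ℝ) →ₗ[ℝ] ℝ) (w0 : ℝ × ℝ) (τ : ℝ) :
    LinearMap.det (fillMap α w0 τ) = τ ^ 2 + τ * (1 - τ) * α w0 := by
  rw [← LinearMap.det_toMatrix (Module.Basis.finTwoProd ℝ), Matrix.det_fin_two]
  have hw : α w0 = w0.1 * α (1, 0) + w0.2 * α (0, 1) := by
    have : w0 = w0.1 • ((1 : ℝ), (0 : ℝ)) + w0.2 • ((0 : ℝ), (1 : ℝ)) := by
      ext <;> simp
    conv_lhs => rw [this]
    rw [map_add, map_smul, map_smul]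
    rfl
  simp only [LinearMap.toMatrix_apply, Module.Basis.coe_finTwoProd_repr, fillMap_apply,
    Module.Basis.finTwoProd_zero, Module.Basis.finTwoProd_one]
  simp
  rw [hw]
  ring

lemma fibre_len (hK : Convex ℝ K) (hsym : ∀ x ∈ K, -x ∈ K) {w0 : ℝ × ℝ} {s0 s1 : ℝ}
    (hI : ∀ s ∈ Icc s0 s1, ((w0, s) : (ℝ × ℝ) × ℝ) ∈ K)
    {α : (ℝ × ℝ) →ₗ[ℝ] ℝ} (hα : ∀ w s, ((w, s) : (ℝ × ℝ) × ℝ) ∈ K → |α w| ≤ 1)
    {y : ℝ × ℝ} {σ : ℝ} (hy : ((y, σ) : (ℝ × ℝ) × ℝ) ∈ K) {τ : ℝ} (hτ0 : 0 ≤ τ) (hτ1 : τ ≤ 1) :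
    ENNReal.ofReal ((1 - τ) * (s1 - s0)) ≤ volume (Prod.mk (fillMap α w0 τ y) ⁻¹' K) := by
  rcases eq_or_lt_of_le hτ1 with h | hlt
  · subst h; simp
  have h1τ : 0 < 1 - τ := sub_pos.2 hlt
  set l := α y with hl
  have hl2 := abs_le.1 (hα y σ hy)
  set c0 := (1 + l) / 2 * s0 - (1 - l) / 2 * s1 with hc0
  have hsub : Icc (τ * σ + (1 - τ) * c0) (τ * σ + (1 - τ) * (c0 + (s1 - s0)))
      ⊆ Prod.mk (fillMap α w0 τ y) ⁻¹' K := by
    intro s hs
    set c := (s - τ * σ) / (1 - τ) with hc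
    have hsc : s = τ * σ + (1 - τ) * c := by rw [hc]; field_simp; ring
    have hc1 : c0 ≤ c := by
      rw [hc, le_div_iff₀ h1τ]; linarith [hs.1]
    have hc2 : c ≤ c0 + (s1 - s0) := by
      rw [hc, div_le_iff₀ h1τ]; linarith [hs.2]
    have p1 : ((w0, s0 + (c - c0)) : (ℝ × ℝ) × ℝ) ∈ K := hI _ ⟨by linarith, by linarith⟩
    have p2 : -((w0, s1 - (c - c0)) : (ℝ × ℝ) × ℝ) ∈ K := hsym _ (hI _ ⟨by linarith, by linarith⟩)
    have m := hK p1 p2 (by linarith : (0:ℝ) ≤ (1 + l) / 2) (by linarith : (0:ℝ) ≤ (1 - l) / 2)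
      (by ring)
    have fin := hK hy m hτ0 h1τ.le (by ring)
    have e : τ • ((y, σ) : (ℝ × ℝ) × ℝ) + (1 - τ) • (((1 + l) / 2) • ((w0, s0 + (c - c0)) : (ℝ × ℝ) × ℝ)
        + ((1 - l) / 2) • -((w0, s1 - (c - c0)) : (ℝ × ℝ) × ℝ)) = (fillMap α w0 τ y, s) := by
      rw [fillMap_apply, ← hl]
      ext
      · simp only [Prod.fst_add, Prod.smul_fst, Prod.fst_neg, smul_eq_mul]
        ring
      · simp only [Prod.fst_add, Prod.smul_fst, Prod.fst_neg, Prod.snd_add, Prod.smul_snd,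
          Prod.snd_neg, smul_eq_mul]
        ring
      · simp only [Prod.snd_add, Prod.smul_snd, Prod.snd_neg, smul_eq_mul]
        rw [hsc, hc0]
        ring
    rw [e] at fin
    exact fin
  calc ENNReal.ofReal ((1 - τ) * (s1 - s0))
      = volume (Icc (τ * σ + (1 - τ) * c0) (τ * σ + (1 - τ) * (c0 + (s1 - s0)))) := by
        rw [Real.volume_Icc]; congr 1; ring
    _ ≤ _ := measure_mono hsub

lemma volume_bound (hK : Convex ℝ K) (hKc : IsCompact K) (hsym : ∀ x ∈ K, -x ∈ K)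
    {w0 : ℝ × ℝ} {s0 s1 : ℝ} (h01 : s0 < s1)
    (hI : ∀ s ∈ Icc s0 s1, ((w0, s) : (ℝ × ℝ) × ℝ) ∈ K)
    {α : (ℝ × ℝ) →ₗ[ℝ] ℝ} (hα : ∀ w s, ((w, s) : (ℝ × ℝ) × ℝ) ∈ K → |α w| ≤ 1)
    {r : ℝ} (hr0 : 0 ≤ r) (hr : r ≤ α w0) :
    ENNReal.ofReal ((s1 - s0) * ((2 + r) / 6)) * volume (Prod.fst '' K) ≤ volume K := by
  have hγ : 0 < s1 - s0 := sub_pos.2 h01
  have hKm : MeasurableSet K := hKc.isClosed.measurableSet
  have hfin : ∀ w : ℝ × ℝ, volume (Prod.mk w ⁻¹' K) ≠ ⊤ := by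
    intro w
    have hcl : IsClosed (Prod.mk w ⁻¹' K) := hKc.isClosed.preimage (by fun_prop)
    have hbd : Bornology.IsBounded (Prod.mk w ⁻¹' K) := by
      have hb := hKc.isBounded.image_snd
      exact hb.subset (fun s hs => ⟨(w, s), hs, rfl⟩)
    exact (Metric.isCompact_of_isClosed_isBounded hcl hbd).measure_lt_top.ne
  set f : ℝ × ℝ → ℝ := fun w => (volume (Prod.mk w ⁻¹' K)).toReal / (s1 - s0) with hf
  have hfm : Measurable f := ((measurable_measure_prodMk_left hKm).ennreal_toReal).div_const _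
  have hf0 : ∀ w, 0 ≤ f w := fun w => div_nonneg ENNReal.toReal_nonneg hγ.le
  have hvol : volume K = ENNReal.ofReal (s1 - s0) * ∫⁻ w, ENNReal.ofReal (f w) := by
    rw [Measure.volume_eq_prod, Measure.prod_apply hKm, ← lintegral_const_mul _ hfm.ennreal_ofReal]
    apply lintegral_congr
    intro w
    rw [← ENNReal.ofReal_mul hγ.le, hf]
    simp only
    rw [mul_div_cancel₀ _ hγ.ne', ENNReal.ofReal_toReal (hfin w)]
  have hlayer := lintegral_eq_lintegral_meas_le (volume : Measure (ℝ × ℝ))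
    (Filter.Eventually.of_forall hf0) hfm.aemeasurable
  have hlow : ∀ t ∈ Ioc (0:ℝ) 1, ENNReal.ofReal ((1 - t) ^ 2 + (1 - t) * t * r)
      * volume (Prod.fst '' K) ≤ volume {w | t ≤ f w} := by
    intro t ht
    have hτ0 : 0 ≤ 1 - t := by linarith [ht.2]
    have hτ1 : 1 - t ≤ 1 := by linarith [ht.1]
    have hsub : (fillMap α w0 (1 - t)) '' (Prod.fst '' K) ⊆ {w | t ≤ f w} := by
      rintro _ ⟨y, ⟨⟨y', σ⟩, hy, rfl⟩, rfl⟩
      have := fibre_len hK hsym hI hα hy hτ0 hτ1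
      simp only [mem_setOf_eq, hf]
      rw [le_div_iff₀ hγ]
      have h2 := (ENNReal.ofReal_le_iff_le_toReal (hfin _)).1 this
      linarith
    calc ENNReal.ofReal ((1 - t) ^ 2 + (1 - t) * t * r) * volume (Prod.fst '' K)
        ≤ ENNReal.ofReal |LinearMap.det (fillMap α w0 (1 - t))| * volume (Prod.fst '' K) := by
          gcongr
          rw [det_fillMap]
          refine le_trans ?_ (le_abs_self _)
          have : (1 - t) * t * r ≤ (1 - t) * t * α w0 :=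
            mul_le_mul_of_nonneg_left hr (mul_nonneg hτ0 ht.1.le)
          nlinarith
      _ = volume ((fillMap α w0 (1 - t)) '' (Prod.fst '' K)) :=
          (Measure.addHaar_image_linearMap _ _ _).symm
      _ ≤ _ := measure_mono hsub
  have hpoly : Continuous fun t : ℝ => (1 - t) ^ 2 + (1 - t) * t * r := by fun_prop
  have hint : ENNReal.ofReal ((2 + r) / 6)
      = ∫⁻ t in Ioc (0:ℝ) 1, ENNReal.ofReal ((1 - t) ^ 2 + (1 - t) * t * r) := by
    rw [← integral_jac r, intervalIntegral.integral_of_le zero_le_one]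
    apply ofReal_integral_eq_lintegral_ofReal
    · exact (hpoly.intervalIntegrable 0 1).1
    · rw [Filter.EventuallyLE, ae_restrict_iff' measurableSet_Ioc]
      refine Filter.Eventually.of_forall ?_
      intro t ht
      have h1 : 0 ≤ 1 - t := by linarith [ht.2]
      have := mul_nonneg (mul_nonneg h1 ht.1.le) hr0
      simp only [Pi.zero_apply]
      positivity
  rw [hvol, hlayer, ENNReal.ofReal_mul hγ.le, mul_assoc]
  gcongr
  rw [hint, ← lintegral_mul_const _ hpoly.measurable.ennreal_ofReal]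
  calc ∫⁻ t in Ioc (0:ℝ) 1, ENNReal.ofReal ((1 - t) ^ 2 + (1 - t) * t * r) * volume (Prod.fst '' K)
      ≤ ∫⁻ t in Ioc (0:ℝ) 1, volume {w | t ≤ f w} :=
        setLIntegral_mono' measurableSet_Ioc hlow
    _ ≤ ∫⁻ t in Ioi (0:ℝ), volume {w | t ≤ f w} :=
        lintegral_mono_set Ioc_subset_Ioi_self

end Vale.Agent.P243
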