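import Mathlib
import Vale.Agent.P243.SymCore

open MeasureTheory Set Topology

namespace Vale.Agent.P243

variable {K : Set ((ℝ × ℝ) × ℝ)}

/-- The weight `1 + 2‖z‖_K`. -/
noncomputable def weight {W : Type*} [AddCommGroup W] [Module ℝ W] (K : Set W) (z : W) : ENNReal :=
  ENNReal.ofReal (1 + 2 * gauge K z)

lemma pair_combo (w0 : ℝ × ℝ) (s t a b : ℝ) (hab : a + b = 1) :
    ((w0, a * s + b * t) : (ℝ × ℝ) × ℝ) = a • (w0, s) + b • (w0, t) := by
  ext
  · simp only [Prod.fst_add, Prod.smul_fst, smul_eq_mul]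
    rw [← add_mul, hab, one_mul]
  · simp only [Prod.fst_add, Prod.smul_fst, Prod.snd_add, Prod.smul_snd, smul_eq_mul]
    rw [← add_mul, hab, one_mul]
  · simp

lemma pointwise (hK : Convex ℝ K) (hKc : IsCompact K) (h0 : K ∈ 𝓝 (0 : (ℝ × ℝ) × ℝ))
    (hsym : ∀ x ∈ K, -x ∈ K) (w0 : ℝ × ℝ) :
    (∫⁻ s, K.indicator (weight K) (w0, s)) * volume (Prod.fst '' K) ≤ 6 * volume K := by
  by_cases hne : (Prod.mk w0 ⁻¹' K).Nonempty
  swap
  · have : ∀ s, K.indicator (weight K) (w0, s) = 0 := by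
      intro s
      apply indicator_of_notMem
      intro hs
      exact hne ⟨s, hs⟩
    simp [this]
  have hcl : IsClosed (Prod.mk w0 ⁻¹' K) := hKc.isClosed.preimage (by fun_prop)
  have hbd : Bornology.IsBounded (Prod.mk w0 ⁻¹' K) :=
    hKc.isBounded.image_snd.subset (fun s hs => ⟨(w0, s), hs, rfl⟩)
  have hIc : IsCompact (Prod.mk w0 ⁻¹' K) := Metric.isCompact_of_isClosed_isBounded hcl hbd
  obtain ⟨s0, hs0, hs0l⟩ := hIc.exists_isLeast hne
  obtain ⟨s1, hs1, hs1g⟩ := hIc.exists_isGreatest hne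
  have hconv : Convex ℝ (Prod.mk w0 ⁻¹' K) := by
    intro s hs t ht a b ha hb hab
    have := hK hs ht ha hb hab
    rw [← pair_combo w0 s t a b hab] at this
    exact this
  have hI : ∀ s ∈ Icc s0 s1, ((w0, s) : (ℝ × ℝ) × ℝ) ∈ K := fun s hs =>
    hconv.ordConnected.out hs0 hs1 hs
  have hI' : ∀ s, ((w0, s) : (ℝ × ℝ) × ℝ) ∈ K → s ∈ Icc s0 s1 := fun s hs => ⟨hs0l hs, hs1g hs⟩
  have h01 : s0 ≤ s1 := hs0l hs1
  set ψ : ℝ → ℝ := fun s => gauge K (w0, s) with hψ
  have hψc : Continuous ψ := (continuous_gauge hK h0).comp (by fun_prop)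
  have hψconv : ConvexOn ℝ univ ψ := by
    refine ⟨convex_univ, ?_⟩
    intro s _ t _ a b ha hb hab
    have := (convexOn_gauge' hK h0).2 (mem_univ ((w0, s) : (ℝ × ℝ) × ℝ))
      (mem_univ ((w0, t) : (ℝ × ℝ) × ℝ)) ha hb hab
    rw [← pair_combo w0 s t a b hab] at this
    exact this
  have hrew : (∫⁻ s, K.indicator (weight K) (w0, s))
      = ∫⁻ s in Icc s0 s1, ENNReal.ofReal (1 + 2 * ψ s) := by
    rw [← lintegral_indicator measurableSet_Icc]
    apply lintegral_congr
    intro s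
    by_cases hs : s ∈ Icc s0 s1
    · rw [indicator_of_mem hs, indicator_of_mem (hI s hs)]
      rfl
    · rw [indicator_of_notMem hs, indicator_of_notMem (fun h => hs (hI' s h))]
  rcases eq_or_lt_of_le h01 with heq | hlt
  · rw [hrew, ← heq]
    simp
  obtain ⟨sm, hsm, hmin⟩ := isCompact_Icc.exists_isMinOn (nonempty_Icc.2 h01) hψc.continuousOn
  set r := ψ sm with hr
  have hr0 : 0 ≤ r := gauge_nonneg _
  have hle1 : ∀ s ∈ Icc s0 s1, ψ s ≤ 1 := fun s hs => (mem_iff_gauge hK hKc h0 _).2 (hI s hs)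
  have hminall : ∀ s, r ≤ gauge K (w0, s) := by
    intro s
    by_cases hs : s ∈ Icc s0 s1
    · exact hmin hs
    · have h1 : ¬ gauge K (w0, s) ≤ 1 := fun h => hs (hI' s ((mem_iff_gauge hK hKc h0 _).1 h))
      have h2 := hle1 sm hsm
      linarith [not_le.1 h1]
  obtain ⟨α, hα1, hα2⟩ := exists_functional hK hKc h0 hsym w0 r hr0 hminall
  have hvb := volume_bound hK hKc hsym hlt hI hα2 hr0 hα1
  have hchord : ∫ s in s0..s1, (1 + 2 * ψ s) ≤ (s1 - s0) * (2 + r) := by
    have i1 := integral_convex_le hψc hψconv hsm.1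
    have i2 := integral_convex_le hψc hψconv hsm.2
    have hadd := intervalIntegral.integral_add_adjacent_intervals (μ := volume)
      (hψc.intervalIntegrable s0 sm) (hψc.intervalIntegrable sm s1)
    have e : ∫ s in s0..s1, (1 + 2 * ψ s) = (s1 - s0) + 2 * ∫ s in s0..s1, ψ s := by
      have e1 : ∫ s in s0..s1, (1 + 2 * ψ s)
          = (∫ _s in s0..s1, (1 : ℝ)) + ∫ s in s0..s1, 2 * ψ s :=
        intervalIntegral.integral_add intervalIntegrable_const
          ((by fun_prop : Continuous fun s => 2 * ψ s).intervalIntegrable _ _)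
      rw [e1, intervalIntegral.integral_const_mul]
      simp
    rw [e, ← hadd]
    have a0 := hle1 s0 (left_mem_Icc.2 h01)
    have a1 := hle1 s1 (right_mem_Icc.2 h01)
    have b0 : (sm - s0) * ((ψ s0 + ψ sm) / 2) ≤ (sm - s0) * ((1 + r) / 2) :=
      mul_le_mul_of_nonneg_left (by linarith) (sub_nonneg.2 hsm.1)
    have b1 : (s1 - sm) * ((ψ sm + ψ s1) / 2) ≤ (s1 - sm) * ((1 + r) / 2) :=
      mul_le_mul_of_nonneg_left (by linarith) (sub_nonneg.2 hsm.2)
    nlinarith
  have hlint : ∫⁻ s in Icc s0 s1, ENNReal.ofReal (1 + 2 * ψ s)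
      = ENNReal.ofReal (∫ s in s0..s1, (1 + 2 * ψ s)) := by
    rw [intervalIntegral.integral_of_le h01, ← integral_Icc_eq_integral_Ioc]
    symm
    apply ofReal_integral_eq_lintegral_ofReal
    · exact ((by fun_prop : Continuous fun s => 1 + 2 * ψ s).continuousOn).integrableOn_Icc
    · refine Filter.Eventually.of_forall ?_
      intro s
      have : 0 ≤ ψ s := gauge_nonneg _
      simp only [Pi.zero_apply]
      positivity
  rw [hrew, hlint]
  calc ENNReal.ofReal (∫ s in s0..s1, (1 + 2 * ψ s)) * volume (Prod.fst '' K)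
      ≤ ENNReal.ofReal ((s1 - s0) * (2 + r)) * volume (Prod.fst '' K) := by
        gcongr
    _ = 6 * (ENNReal.ofReal ((s1 - s0) * ((2 + r) / 6)) * volume (Prod.fst '' K)) := by
        rw [← mul_assoc]
        congr 1
        have : (6 : ENNReal) = ENNReal.ofReal 6 := by simp
        rw [this, ← ENNReal.ofReal_mul (by norm_num)]
        congr 1
        ring
    _ ≤ 6 * volume K := by gcongr

lemma measurable_weight (hK : Convex ℝ K) (h0 : K ∈ 𝓝 (0 : (ℝ × ℝ) × ℝ)) :
    Measurable (weight K) :=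
  ((continuous_const.add (continuous_const.mul (continuous_gauge hK h0))).measurable).ennreal_ofReal

lemma core_sym (hK : Convex ℝ K) (hKc : IsCompact K) (h0 : K ∈ 𝓝 (0 : (ℝ × ℝ) × ℝ))
    (hsym : ∀ x ∈ K, -x ∈ K) {B : Set (ℝ × ℝ)} (hB : MeasurableSet B) :
    ∫⁻ z in K ∩ (Prod.fst ⁻¹' B), weight K z
      ≤ volume B * (6 * volume K / volume (Prod.fst '' K)) := by
  have hKm : MeasurableSet K := hKc.isClosed.measurableSet
  have hP0 : volume (Prod.fst '' K) ≠ 0 := by
    have : Prod.fst '' K ∈ 𝓝 (0 : ℝ × ℝ) := isOpenMap_fst.image_mem_nhds h0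
    exact (Measure.measure_pos_of_mem_nhds volume this).ne'
  have hPt : volume (Prod.fst '' K) ≠ ⊤ := (hKc.image continuous_fst).measure_lt_top.ne
  have hAm : MeasurableSet (K ∩ (Prod.fst ⁻¹' B)) := hKm.inter (measurable_fst hB)
  rw [← lintegral_indicator hAm, Measure.volume_eq_prod,
    lintegral_prod _ ((measurable_weight hK h0).indicator hAm).aemeasurable]
  have hin : ∀ w, (∫⁻ s, (K ∩ (Prod.fst ⁻¹' B)).indicator (weight K) (w, s))
      ≤ B.indicator (fun _ => 6 * volume K / volume (Prod.fst '' K)) w := by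
    intro w
    by_cases hw : w ∈ B
    · rw [indicator_of_mem hw, ENNReal.le_div_iff_mul_le (Or.inl hP0) (Or.inl hPt)]
      refine le_trans ?_ (pointwise hK hKc h0 hsym w)
      gcongr with s
      exact inter_subset_left
    · have : ∀ s, (K ∩ (Prod.fst ⁻¹' B)).indicator (weight K) (w, s) = 0 := by
        intro s
        apply indicator_of_notMem
        intro hs
        exact hw hs.2
      simp [this]
  calc ∫⁻ w, ∫⁻ s, (K ∩ (Prod.fst ⁻¹' B)).indicator (weight K) (w, s)
      ≤ ∫⁻ w, B.indicator (fun _ => 6 * volume K / volume (Prod.fst '' K)) w := lintegral_mono hin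
    _ = volume B * (6 * volume K / volume (Prod.fst '' K)) := by
        rw [lintegral_indicator hB, setLIntegral_const, mul_comm]

end Vale.Agent.P243
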