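import Mathlib
import Vale.Agent.P243.SymPoint

open MeasureTheory Set Topology Pointwise

namespace Vale.Agent.P243

lemma integral_one_sub_cube : ∫ t in (0:ℝ)..1, (1 - t ^ 3) = 3 / 4 := by
  have e1 : ∫ t in (0:ℝ)..1, (1 - t ^ 3)
      = (∫ _t in (0:ℝ)..1, (1 : ℝ)) - ∫ t in (0:ℝ)..1, t ^ 3 :=
    intervalIntegral.integral_sub intervalIntegrable_const
      ((by fun_prop : Continuous fun t : ℝ => t ^ 3).intervalIntegrable _ _)
  rw [e1, integral_pow]
  norm_num

variable {W : Type*} [NormedAddCommGroup W] [NormedSpace ℝ W] [FiniteDimensional ℝ W]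
  [MeasurableSpace W] [BorelSpace W]

/-- Total mass of the weight `1 + 2‖z‖_K` on `K` in dimension three. -/
lemma mass (μ : Measure W) [μ.IsAddHaarMeasure] (hW : Module.finrank ℝ W = 3) {K : Set W}
    (hK : Convex ℝ K) (hKc : IsCompact K) (h0 : K ∈ 𝓝 (0 : W)) :
    5 * μ K ≤ 2 * ∫⁻ z in K, weight K z ∂μ := by
  have hKm : MeasurableSet K := hKc.isClosed.measurableSet
  have hfin : μ K ≠ ⊤ := hKc.measure_lt_top.ne
  have hg : Continuous (gauge K) := continuous_gauge hK h0
  have hlayer := lintegral_eq_lintegral_meas_le (μ.restrict K) (f := gauge K)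
    (Filter.Eventually.of_forall (fun x => gauge_nonneg x)) hg.measurable.aemeasurable
  have hlow : ∀ t ∈ Ioc (0:ℝ) 1, ENNReal.ofReal (1 - t ^ 3) * μ K
      ≤ (μ.restrict K) {x | t ≤ gauge K x} := by
    intro t ht
    have hm : MeasurableSet {x | t ≤ gauge K x} := measurableSet_le measurable_const hg.measurable
    rw [Measure.restrict_apply hm]
    have hsub : K ⊆ ({x | t ≤ gauge K x} ∩ K) ∪ t • K := by
      intro x hx
      by_cases h : t ≤ gauge K x
      · exact Or.inl ⟨h, hx⟩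
      · right
        rw [mem_smul_set_iff_inv_smul_mem₀ ht.1.ne']
        have h1 : gauge K (t⁻¹ • x) ≤ 1 := by
          rw [gauge_smul_of_nonneg (inv_nonneg.2 ht.1.le), smul_eq_mul, inv_mul_le_iff₀ ht.1]
          linarith [not_le.1 h]
        have := (gauge_le_one_iff_mem_closure hK h0).1 h1
        rwa [hKc.isClosed.closure_eq] at this
    have h1 : μ K ≤ μ ({x | t ≤ gauge K x} ∩ K) + ENNReal.ofReal (t ^ 3) * μ K := by
      calc μ K ≤ μ (({x | t ≤ gauge K x} ∩ K) ∪ t • K) := measure_mono hsub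
        _ ≤ μ ({x | t ≤ gauge K x} ∩ K) + μ (t • K) := measure_union_le _ _
        _ = _ := by
          rw [Measure.addHaar_smul, hW, abs_of_nonneg (pow_nonneg ht.1.le 3)]
    have ht3 : t ^ 3 ≤ 1 := pow_le_one₀ ht.1.le ht.2
    have h2 : μ K = ENNReal.ofReal (1 - t ^ 3) * μ K + ENNReal.ofReal (t ^ 3) * μ K := by
      rw [← add_mul, ← ENNReal.ofReal_add (by linarith) (pow_nonneg ht.1.le 3)]
      simp
    have h3 : ENNReal.ofReal (1 - t ^ 3) * μ K + ENNReal.ofReal (t ^ 3) * μ K
        ≤ μ ({x | t ≤ gauge K x} ∩ K) + ENNReal.ofReal (t ^ 3) * μ K := h2 ▸ h1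
    exact (ENNReal.add_le_add_iff_right (ENNReal.mul_ne_top ENNReal.ofReal_ne_top hfin)).1 h3
  have hpoly : Continuous fun t : ℝ => 1 - t ^ 3 := by fun_prop
  have hint : ENNReal.ofReal (3 / 4) = ∫⁻ t in Ioc (0:ℝ) 1, ENNReal.ofReal (1 - t ^ 3) := by
    rw [← integral_one_sub_cube, intervalIntegral.integral_of_le zero_le_one]
    apply ofReal_integral_eq_lintegral_ofReal
    · exact (hpoly.intervalIntegrable 0 1).1
    · rw [Filter.EventuallyLE, ae_restrict_iff' measurableSet_Ioc]
      refine Filter.Eventually.of_forall ?_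
      intro t ht
      have : t ^ 3 ≤ 1 := pow_le_one₀ ht.1.le ht.2
      simp only [Pi.zero_apply]
      linarith
  have hgl : ENNReal.ofReal (3 / 4) * μ K ≤ ∫⁻ z in K, ENNReal.ofReal (gauge K z) ∂μ := by
    rw [hlayer, hint, ← lintegral_mul_const _ hpoly.measurable.ennreal_ofReal]
    calc ∫⁻ t in Ioc (0:ℝ) 1, ENNReal.ofReal (1 - t ^ 3) * μ K
        ≤ ∫⁻ t in Ioc (0:ℝ) 1, (μ.restrict K) {x | t ≤ gauge K x} :=
          setLIntegral_mono' measurableSet_Ioc hlow
      _ ≤ _ := lintegral_mono_set Ioc_subset_Ioi_self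
  have hw : ∀ z, weight K z = 1 + 2 * ENNReal.ofReal (gauge K z) := by
    intro z
    unfold weight
    rw [ENNReal.ofReal_add zero_le_one (mul_nonneg zero_le_two (gauge_nonneg z)),
      ENNReal.ofReal_mul zero_le_two]
    simp
  have hI : ∫⁻ z in K, weight K z ∂μ = μ K + 2 * ∫⁻ z in K, ENNReal.ofReal (gauge K z) ∂μ := by
    simp_rw [hw]
    rw [lintegral_add_left measurable_const, lintegral_const_mul _ hg.measurable.ennreal_ofReal]
    simp
  rw [hI]
  calc 5 * μ K = 2 * (μ K + 2 * (ENNReal.ofReal (3 / 4) * μ K)) := by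
        have e : (5 : ENNReal) = 2 * (1 + 2 * ENNReal.ofReal (3 / 4)) := by
          have h2 : (2 : ENNReal) = ENNReal.ofReal 2 := by simp
          have h1 : (1 : ENNReal) = ENNReal.ofReal 1 := by simp
          have h5 : (5 : ENNReal) = ENNReal.ofReal 5 := by simp
          rw [h2, h1, h5, ← ENNReal.ofReal_mul (by norm_num), ← ENNReal.ofReal_add (by norm_num)
            (by norm_num), ← ENNReal.ofReal_mul (by norm_num)]
          norm_num
        rw [e]
        ring
    _ ≤ _ := by gcongr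

end Vale.Agent.P243
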