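import Mathlib
import Vale.Agent.P243.SymMass
import Vale.Agent.P243.Euclid
import Vale.Agent.P243.Defs

open MeasureTheory Set Topology Pointwise

namespace Vale.Agent.P243

lemma exists_map_scale {F G : Type*} [NormedAddCommGroup F] [NormedSpace ℝ F] [FiniteDimensional ℝ F]
    [MeasurableSpace F] [BorelSpace F]
    [NormedAddCommGroup G] [NormedSpace ℝ G] [FiniteDimensional ℝ G] [MeasurableSpace G] [BorelSpace G]
    (μ : Measure F) [μ.IsAddHaarMeasure] (ν : Measure G) [ν.IsAddHaarMeasure] (θ : F ≃L[ℝ] G) :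
    ∃ κ : ENNReal, κ ≠ 0 ∧ κ ≠ ⊤ ∧ Measure.map θ μ = κ • ν := by
  have : (Measure.map θ μ).IsAddHaarMeasure := θ.isAddHaarMeasure_map μ
  have h := Measure.isAddLeftInvariant_eq_smul (Measure.map θ μ) ν
  have hpos := Measure.addHaarScalarFactor_pos_of_isAddHaarMeasure (Measure.map θ μ) ν
  refine ⟨(Measure.addHaarScalarFactor (Measure.map θ μ) ν : ENNReal), ?_, ENNReal.coe_ne_top, ?_⟩
  · exact_mod_cast hpos.ne'
  · exact h.trans rfl

lemma haar3 : (volume : Measure ((ℝ × ℝ) × ℝ)).IsAddHaarMeasure := by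
  rw [Measure.volume_eq_prod]
  infer_instance

lemma gauge_preimage {F G : Type*} [AddCommGroup F] [Module ℝ F] [AddCommGroup G] [Module ℝ G]
    (Ψ : F ≃ₗ[ℝ] G) (K : Set G) (z : F) : gauge (Ψ ⁻¹' K) z = gauge K (Ψ z) := by
  unfold gauge
  congr 1
  ext r
  simp only [Set.mem_ofPred_eq]
  constructor
  · rintro ⟨hr, h⟩
    refine ⟨hr, ?_⟩
    rw [mem_smul_set_iff_inv_smul_mem₀ hr.ne'] at h ⊢
    have : Ψ (r⁻¹ • z) ∈ K := h
    rwa [map_smul] at this
  · rintro ⟨hr, h⟩
    refine ⟨hr, ?_⟩
    rw [mem_smul_set_iff_inv_smul_mem₀ hr.ne'] at h ⊢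
    change Ψ (r⁻¹ • z) ∈ K
    rwa [map_smul]

variable {E : Type*} [NormedAddCommGroup E] [InnerProductSpace ℝ E] [FiniteDimensional ℝ E]

lemma mem_cylinder_iff (u : E) (B : Set (plane u)) (x : E) :
    x ∈ cylinder u B ↔ (plane u).orthogonalProjectionOnto x ∈ B := by
  have hu : (plane u).orthogonalProjectionOnto u = 0 := (proj_ker u u).2 ⟨1, by simp⟩
  constructor
  · rintro ⟨b, hb, t, rfl⟩
    rw [map_add, map_smul, hu, smul_zero, add_zero,
      Submodule.orthogonalProjectionOnto_mem_subspace_eq_self]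
    exact hb
  · intro h
    have h2 : (plane u).orthogonalProjectionOnto
        (x - ((plane u).orthogonalProjectionOnto x : E)) = 0 := by
      rw [map_sub, Submodule.orthogonalProjectionOnto_mem_subspace_eq_self, sub_self]
    obtain ⟨t, ht⟩ := (proj_ker u _).1 h2
    exact ⟨_, h, t, by rw [← ht]; abel⟩

lemma exists_sym_chart (hE : Module.finrank ℝ E = 3) {u : E} (hu : u ≠ 0) :
    ∃ (θ : (ℝ × ℝ) ≃L[ℝ] plane u) (Ψ : ((ℝ × ℝ) × ℝ) ≃L[ℝ] E),
      ∀ z, (plane u).orthogonalProjectionOnto (Ψ z) = θ z.1 := by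
  have : Fact (Module.finrank ℝ E = 2 + 1) := ⟨hE⟩
  have hF : Module.finrank ℝ (plane u) = 2 := Submodule.finrank_orthogonal_span_singleton hu
  let θ : (ℝ × ℝ) ≃L[ℝ] plane u := ContinuousLinearEquiv.ofFinrankEq (by rw [hF]; simp)
  have hpu : (plane u).orthogonalProjectionOnto u = 0 := (proj_ker u u).2 ⟨1, by simp⟩
  let f : ((ℝ × ℝ) × ℝ) →ₗ[ℝ] E :=
    { toFun := fun z => (θ z.1 : E) + z.2 • u
      map_add' := by
        intro x y
        simp only [Prod.fst_add, Prod.snd_add, add_smul, map_add, Submodule.coe_add]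
        abel
      map_smul' := by
        intro r x
        simp only [Prod.smul_fst, Prod.smul_snd, smul_eq_mul, RingHom.id_apply, smul_add, mul_smul,
          map_smul, Submodule.coe_smul] }
  have hproj : ∀ z, (plane u).orthogonalProjectionOnto (f z) = θ z.1 := by
    intro z
    change (plane u).orthogonalProjectionOnto ((θ z.1 : E) + z.2 • u) = θ z.1
    rw [map_add, map_smul, hpu, smul_zero, add_zero,
      Submodule.orthogonalProjectionOnto_mem_subspace_eq_self]
  have hinj : Function.Injective f := by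
    rw [← LinearMap.ker_eq_bot, LinearMap.ker_eq_bot']
    intro z hz
    have h1 : θ z.1 = 0 := by rw [← hproj z, hz, map_zero]
    have h2 : z.1 = 0 := by simpa using h1
    have h3 : (θ z.1 : E) + z.2 • u = 0 := hz
    rw [h1] at h3
    simp only [Submodule.coe_zero, zero_add, smul_eq_zero] at h3
    rcases h3 with h3 | h3
    · exact Prod.ext h2 h3
    · exact absurd h3 hu
  have hdim : Module.finrank ℝ ((ℝ × ℝ) × ℝ) = Module.finrank ℝ E := by
    rw [hE]; simp
  exact ⟨θ, (LinearMap.linearEquivOfInjective f hinj hdim).toContinuousLinearEquiv, hproj⟩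

variable [MeasurableSpace E] [BorelSpace E]

/-- The weighted mass of the part of `K` inside one cylinder. -/
theorem sym_cyl (hE : Module.finrank ℝ E = 3) {K : Set E} (hK : Convex ℝ K) (hKc : IsCompact K)
    (h0 : K ∈ 𝓝 (0 : E)) (hsym : ∀ x ∈ K, -x ∈ K) {u : E} (hu : u ≠ 0) {B : Set (plane u)}
    (hB : MeasurableSet B) :
    ∫⁻ z in K ∩ cylinder u B, weight K z ≤ area B * (6 * volume K / area (shadow K u)) := by
  obtain ⟨θ, Ψ, hΨ⟩ := exists_sym_chart hE hu
  have := haar3
  obtain ⟨c, hc0, hct, hc⟩ := exists_map_scale (volume : Measure ((ℝ × ℝ) × ℝ))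
    (volume : Measure E) Ψ
  obtain ⟨d, hd0, hdt, hd⟩ := exists_map_scale (volume : Measure (ℝ × ℝ))
    (volume : Measure (plane u)) θ
  set K' : Set ((ℝ × ℝ) × ℝ) := Ψ ⁻¹' K with hK'
  have hK'c : Convex ℝ K' := hK.linear_preimage (Ψ : ((ℝ × ℝ) × ℝ) →ₗ[ℝ] E)
  have hK'k : IsCompact K' := (Ψ.toHomeomorph.isCompact_preimage (s := K)).2 hKc
  have hK'0 : K' ∈ 𝓝 (0 : (ℝ × ℝ) × ℝ) := by
    apply Ψ.continuous.continuousAt.preimage_mem_nhds
    rw [map_zero]; exact h0
  have hK's : ∀ x ∈ K', -x ∈ K' := by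
    intro x hx
    change Ψ (-x) ∈ K
    rw [map_neg]
    exact hsym _ hx
  have hKm : MeasurableSet K := hKc.isClosed.measurableSet
  have hcylm : MeasurableSet (cylinder u B) := by
    have : cylinder u B = (plane u).orthogonalProjectionOnto ⁻¹' B := by
      ext x; exact mem_cylinder_iff u B x
    rw [this]
    exact (plane u).orthogonalProjectionOnto.continuous.measurable hB
  have hw : Measurable (weight K) :=
    ((continuous_const.add (continuous_const.mul (continuous_gauge hK h0))).measurable).ennreal_ofReal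
  have hwK : ∀ z, weight K (Ψ z) = weight K' z := by
    intro z
    have hg : gauge (Ψ ⁻¹' K) z = gauge K (Ψ z) := gauge_preimage Ψ.toLinearEquiv K z
    unfold weight
    rw [hK', hg]
  -- integral transfer
  have hI : c * ∫⁻ z in K ∩ cylinder u B, weight K z
      = ∫⁻ z in K' ∩ (Prod.fst ⁻¹' (θ ⁻¹' B)), weight K' z := by
    have hAm : MeasurableSet (K ∩ cylinder u B) := hKm.inter hcylm
    have h1 : ∫⁻ x, (K ∩ cylinder u B).indicator (weight K) x ∂(Measure.map Ψ volume)
        = ∫⁻ z, (K ∩ cylinder u B).indicator (weight K) (Ψ z) :=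
      lintegral_map (hw.indicator hAm) Ψ.continuous.measurable
    rw [hc, lintegral_smul_measure, lintegral_indicator hAm, smul_eq_mul] at h1
    rw [h1]
    have hA'm : MeasurableSet (K' ∩ (Prod.fst ⁻¹' (θ ⁻¹' B))) :=
      hK'k.isClosed.measurableSet.inter (measurable_fst (θ.continuous.measurable hB))
    rw [← lintegral_indicator hA'm]
    apply lintegral_congr
    intro z
    by_cases hz : z ∈ K' ∩ (Prod.fst ⁻¹' (θ ⁻¹' B))
    · have hz2 : Ψ z ∈ K ∩ cylinder u B := by
        refine ⟨hz.1, (mem_cylinder_iff u B _).2 ?_⟩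
        rw [hΨ]; exact hz.2
      rw [indicator_of_mem hz, indicator_of_mem hz2, hwK]
    · have hz2 : Ψ z ∉ K ∩ cylinder u B := by
        intro h
        apply hz
        refine ⟨h.1, ?_⟩
        have := (mem_cylinder_iff u B _).1 h.2
        rw [hΨ] at this
        exact this
      rw [indicator_of_notMem hz, indicator_of_notMem hz2]
  have hV : c * volume K = volume K' := by
    have := congrArg (fun m : Measure E => m K) hc
    simp only [Measure.map_apply Ψ.continuous.measurable hKm, Measure.smul_apply, smul_eq_mul] at this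
    exact this.symm
  have hBv : d * area B = volume (θ ⁻¹' B) := by
    have := congrArg (fun m : Measure (plane u) => m B) hd
    simp only [Measure.map_apply θ.continuous.measurable hB, Measure.smul_apply, smul_eq_mul] at this
    exact this.symm
  have hshm : MeasurableSet (shadow K u) :=
    (hKc.image (plane u).orthogonalProjectionOnto.continuous).isClosed.measurableSet
  have hSv : d * area (shadow K u) = volume (Prod.fst '' K') := by
    have := congrArg (fun m : Measure (plane u) => m (shadow K u)) hd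
    simp only [Measure.map_apply θ.continuous.measurable hshm, Measure.smul_apply, smul_eq_mul] at this
    have e : θ ⁻¹' shadow K u = Prod.fst '' K' := by
      ext w
      constructor
      · rintro ⟨x, hx, hxw⟩
        refine ⟨Ψ.symm x, by simpa [hK'] using hx, ?_⟩
        apply θ.injective
        rw [← hΨ, ← hxw]
        simp
      · rintro ⟨z, hz, rfl⟩
        exact ⟨Ψ z, hz, hΨ z⟩
    rw [e] at this
    exact this.symm
  have hmain := core_sym hK'c hK'k hK'0 hK's (θ.continuous.measurable hB)
  rw [← hI, ← hV, ← hBv, ← hSv] at hmain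
  have e2 : d * area B * (6 * (c * volume K) / (d * area (shadow K u)))
      = c * (area B * (6 * volume K / area (shadow K u))) := by
    have e3 : 6 * (c * volume K) / (d * area (shadow K u))
        = c * (6 * volume K / area (shadow K u)) * d⁻¹ := by
      rw [ENNReal.div_eq_inv_mul, ENNReal.div_eq_inv_mul,
        ENNReal.mul_inv (Or.inl hd0) (Or.inl hdt)]
      ring
    rw [e3]
    calc d * area B * (c * (6 * volume K / area (shadow K u)) * d⁻¹)
        = (d * d⁻¹) * (c * (area B * (6 * volume K / area (shadow K u)))) := by ring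
      _ = _ := by rw [ENNReal.mul_inv_cancel hd0 hdt, one_mul]
  rw [e2] at hmain
  exact (ENNReal.mul_le_mul_iff_right hc0 hct).1 hmain

end Vale.Agent.P243
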