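import Mathlib
import Vale.Agent.P243.PhiCore
import Vale.Agent.P243.SymTransfer

open MeasureTheory Set Topology Pointwise

namespace Vale.Agent.P243

variable {E : Type*} [NormedAddCommGroup E] [InnerProductSpace ℝ E] [FiniteDimensional ℝ E]
  [MeasurableSpace E] [BorelSpace E]

/-- The volume of the part of `K` inside one cylinder of relative base area at most `s ^ 2`. -/
theorem phi_cyl (hE : Module.finrank ℝ E = 3) {K : Set E} (hK : Convex ℝ K) (hKc : IsCompact K)
    (hKi : (interior K).Nonempty) {u : E} (hu : u ≠ 0) {B : Set (plane u)}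
    (hB : MeasurableSet B) {s : ℝ} (hs0 : 0 ≤ s) (hs1 : s ≤ 1)
    (hBs : area (B ∩ shadow K u) ≤ ENNReal.ofReal (s ^ 2) * area (shadow K u)) :
    volume (K ∩ cylinder u B) ≤ ENNReal.ofReal (3 * s ^ 2 - 2 * s ^ 3) * volume K := by
  obtain ⟨θ, Ψ, hΨ⟩ := exists_sym_chart hE hu
  have := haar3
  obtain ⟨c, hc0, hct, hc⟩ := exists_map_scale (volume : Measure ((ℝ × ℝ) × ℝ))
    (volume : Measure E) Ψ
  obtain ⟨d, hd0, hdt, hd⟩ := exists_map_scale (volume : Measure (ℝ × ℝ))
    (volume : Measure (plane u)) θ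
  set K' : Set ((ℝ × ℝ) × ℝ) := Ψ ⁻¹' K with hK'
  have hK'c : Convex ℝ K' := hK.linear_preimage (Ψ : ((ℝ × ℝ) × ℝ) →ₗ[ℝ] E)
  have hK'k : IsCompact K' := (Ψ.toHomeomorph.isCompact_preimage (s := K)).2 hKc
  have hK'i : (interior K').Nonempty := by
    have e : interior K' = Ψ ⁻¹' interior K := (Ψ.toHomeomorph.preimage_interior K).symm
    rw [e]
    obtain ⟨x, hx⟩ := hKi
    exact ⟨Ψ.symm x, by simpa using hx⟩
  have hKm : MeasurableSet K := hKc.isClosed.measurableSet
  have hcyl : cylinder u B = (plane u).orthogonalProjectionOnto ⁻¹' B := by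
    ext x; exact mem_cylinder_iff u B x
  have hcylm : MeasurableSet (cylinder u B) := by
    rw [hcyl]
    exact (plane u).orthogonalProjectionOnto.continuous.measurable hB
  have hscaleE : ∀ X : Set E, MeasurableSet X → c * volume X = volume (Ψ ⁻¹' X) := by
    intro X hX
    have := congrArg (fun m : Measure E => m X) hc
    simp only [Measure.map_apply Ψ.continuous.measurable hX, Measure.smul_apply, smul_eq_mul] at this
    exact this.symm
  have hscaleP : ∀ X : Set (plane u), MeasurableSet X → d * area X = volume (θ ⁻¹' X) := by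
    intro X hX
    have := congrArg (fun m : Measure (plane u) => m X) hd
    simp only [Measure.map_apply θ.continuous.measurable hX, Measure.smul_apply, smul_eq_mul] at this
    exact this.symm
  have hshm : MeasurableSet (shadow K u) :=
    (hKc.image (plane u).orthogonalProjectionOnto.continuous).isClosed.measurableSet
  have esh : θ ⁻¹' shadow K u = Prod.fst '' K' := by
    ext w
    constructor
    · rintro ⟨x, hx, hxw⟩
      refine ⟨Ψ.symm x, by simpa [hK'] using hx, ?_⟩
      apply θ.injective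
      rw [← hΨ, ← hxw]
      simp
    · rintro ⟨z, hz, rfl⟩
      exact ⟨Ψ z, hz, hΨ z⟩
  have ecyl : Ψ ⁻¹' (K ∩ cylinder u B) = K' ∩ Prod.fst ⁻¹' (θ ⁻¹' B) := by
    ext z
    simp only [mem_preimage, mem_inter_iff, hK', mem_cylinder_iff, hΨ]
  have hyp : volume ((θ ⁻¹' B) ∩ Prod.fst '' K')
      ≤ ENNReal.ofReal (s ^ 2) * volume (Prod.fst '' K') := by
    rw [← esh, ← preimage_inter, ← hscaleP _ (hB.inter hshm), ← hscaleP _ hshm]
    calc d * area (B ∩ shadow K u) ≤ d * (ENNReal.ofReal (s ^ 2) * area (shadow K u)) := by gcongr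
      _ = _ := by ring
  have hmain := core_phi hK'c hK'k hK'i (θ.continuous.measurable hB) hs0 hs1 hyp
  rw [← ecyl, ← hscaleE _ (hKm.inter hcylm), hK', ← hscaleE _ hKm] at hmain
  have e2 : ENNReal.ofReal (3 * s ^ 2 - 2 * s ^ 3) * (c * volume K)
      = c * (ENNReal.ofReal (3 * s ^ 2 - 2 * s ^ 3) * volume K) := by ring
  rw [e2] at hmain
  exact (ENNReal.mul_le_mul_iff_right hc0 hct).1 hmain

end Vale.Agent.P243
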