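import Mathlib
import Vale.Agent.P243.SymTransfer

open MeasureTheory Set Topology Pointwise

namespace Vale.Agent.P243

variable {E : Type*} [NormedAddCommGroup E] [InnerProductSpace ℝ E] [FiniteDimensional ℝ E]

omit [FiniteDimensional ℝ E] in
lemma nhds_zero_of_sym {K : Set E} (hK : Convex ℝ K) (hKi : (interior K).Nonempty)
    (hsym : ∀ x ∈ K, -x ∈ K) : K ∈ 𝓝 (0 : E) := by
  obtain ⟨x, hx⟩ := hKi
  have hKneg : (Homeomorph.neg E) ⁻¹' K = K := by
    ext y
    constructor
    · intro hy
      have := hsym _ hy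
      simpa using this
    · intro hy
      exact hsym _ hy
  have hneg : -x ∈ interior K := by
    have h1 : -x ∈ (Homeomorph.neg E) ⁻¹' (interior K) := by
      change - -x ∈ interior K
      rwa [neg_neg]
    rw [(Homeomorph.neg E).preimage_interior, hKneg] at h1
    exact h1
  have h0 : (0 : E) ∈ interior K := by
    have := hK.interior hx hneg (by norm_num : (0:ℝ) ≤ 1/2) (by norm_num : (0:ℝ) ≤ 1/2)
      (by norm_num)
    simpa using this
  exact mem_interior_iff_mem_nhds.1 h0

omit [FiniteDimensional ℝ E] in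
lemma cylinder_mono (u : E) {B B' : Set (plane u)} (h : B ⊆ B') : cylinder u B ⊆ cylinder u B' := by
  rintro x ⟨b, hb, t, rfl⟩
  exact ⟨b, h hb, t, rfl⟩

variable [MeasurableSpace E] [BorelSpace E]

theorem sym_origin (hE : Module.finrank ℝ E = 3) {K : Set E} (hK : Convex ℝ K) (hKc : IsCompact K)
    (hKi : (interior K).Nonempty) (hsym : ∀ x ∈ K, -x ∈ K) {m : ℕ} (u : Fin m → E)
    (hu : ∀ i, u i ≠ 0) (B : ∀ i, Set (plane (u i)))
    (hcov : K ⊆ ⋃ i, cylinder (u i) (B i)) :
    (5 / 12 : ENNReal) ≤ ∑ i, area (B i) / area (shadow K (u i)) := by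
  have h0 := nhds_zero_of_sym hK hKi hsym
  set B' : ∀ i, Set (plane (u i)) := fun i => toMeasurable (lebesgue (plane (u i))) (B i) with hB'
  have hB'm : ∀ i, MeasurableSet (B' i) := fun i => measurableSet_toMeasurable _ _
  have hB'a : ∀ i, area (B' i) = area (B i) := fun i => measure_toMeasurable _
  have hB's : ∀ i, B i ⊆ B' i := fun i => subset_toMeasurable _ _
  have hV0 : volume K ≠ 0 :=
    (lt_of_lt_of_le (isOpen_interior.measure_pos volume hKi) (measure_mono interior_subset)).ne'
  have hVt : volume K ≠ ⊤ := hKc.measure_lt_top.ne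
  have hmass := mass (volume : Measure E) hE hK hKc h0
  have hsub : K ⊆ ⋃ i, K ∩ cylinder (u i) (B' i) := by
    intro x hx
    obtain ⟨i, hi⟩ := mem_iUnion.1 (hcov hx)
    exact mem_iUnion.2 ⟨i, hx, cylinder_mono _ (hB's i) hi⟩
  have hI : ∫⁻ z in K, weight K z
      ≤ 6 * volume K * ∑ i, area (B i) / area (shadow K (u i)) := by
    calc ∫⁻ z in K, weight K z ≤ ∫⁻ z in ⋃ i, K ∩ cylinder (u i) (B' i), weight K z :=
          lintegral_mono_set hsub
      _ ≤ ∑' i, ∫⁻ z in K ∩ cylinder (u i) (B' i), weight K z := lintegral_iUnion_le _ _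
      _ = ∑ i, ∫⁻ z in K ∩ cylinder (u i) (B' i), weight K z := tsum_fintype _
      _ ≤ ∑ i, area (B' i) * (6 * volume K / area (shadow K (u i))) :=
          Finset.sum_le_sum (fun i _ => sym_cyl hE hK hKc h0 hsym (hu i) (hB'm i))
      _ = 6 * volume K * ∑ i, area (B i) / area (shadow K (u i)) := by
          rw [Finset.mul_sum]
          refine Finset.sum_congr rfl (fun i _ => ?_)
          rw [hB'a i, div_eq_mul_inv, div_eq_mul_inv]
          ring
  set S : ENNReal := ∑ i, area (B i) / area (shadow K (u i)) with hS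
  have h1 : volume K * 5 ≤ volume K * (12 * S) := by
    calc volume K * 5 = 5 * volume K := mul_comm _ _
      _ ≤ 2 * ∫⁻ z in K, weight K z := hmass
      _ ≤ 2 * (6 * volume K * S) := by gcongr
      _ = volume K * (12 * S) := by ring
  have h2 : (5 : ENNReal) ≤ 12 * S := (ENNReal.mul_le_mul_iff_right hV0 hVt).1 h1
  exact ENNReal.div_le_of_le_mul' h2

/-- Central symmetry about an arbitrary centre `c`. -/
theorem sym_centre (hE : Module.finrank ℝ E = 3) {K : Set E} (hK : Convex ℝ K) (hKc : IsCompact K)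
    (hKi : (interior K).Nonempty) (c : E) (hsym : ∀ x ∈ K, (2 : ℝ) • c - x ∈ K) {m : ℕ}
    (u : Fin m → E) (hu : ∀ i, u i ≠ 0) (B : ∀ i, Set (plane (u i)))
    (hcov : K ⊆ ⋃ i, cylinder (u i) (B i)) :
    (5 / 12 : ENNReal) ≤ ∑ i, area (B i) / area (shadow K (u i)) := by
  set K0 : Set E := (Homeomorph.addLeft c) ⁻¹' K with hK0
  have hmem : ∀ y, y ∈ K0 ↔ c + y ∈ K := fun y => Iff.rfl
  have hK0c : Convex ℝ K0 := hK.translate_preimage_right c
  have hK0k : IsCompact K0 := ((Homeomorph.addLeft c).isCompact_preimage (s := K)).2 hKc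
  have hK0i : (interior K0).Nonempty := by
    rw [hK0, ← (Homeomorph.addLeft c).preimage_interior]
    obtain ⟨x, hx⟩ := hKi
    refine ⟨-c + x, ?_⟩
    change c + (-c + x) ∈ interior K
    rwa [add_neg_cancel_left]
  have hK0s : ∀ y ∈ K0, -y ∈ K0 := by
    intro y hy
    have := hsym _ ((hmem y).1 hy)
    rw [hmem]
    have e : (2 : ℝ) • c - (c + y) = c + -y := by
      rw [two_smul]; abel
    rwa [e] at this
  set P : ∀ i, E →L[ℝ] plane (u i) := fun i => (plane (u i)).orthogonalProjectionOnto with hP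
  set B0 : ∀ i, Set (plane (u i)) := fun i => (fun b => P i c + b) ⁻¹' (B i) with hB0
  have hB0a : ∀ i, area (B0 i) = area (B i) := by
    intro i
    exact measure_preimage_add (volume : Measure (plane (u i))) (P i c) (B i)
  have hsh : ∀ i, area (shadow K0 (u i)) = area (shadow K (u i)) := by
    intro i
    have e : shadow K0 (u i) = (fun b => P i c + b) ⁻¹' (shadow K (u i)) := by
      ext b
      constructor
      · rintro ⟨y, hy, rfl⟩
        exact ⟨c + y, hy, map_add _ _ _⟩
      · rintro ⟨x, hx, hxb⟩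
        refine ⟨-c + x, ?_, ?_⟩
        · rw [hmem, add_neg_cancel_left]; exact hx
        · have h1 : P i (-c + x) = -(P i c) + P i x := by rw [map_add, map_neg]
          change P i (-c + x) = b
          rw [h1]
          have h2 : P i x = P i c + b := hxb
          rw [h2, neg_add_cancel_left]
    rw [e]
    exact measure_preimage_add (volume : Measure (plane (u i))) (P i c) (shadow K (u i))
  have hcov0 : K0 ⊆ ⋃ i, cylinder (u i) (B0 i) := by
    intro y hy
    obtain ⟨i, hi⟩ := mem_iUnion.1 (hcov ((hmem y).1 hy))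
    refine mem_iUnion.2 ⟨i, (mem_cylinder_iff _ _ _).2 ?_⟩
    have h1 := (mem_cylinder_iff _ _ _).1 hi
    rw [map_add] at h1
    exact h1
  have := sym_origin hE hK0c hK0k hK0i hK0s u hu B0 hcov0
  simp only [hB0a, hsh] at this
  exact this

end Vale.Agent.P243
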