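import Mathlib
import Vale.Agent.P243.PhiTransfer
import Vale.Agent.P243.SymFinal
import Vale.Agent.P243.Defs2

open MeasureTheory Set Topology Pointwise

namespace Vale.Agent.P243

variable {E : Type*} [NormedAddCommGroup E] [InnerProductSpace ℝ E] [FiniteDimensional ℝ E]
  [MeasurableSpace E] [BorelSpace E]

lemma shadow_pos {K : Set E} (hKi : (interior K).Nonempty) (u : E) : area (shadow K u) ≠ 0 := by
  have hsurj : Function.Surjective (plane u).orthogonalProjectionOnto := fun y =>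
    ⟨(y : E), Submodule.orthogonalProjectionOnto_mem_subspace_eq_self y⟩
  have hopen : IsOpenMap (plane u).orthogonalProjectionOnto :=
    (plane u).orthogonalProjectionOnto.isOpenMap hsurj
  have ho : IsOpen ((plane u).orthogonalProjectionOnto '' interior K) := hopen _ isOpen_interior
  have h1 : 0 < (volume : Measure (plane u)) ((plane u).orthogonalProjectionOnto '' interior K) :=
    ho.measure_pos volume (hKi.image _)
  exact (lt_of_lt_of_le h1 (measure_mono (image_mono interior_subset))).ne'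

lemma shadow_fin {K : Set E} (hKc : IsCompact K) (u : E) : area (shadow K u) ≠ ⊤ := by
  have h : (volume : Measure (plane u)) (shadow K u) < ⊤ :=
    (hKc.image (plane u).orthogonalProjectionOnto.continuous).measure_lt_top
  exact h.ne

/-- The basic inequality in parametrised form. -/
theorem phi_param (hE : Module.finrank ℝ E = 3) {K : Set E} (hK : Convex ℝ K) (hKc : IsCompact K)
    (hKi : (interior K).Nonempty) {m n : ℕ} (v : Fin m → E) (hv : ∀ j, v j ≠ 0)
    (B : ∀ j, Fin n → Set (plane (v j)))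
    (hcov : K ⊆ ⋃ j, ⋃ k, cylinder (v j) (B j k))
    (s : Fin m → ℝ) (hs0 : ∀ j, 0 ≤ s j) (hs1 : ∀ j, s j ≤ 1)
    (hs : ∀ j, min 1 (relArea K (v j) (B j)) ≤ ENNReal.ofReal ((s j) ^ 2)) :
    1 ≤ ∑ j, (3 * (s j) ^ 2 - 2 * (s j) ^ 3) := by
  set B' : ∀ j, Set (plane (v j)) :=
    fun j => toMeasurable (lebesgue (plane (v j))) (⋃ k, B j k) with hB'
  have hB'm : ∀ j, MeasurableSet (B' j) := fun j => measurableSet_toMeasurable _ _
  have hB'a : ∀ j, area (B' j) = area (⋃ k, B j k) := fun j => measure_toMeasurable _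
  have hB's : ∀ j, (⋃ k, B j k) ⊆ B' j := fun j => subset_toMeasurable _ _
  have hV0 : volume K ≠ 0 :=
    (lt_of_lt_of_le (isOpen_interior.measure_pos volume hKi) (measure_mono interior_subset)).ne'
  have hVt : volume K ≠ ⊤ := hKc.measure_lt_top.ne
  have hsub : K ⊆ ⋃ j, K ∩ cylinder (v j) (B' j) := by
    intro x hx
    obtain ⟨j, hj⟩ := mem_iUnion.1 (hcov hx)
    obtain ⟨k, hk⟩ := mem_iUnion.1 hj
    refine mem_iUnion.2 ⟨j, hx, cylinder_mono _ ?_ hk⟩
    exact (subset_iUnion (fun k => B j k) k).trans (hB's j)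
  have hphi : ∀ j, 0 ≤ 3 * (s j) ^ 2 - 2 * (s j) ^ 3 := by
    intro j
    nlinarith [sq_nonneg (s j), hs0 j, hs1 j]
  have hyp : ∀ j, area (B' j ∩ shadow K (v j))
      ≤ ENNReal.ofReal ((s j) ^ 2) * area (shadow K (v j)) := by
    intro j
    set a := area (shadow K (v j)) with ha
    have ha0 : a ≠ 0 := shadow_pos hKi (v j)
    have hat : a ≠ ⊤ := shadow_fin hKc (v j)
    have h1 : area (B' j ∩ shadow K (v j)) ≤ a := measure_mono inter_subset_right
    have h2 : area (B' j ∩ shadow K (v j)) ≤ relArea K (v j) (B j) * a := by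
      calc area (B' j ∩ shadow K (v j)) ≤ area (B' j) := measure_mono inter_subset_left
        _ = area (⋃ k, B j k) := hB'a j
        _ ≤ ∑ k, area (B j k) := measure_iUnion_fintype_le _ _
        _ = relArea K (v j) (B j) * a := by
            rw [relArea, ENNReal.div_mul_cancel ha0 hat]
    calc area (B' j ∩ shadow K (v j)) ≤ min 1 (relArea K (v j) (B j)) * a := by
          rcases le_total 1 (relArea K (v j) (B j)) with h | h
          · rw [min_eq_left h, one_mul]; exact h1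
          · rw [min_eq_right h]; exact h2
      _ ≤ _ := by gcongr; exact hs j
  have hmain : volume K ≤ ENNReal.ofReal (∑ j, (3 * (s j) ^ 2 - 2 * (s j) ^ 3)) * volume K := by
    calc volume K ≤ volume (⋃ j, K ∩ cylinder (v j) (B' j)) := measure_mono hsub
      _ ≤ ∑ j, volume (K ∩ cylinder (v j) (B' j)) := measure_iUnion_fintype_le _ _
      _ ≤ ∑ j, ENNReal.ofReal (3 * (s j) ^ 2 - 2 * (s j) ^ 3) * volume K :=
          Finset.sum_le_sum (fun j _ =>
            phi_cyl hE hK hKc hKi (hv j) (hB'm j) (hs0 j) (hs1 j) (hyp j))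
      _ = _ := by
          rw [← Finset.sum_mul, ENNReal.ofReal_sum_of_nonneg (fun j _ => hphi j)]
  have h3 : (1 : ENNReal) * volume K
      ≤ ENNReal.ofReal (∑ j, (3 * (s j) ^ 2 - 2 * (s j) ^ 3)) * volume K := by
    rw [one_mul]; exact hmain
  have h4 := (ENNReal.mul_le_mul_iff_left hV0 hVt).1 h3
  have h5 : ENNReal.ofReal 1 ≤ ENNReal.ofReal (∑ j, (3 * (s j) ^ 2 - 2 * (s j) ^ 3)) := by
    rw [ENNReal.ofReal_one]; exact h4
  exact (ENNReal.ofReal_le_ofReal_iff (Finset.sum_nonneg (fun j _ => hphi j))).1 h5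

lemma rpow_three_half {t : ℝ} (ht : 0 ≤ t) : t ^ (3 / 2 : ℝ) = (√t) ^ 3 := by
  rw [Real.sqrt_eq_rpow, ← Real.rpow_natCast, ← Real.rpow_mul ht]
  norm_num

/-- The inequality `1 + 2 ∑ b ^ (3/2) ≤ 3 ∑ b` and its linearisations. -/
theorem phi_main (hE : Module.finrank ℝ E = 3) {K : Set E} (hK : Convex ℝ K) (hKc : IsCompact K)
    (hKi : (interior K).Nonempty) {m n : ℕ} (v : Fin m → E) (hv : ∀ j, v j ≠ 0)
    (B : ∀ j, Fin n → Set (plane (v j)))
    (hcov : K ⊆ ⋃ j, ⋃ k, cylinder (v j) (B j k)) :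
    (1 + 2 * ∑ j, (min 1 (relArea K (v j) (B j))) ^ (3 / 2 : ℝ)
        ≤ 3 * ∑ j, min 1 (relArea K (v j) (B j))) ∧
      ∀ x : ℝ, 0 ≤ x → x ≤ 1 → ENNReal.ofReal (1 - m * x ^ 3)
        ≤ ENNReal.ofReal (3 * (1 - x)) * ∑ j, relArea K (v j) (B j) := by
  set b : Fin m → ENNReal := fun j => min 1 (relArea K (v j) (B j)) with hb
  have hb1 : ∀ j, b j ≤ 1 := fun j => min_le_left _ _
  have hbt : ∀ j, b j ≠ ⊤ := fun j => (lt_of_le_of_lt (hb1 j) ENNReal.one_lt_top).ne
  set t : Fin m → ℝ := fun j => (b j).toReal with ht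
  have ht0 : ∀ j, 0 ≤ t j := fun j => ENNReal.toReal_nonneg
  have ht1 : ∀ j, t j ≤ 1 := by
    intro j
    have := ENNReal.toReal_mono ENNReal.one_ne_top (hb1 j)
    simpa using this
  have hbt' : ∀ j, b j = ENNReal.ofReal (t j) := fun j => (ENNReal.ofReal_toReal (hbt j)).symm
  set s : Fin m → ℝ := fun j => √(t j) with hs
  have hs0 : ∀ j, 0 ≤ s j := fun j => Real.sqrt_nonneg _
  have hs1 : ∀ j, s j ≤ 1 := fun j => Real.sqrt_le_one.2 (ht1 j)
  have hs2 : ∀ j, (s j) ^ 2 = t j := fun j => Real.sq_sqrt (ht0 j)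
  have hpar := phi_param hE hK hKc hKi v hv B hcov s hs0 hs1 (by
    intro j
    rw [hs2 j, ← hbt' j])
  constructor
  · have e1 : ∀ j, (b j) ^ (3 / 2 : ℝ) = ENNReal.ofReal ((s j) ^ 3) := by
      intro j
      rw [hbt' j, ENNReal.ofReal_rpow_of_nonneg (ht0 j) (by norm_num), rpow_three_half (ht0 j)]
    have e2 : ∑ j, (b j) ^ (3 / 2 : ℝ) = ENNReal.ofReal (∑ j, (s j) ^ 3) := by
      rw [ENNReal.ofReal_sum_of_nonneg (fun j _ => pow_nonneg (hs0 j) 3)]
      exact Finset.sum_congr rfl (fun j _ => e1 j)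
    have e3 : ∑ j, b j = ENNReal.ofReal (∑ j, (s j) ^ 2) := by
      rw [ENNReal.ofReal_sum_of_nonneg (fun j _ => pow_nonneg (hs0 j) 2)]
      exact Finset.sum_congr rfl (fun j _ => by rw [hs2 j, hbt' j])
    have h3 : 0 ≤ ∑ j, (s j) ^ 3 := Finset.sum_nonneg (fun j _ => pow_nonneg (hs0 j) 3)
    have h2 : 0 ≤ ∑ j, (s j) ^ 2 := Finset.sum_nonneg (fun j _ => pow_nonneg (hs0 j) 2)
    rw [e2, e3]
    have c1 : (1 : ENNReal) = ENNReal.ofReal 1 := by simp
    have c2 : (2 : ENNReal) = ENNReal.ofReal 2 := by simp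
    have c3 : (3 : ENNReal) = ENNReal.ofReal 3 := by simp
    rw [c1, c2, c3, ← ENNReal.ofReal_mul (by norm_num), ← ENNReal.ofReal_mul (by norm_num),
      ← ENNReal.ofReal_add (by norm_num) (by positivity)]
    apply ENNReal.ofReal_le_ofReal
    have : ∑ j, (3 * (s j) ^ 2 - 2 * (s j) ^ 3) = 3 * ∑ j, (s j) ^ 2 - 2 * ∑ j, (s j) ^ 3 := by
      rw [Finset.sum_sub_distrib, Finset.mul_sum, Finset.mul_sum]
    rw [this] at hpar
    linarith
  · intro x hx0 hx1
    have hlin : ∀ j, 3 * (s j) ^ 2 - 2 * (s j) ^ 3 ≤ 3 * (1 - x) * t j + x ^ 3 := by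
      intro j
      rw [← hs2 j]
      nlinarith [mul_nonneg (sq_nonneg (s j - x)) (by linarith [hs0 j] : 0 ≤ 2 * s j + x)]
    have h1 : 1 ≤ 3 * (1 - x) * ∑ j, t j + m * x ^ 3 := by
      calc (1 : ℝ) ≤ ∑ j, (3 * (s j) ^ 2 - 2 * (s j) ^ 3) := hpar
        _ ≤ ∑ j, (3 * (1 - x) * t j + x ^ 3) := Finset.sum_le_sum (fun j _ => hlin j)
        _ = _ := by
            rw [Finset.sum_add_distrib, ← Finset.mul_sum]
            simp
    have h2 : 0 ≤ 3 * (1 - x) := by linarith
    calc ENNReal.ofReal (1 - m * x ^ 3) ≤ ENNReal.ofReal (3 * (1 - x) * ∑ j, t j) :=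
          ENNReal.ofReal_le_ofReal (by linarith)
      _ = ENNReal.ofReal (3 * (1 - x)) * ∑ j, b j := by
          rw [ENNReal.ofReal_mul h2, ENNReal.ofReal_sum_of_nonneg (fun j _ => ht0 j)]
          congr 1
          exact Finset.sum_congr rfl (fun j _ => (hbt' j).symm)
      _ ≤ _ := by
          gcongr with j
          exact min_le_right _ _

/-- Extracting a numerical lower bound from the linearised inequality. -/
lemma const_of_lin {R : ENNReal} {m : ℕ}
    (h : ∀ x : ℝ, 0 ≤ x → x ≤ 1 → ENNReal.ofReal (1 - m * x ^ 3) ≤ ENNReal.ofReal (3 * (1 - x)) * R)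
    {x c : ℝ} (hx0 : 0 ≤ x) (hx1 : x < 1) (_hc0 : 0 ≤ c) (hc : c * (3 * (1 - x)) ≤ 1 - m * x ^ 3) :
    ENNReal.ofReal c ≤ R := by
  have hpos : 0 < 3 * (1 - x) := by linarith
  have h1 : ENNReal.ofReal (3 * (1 - x)) * ENNReal.ofReal c ≤ ENNReal.ofReal (3 * (1 - x)) * R := by
    rw [← ENNReal.ofReal_mul hpos.le]
    refine le_trans (ENNReal.ofReal_le_ofReal ?_) (h x hx0 hx1.le)
    linarith
  exact (ENNReal.mul_le_mul_iff_right (ENNReal.ofReal_pos.2 hpos).ne' ENNReal.ofReal_ne_top).1 h1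

lemma consts_of_lin {R : ENNReal} {m : ℕ}
    (h : ∀ x : ℝ, 0 ≤ x → x ≤ 1 → ENNReal.ofReal (1 - m * x ^ 3) ≤ ENNReal.ofReal (3 * (1 - x)) * R) :
    (m ≤ 2 → ENNReal.ofReal (1 / 2) ≤ R) ∧ (m ≤ 3 → ENNReal.ofReal (101 / 225) ≤ R) ∧
      (m ≤ 4 → ENNReal.ofReal (23 / 54) ≤ R) ∧
      ENNReal.ofReal (1 / 3 + 2 / (9 * √(3 * m))) ≤ R := by
  refine ⟨?_, ?_, ?_, ?_⟩
  · intro hm
    have hm' : (m : ℝ) ≤ 2 := by exact_mod_cast hm
    exact const_of_lin h (x := 1 / 2) (by norm_num) (by norm_num) (by norm_num) (by nlinarith)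
  · intro hm
    have hm' : (m : ℝ) ≤ 3 := by exact_mod_cast hm
    exact const_of_lin h (x := 2 / 5) (by norm_num) (by norm_num) (by norm_num) (by nlinarith)
  · intro hm
    have hm' : (m : ℝ) ≤ 4 := by exact_mod_cast hm
    exact const_of_lin h (x := 1 / 3) (by norm_num) (by norm_num) (by norm_num) (by nlinarith)
  · rcases Nat.eq_zero_or_pos m with h0 | hpos
    · subst h0
      simp only [Nat.cast_zero, mul_zero, Real.sqrt_zero, div_zero, add_zero]
      exact const_of_lin h (x := 0) le_rfl (by norm_num) (by norm_num) (by norm_num)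
    · have hm1 : (1 : ℝ) ≤ m := by exact_mod_cast hpos
      set y := √(3 * (m : ℝ)) with hy
      have hy2 : y ^ 2 = 3 * m := Real.sq_sqrt (by positivity)
      have hy1 : 1 < y := by
        rw [hy]
        apply Real.lt_sqrt_of_sq_lt
        nlinarith
      have hy0 : 0 < y := by linarith
      have hx : (m : ℝ) * (1 / y) ^ 3 = (1 / y) / 3 := by
        have : (m : ℝ) = y ^ 2 / 3 := by rw [hy2]; ring
        rw [this]
        field_simp
      have e : 1 / 3 + 2 / (9 * y) = 1 / 3 + 2 * (1 / y) / 9 := by field_simp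
      rw [e]
      have hx0 : 0 < 1 / y := by positivity
      have hx1 : 1 / y < 1 := by rw [div_lt_one hy0]; exact hy1
      apply const_of_lin h (x := 1 / y) hx0.le hx1 (by positivity)
      rw [hx]
      nlinarith [sq_nonneg (1 / y)]

lemma minShadow_mul_relSum_le {K : Set E} (hKc : IsCompact K) (hKi : (interior K).Nonempty)
    {m n : ℕ} (v : Fin m → E) (hv : ∀ j, ‖v j‖ = 1) (B : ∀ j, Fin n → Set (plane (v j))) :
    minShadow K * relSum K v B ≤ totalArea v B := by
  rw [relSum, totalArea, Finset.mul_sum]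
  refine Finset.sum_le_sum (fun j _ => ?_)
  have h1 : minShadow K ≤ area (shadow K (v j)) := iInf₂_le (v j) (hv j)
  calc minShadow K * relArea K (v j) (B j)
      ≤ area (shadow K (v j)) * relArea K (v j) (B j) := by gcongr
    _ = ∑ k, area (B j k) := by
        rw [relArea, mul_comm, ENNReal.div_mul_cancel (shadow_pos hKi _) (shadow_fin hKc _)]

end Vale.Agent.P243
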